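import Mathlib

namespace Vale.Agent.P184

open Finset Matrix Equiv

variable {K : ℕ} {ι₁ ι₂ : Type*} [Fintype ι₁] [Fintype ι₂]

/-- Sign of a permutation as a real number. -/
def sg {α : Type*} [Fintype α] [DecidableEq α] (σ : Perm α) : ℝ := ((Perm.sign σ : ℤˣ) : ℤ)

theorem sg_mul {α : Type*} [Fintype α] [DecidableEq α] (σ τ : Perm α) :
    sg (σ * τ) = sg σ * sg τ := by simp [sg]

theorem sg_swap {α : Type*} [Fintype α] [DecidableEq α] {i j : α} (h : i ≠ j) :
    sg (swap i j) = -1 := by simp [sg, Perm.sign_swap h]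

theorem sg_mul_self {α : Type*} [Fintype α] [DecidableEq α] (σ : Perm α) : sg σ * sg σ = 1 := by
  unfold sg
  rcases Int.units_eq_one_or (Perm.sign σ) with h | h <;> simp [h]

theorem abs_sg {α : Type*} [Fintype α] [DecidableEq α] (σ : Perm α) : |sg σ| = 1 := by
  unfold sg
  rcases Int.units_eq_one_or (Perm.sign σ) with h | h <;> simp [h]

theorem alt_reindex (f : Perm (Fin K) → ℝ) (π : Perm (Fin K)) :
    ∑ σ : Perm (Fin K), sg σ * f (σ * π) = sg π * ∑ σ : Perm (Fin K), sg σ * f σ := by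
  rw [← Equiv.sum_comp (Equiv.mulRight π) (fun σ => sg σ * f σ), Finset.mul_sum]
  refine Finset.sum_congr rfl fun σ _ => ?_
  simp only [Equiv.coe_mulRight, sg_mul]
  linear_combination (-(sg σ * f (σ * π))) * sg_mul_self π

theorem alt_swap (f : Perm (Fin K) → ℝ) {i j : Fin K} (h : i ≠ j)
    (hf : ∀ σ, f (σ * swap i j) = f σ) : ∑ σ : Perm (Fin K), sg σ * f σ = 0 := by
  have := alt_reindex f (swap i j)
  simp only [hf, sg_swap h] at this
  linarith

/-- One term of the alternating sum. -/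
def term (e : ι₁ ⊕ (ι₂ × Bool) ≃ Fin K) (c : ι₁ → Fin K → ℝ) (J : ι₂ → Matrix (Fin K) (Fin K) ℝ)
    (κ : Fin K → Fin K) : ℝ :=
  (∏ i, c i (κ (e (.inl i)))) * ∏ r, J r (κ (e (.inr (r, false)))) (κ (e (.inr (r, true))))

/-- The wedge product of covectors `c` and bilinear forms `J` on the standard basis. -/
def W (e : ι₁ ⊕ (ι₂ × Bool) ≃ Fin K) (c : ι₁ → Fin K → ℝ) (J : ι₂ → Matrix (Fin K) (Fin K) ℝ) :
    ℝ := ∑ σ : Perm (Fin K), sg σ * term e c J σ

variable (e : ι₁ ⊕ (ι₂ × Bool) ≃ Fin K)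

theorem W_rank_one (c : ι₁ → Fin K → ℝ) (a b : ι₂ → Fin K → ℝ) :
    W e c (fun r => vecMulVec (a r) (b r)) =
      det (Matrix.of fun i => Sum.elim c (fun p => bif p.2 then b p.1 else a p.1) (e.symm i)) := by
  rw [← det_transpose, det_apply', W]
  refine Finset.sum_congr rfl fun σ _ => ?_
  congr 1
  rw [← e.prod_comp, Fintype.prod_sum_type, Fintype.prod_prod_type]
  simp [term, vecMulVec_apply, mul_comm]

/-- The entry functional. -/
def entry (i j : Fin K) : Matrix (Fin K) (Fin K) ℝ →ₗ[ℝ] ℝ where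
  toFun X := X i j
  map_add' _ _ := rfl
  map_smul' _ _ := rfl

/-- `W` as a multilinear map in the bilinear forms. -/
noncomputable def WM (c : ι₁ → Fin K → ℝ) :
    MultilinearMap ℝ (fun _ : ι₂ => Matrix (Fin K) (Fin K) ℝ) ℝ :=
  ∑ σ : Perm (Fin K), (sg σ * ∏ i, c i (σ (e (.inl i)))) •
    (MultilinearMap.mkPiAlgebra ℝ ι₂ ℝ).compLinearMap
      fun r => entry (σ (e (.inr (r, false)))) (σ (e (.inr (r, true))))

theorem WM_apply (c : ι₁ → Fin K → ℝ) (J : ι₂ → Matrix (Fin K) (Fin K) ℝ) :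
    WM e c J = W e c J := by
  simp only [WM, W, term, _root_.sum_apply, _root_.smul_apply, smul_eq_mul, mul_assoc,
    MultilinearMap.compLinearMap_apply, MultilinearMap.mkPiAlgebra_apply]
  rfl

theorem W_pull (Ξ : Matrix (Fin K) (Fin K) ℝ) (c : ι₁ → Fin K → ℝ)
    (J : ι₂ → Matrix (Fin K) (Fin K) ℝ) :
    W e (fun i => c i ᵥ* Ξ) (fun r => Ξᵀ * J r * Ξ) = det Ξ * W e c J := by
  let P : Matrix (Fin K) (Fin K) ℝ →ₗ[ℝ] Matrix (Fin K) (Fin K) ℝ :=
    { toFun := fun X => Ξᵀ * X * Ξ
      map_add' := fun X Y => by simp [mul_add, add_mul]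
      map_smul' := fun t X => by simp }
  have key : (WM e (fun i => c i ᵥ* Ξ)).compLinearMap (fun _ => P) = det Ξ • WM e c := by
    refine Module.Basis.ext_multilinear (fun _ => Matrix.stdBasis ℝ (Fin K) (Fin K)) fun v => ?_
    have h1 : ∀ r, Matrix.stdBasis ℝ (Fin K) (Fin K) (v r)
        = vecMulVec (Pi.single (v r).1 (1 : ℝ)) (Pi.single (v r).2 1) := fun r => by
      rw [← Matrix.single_eq_single_vecMulVec_single, ← Matrix.stdBasis_eq_single]
    have h2 : ∀ a b : Fin K → ℝ, P (vecMulVec a b) = vecMulVec (a ᵥ* Ξ) (b ᵥ* Ξ) := by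
      intro a b
      change Ξᵀ * vecMulVec a b * Ξ = _
      rw [mul_vecMulVec, vecMulVec_mul, mulVec_transpose]
    simp only [MultilinearMap.compLinearMap_apply, _root_.smul_apply, WM_apply, h1, h2,
      W_rank_one, smul_eq_mul]
    rw [mul_comm, ← det_mul]
    congr 1
    ext i j
    rw [mul_apply, of_apply]
    simp only [of_apply]
    rcases e.symm i with i' | ⟨r, _ | _⟩ <;> rfl
  have := congrArg (fun m : MultilinearMap ℝ (fun _ : ι₂ => Matrix (Fin K) (Fin K) ℝ) ℝ => m J) key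
  simpa [WM_apply, P] using this

theorem W_kill (c : ι₁ → Fin K → ℝ) (J : ι₂ → Matrix (Fin K) (Fin K) ℝ) {u : Fin K → ℝ}
    (hu : u ≠ 0) (hc : ∀ i, c i ⬝ᵥ u = 0) (h1 : ∀ r, J r *ᵥ u = 0) (h2 : ∀ r, u ᵥ* J r = 0) :
    W e c J = 0 := by
  have hn : u ⬝ᵥ u ≠ 0 := fun h => hu (dotProduct_self_eq_zero.1 h)
  set Ξ : Matrix (Fin K) (Fin K) ℝ := 1 - vecMulVec u ((u ⬝ᵥ u)⁻¹ • u) with hΞ
  have hd : det Ξ = 0 := by
    refine exists_mulVec_eq_zero_iff.1 ⟨u, hu, ?_⟩
    rw [hΞ, sub_mulVec, one_mulVec, vecMulVec_mulVec, smul_dotProduct, smul_eq_mul,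
      inv_mul_cancel₀ hn]
    simp
  have := W_pull e Ξ c J
  rw [hd, zero_mul] at this
  rw [← this]
  congr 1
  · funext i
    rw [hΞ, vecMul_sub, vecMul_one, vecMul_vecMulVec, hc]; simp
  · funext r
    have a1 : J r * Ξ = J r := by
      rw [hΞ, mul_sub, mul_one, mul_vecMulVec, h1]; simp
    have a2 : Ξᵀ * J r = J r := by
      rw [hΞ, transpose_sub, transpose_one, transpose_vecMulVec, sub_mul, one_mul, vecMulVec_mul,
        h2]; simp
    rw [a2, a1]

theorem W_update_single [DecidableEq ι₁] (c : ι₁ → Fin K → ℝ) (J : ι₂ → Matrix (Fin K) (Fin K) ℝ)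
    (i : ι₁) (x y : Fin K → ℝ) :
    W e (Function.update c i (x + y)) J
      = W e (Function.update c i x) J + W e (Function.update c i y) J := by
  unfold W
  rw [← Finset.sum_add_distrib]
  refine Finset.sum_congr rfl fun σ _ => ?_
  have h : ∀ z : Fin K → ℝ, ∏ i', Function.update c i z i' (σ (e (.inl i')))
      = z (σ (e (.inl i))) * ∏ i' ∈ univ.erase i, c i' (σ (e (.inl i'))) := by
    intro z
    rw [← Finset.mul_prod_erase univ _ (mem_univ i), Function.update_self]
    congr 1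
    refine Finset.prod_congr rfl fun i' hi => ?_
    rw [Function.update_of_ne (Finset.ne_of_mem_erase hi)]
  simp only [term, h, Pi.add_apply]
  ring

/-- Matrices that kill `W` in every slot. -/
def Null (c : ι₁ → Fin K → ℝ) (S : Matrix (Fin K) (Fin K) ℝ) : Prop :=
  ∀ (J : ι₂ → Matrix (Fin K) (Fin K) ℝ) (r : ι₂), J r = S → W e c J = 0

theorem Null.add {c : ι₁ → Fin K → ℝ} {S S' : Matrix (Fin K) (Fin K) ℝ} (h : Null e c S)
    (h' : Null e c S') : Null e c (S + S') := by
  classical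
  intro J r hr
  have := (WM e c).map_update_add J r S S'
  rw [← hr, Function.update_eq_self, WM_apply, WM_apply, WM_apply] at this
  rw [this, h _ r (by simp), h' _ r (by simp), add_zero]

theorem W_congr_null {c : ι₁ → Fin K → ℝ} {J S : ι₂ → Matrix (Fin K) (Fin K) ℝ}
    (h : ∀ r, Null e c (S r)) : W e c (fun r => S r + J r) = W e c J := by
  classical
  have := (WM e c).map_add_univ S J
  rw [WM_apply, Finset.sum_eq_single ∅] at this
  · rw [Finset.piecewise_empty, WM_apply] at this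
    exact this
  · intro s _ hs
    obtain ⟨r, hr⟩ := Finset.nonempty_iff_ne_empty.2 hs
    rw [WM_apply]
    exact h r _ r (by simp [hr])
  · simp

omit [Fintype ι₁] [Fintype ι₂] in
theorem swap_ne {p q x : ι₁ ⊕ (ι₂ × Bool)} (hp : x ≠ p) (hq : x ≠ q) :
    swap (e p) (e q) (e x) = e x :=
  swap_apply_of_ne_of_ne (e.injective.ne hp) (e.injective.ne hq)

theorem null_symm (c : ι₁ → Fin K → ℝ) {S : Matrix (Fin K) (Fin K) ℝ} (hS : ∀ i j, S i j = S j i) :
    Null e c S := by
  classical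
  intro J r hr
  refine alt_swap _ (i := e (.inr (r, false))) (j := e (.inr (r, true)))
    (e.injective.ne (by simp)) fun σ => ?_
  unfold term
  congr 1
  · refine Finset.prod_congr rfl fun i _ => ?_
    rw [Perm.mul_apply, swap_ne e (by simp) (by simp)]
  · refine Finset.prod_congr rfl fun r' _ => ?_
    by_cases h : r' = r
    · subst h
      simp only [Perm.mul_apply, swap_apply_left, swap_apply_right, hr]
      exact hS _ _
    · rw [Perm.mul_apply, Perm.mul_apply, swap_ne e (by simp [h]) (by simp [h]),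
        swap_ne e (by simp [h]) (by simp [h])]

theorem null_single (c : ι₁ → Fin K → ℝ) (a : Fin K → ℝ) (i : ι₁) :
    Null e c (vecMulVec a (c i)) := by
  classical
  intro J r hr
  refine alt_swap _ (i := e (.inl i)) (j := e (.inr (r, true)))
    (e.injective.ne (by simp)) fun σ => ?_
  unfold term
  rw [← Finset.mul_prod_erase univ _ (mem_univ i), ← Finset.mul_prod_erase univ _ (mem_univ r),
    ← Finset.mul_prod_erase univ (fun i => c i (σ (e (.inl i)))) (mem_univ i),
    ← Finset.mul_prod_erase univ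
      (fun r => J r (σ (e (.inr (r, false)))) (σ (e (.inr (r, true))))) (mem_univ r)]
  have h1 : ∏ i' ∈ univ.erase i, c i' ((σ * swap (e (.inl i)) (e (.inr (r, true)))) (e (.inl i')))
      = ∏ i' ∈ univ.erase i, c i' (σ (e (.inl i'))) := by
    refine Finset.prod_congr rfl fun i' hi => ?_
    rw [Perm.mul_apply, swap_ne e (by simp [Finset.ne_of_mem_erase hi]) (by simp)]
  have h2 : ∏ r' ∈ univ.erase r,
      J r' ((σ * swap (e (.inl i)) (e (.inr (r, true)))) (e (.inr (r', false))))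
        ((σ * swap (e (.inl i)) (e (.inr (r, true)))) (e (.inr (r', true))))
      = ∏ r' ∈ univ.erase r, J r' (σ (e (.inr (r', false)))) (σ (e (.inr (r', true)))) := by
    refine Finset.prod_congr rfl fun r' hr => ?_
    rw [Perm.mul_apply, Perm.mul_apply, swap_ne e (by simp) (by simp),
      swap_ne e (by simp) (by simp [Finset.ne_of_mem_erase hr])]
  rw [h1, h2]
  simp only [Perm.mul_apply, swap_apply_left, swap_apply_right, hr, vecMulVec_apply]
  rw [swap_ne e (by simp) (by simp)]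
  ring

theorem W_slot (c : ι₁ → Fin K → ℝ) (J : ι₂ → Matrix (Fin K) (Fin K) ℝ) (π : Perm ι₂) :
    W e c (fun r => J (π r)) = W e c J := by
  classical
  set P : Perm (Fin K) :=
    e.permCongr (Equiv.sumCongr (Equiv.refl ι₁) (prodCongrLeft fun _ : Bool => π)) with hP
  have hs : sg P = 1 := by
    simp [hP, sg, Perm.sign_sumCongr, Perm.sign_prodCongrLeft]
  have := alt_reindex (fun σ => term e c (fun r => J (π r)) σ) P
  rw [hs, one_mul] at this
  unfold W
  rw [← this]
  refine Finset.sum_congr rfl fun σ _ => ?_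
  congr 1
  unfold term
  congr 1
  · simp [hP]
  · rw [← Equiv.prod_comp π
      (fun r => J r (σ (e (.inr (r, false)))) (σ (e (.inr (r, true)))))]
    simp [hP]

theorem W_coord (c : ι₁ → Fin K → ℝ) (J : ι₂ → Matrix (Fin K) (Fin K) ℝ) (π : Perm (Fin K)) :
    W e (fun i j => c i (π j)) (fun r => (J r).submatrix π π) = sg π * W e c J := by
  unfold W
  rw [← Equiv.sum_comp (Equiv.mulLeft π) (fun σ => sg σ * term e c J σ), Finset.mul_sum]
  refine Finset.sum_congr rfl fun σ _ => ?_
  simp only [Equiv.coe_mulLeft, sg_mul]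
  have : term e (fun i j => c i (π j)) (fun r => (J r).submatrix π π) σ = term e c J (π * σ : Perm _) := by
    simp [term]
  rw [this]
  linear_combination (-(sg σ * term e c J (π * σ : Perm _))) * sg_mul_self π

theorem sum_perm_succ (f : (Fin (K + 1) → Fin (K + 1)) → ℝ) :
    ∑ σ : Perm (Fin (K + 1)), sg σ * f σ
      = ∑ a : Fin (K + 1), (-1) ^ (a : ℕ) *
        ∑ τ : Perm (Fin K), sg τ * f (Fin.cons a fun i => a.succAbove (τ i)) := by
  let φ : Fin (K + 1) × Perm (Fin K) → Perm (Fin (K + 1)) :=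
    fun p => (Fin.cycleRange p.1).symm * Perm.decomposeFin.symm (0, p.2)
  have h0 : ∀ p, φ p 0 = p.1 := by
    intro p
    simp [φ, Perm.decomposeFin_symm_apply_zero, Fin.cycleRange_symm_zero]
  have h1 : ∀ p i, φ p i.succ = p.1.succAbove (p.2 i) := by
    intro p i
    simp [φ, Perm.decomposeFin_symm_apply_succ, Fin.cycleRange_symm_succ]
  have hinj : Function.Injective φ := by
    rintro ⟨a, τ⟩ ⟨b, υ⟩ h
    have hab : a = b := by simpa [h0] using congrArg (fun σ : Perm _ => σ 0) h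
    subst hab
    congr 1
    ext i
    have := congrArg (fun σ : Perm _ => σ i.succ) h
    simp only [h1] at this
    rw [Fin.succAbove_right_injective this]
  have hb : Function.Bijective φ := (Fintype.bijective_iff_injective_and_card φ).2 ⟨hinj, by
    simp [Fintype.card_perm, Nat.factorial_succ]⟩
  rw [← hb.sum_comp, Fintype.sum_prod_type]
  refine Finset.sum_congr rfl fun a _ => ?_
  rw [Finset.mul_sum]
  refine Finset.sum_congr rfl fun τ _ => ?_
  have h2 : (φ (a, τ) : Fin (K + 1) → Fin (K + 1)) = Fin.cons a fun i => a.succAbove (τ i) := by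
    funext i
    refine Fin.cases ?_ (fun j => ?_) i
    · simp [h0]
    · simp [h1]
  have h3 : sg (φ (a, τ)) = (-1) ^ (a : ℕ) * sg τ := by
    simp [φ, sg, Perm.decomposeFin.symm_sign, Fin.sign_cycleRange]
  rw [h2, h3, mul_assoc]

end Vale.Agent.P184
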