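import Vale.Agent.P184.Alt

namespace Vale.Agent.P184

open Finset Matrix Equiv

variable {K : ℕ}

/-- The covector `a` has dual norm at most `α` for the quadratic form `N`. -/
def Bd (N : Matrix (Fin K) (Fin K) ℝ) (a : Fin K → ℝ) (α : ℝ) : Prop :=
  0 ≤ α ∧ ∀ v, |a ⬝ᵥ v| ≤ α * √(v ⬝ᵥ N *ᵥ v)

/-- The antisymmetric part of `J` has nuclear norm at most `c` for the quadratic form `N`. -/
def Mass (N J : Matrix (Fin K) (Fin K) ℝ) (c : ℝ) : Prop :=
  0 ≤ c ∧ ∀ (Λ : Matrix (Fin K) (Fin K) ℝ →ₗ[ℝ] ℝ) (C : ℝ), 0 ≤ C →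
    (∀ S : Matrix (Fin K) (Fin K) ℝ, (∀ i j, S i j = S j i) → Λ S = 0) →
    (∀ a b α β, Bd N a α → Bd N b β → |Λ (vecMulVec a b)| ≤ C * (α * β)) → |Λ J| ≤ C * c

variable {N : Matrix (Fin K) (Fin K) ℝ}

theorem Bd.mono {a : Fin K → ℝ} {α β : ℝ} (h : Bd N a α) (hle : α ≤ β) : Bd N a β :=
  ⟨h.1.trans hle, fun v => (h.2 v).trans (mul_le_mul_of_nonneg_right hle (Real.sqrt_nonneg _))⟩

theorem Bd.add {a b : Fin K → ℝ} {α β : ℝ} (h : Bd N a α) (h' : Bd N b β) :
    Bd N (a + b) (α + β) :=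
  ⟨add_nonneg h.1 h'.1, fun v => by
    rw [add_dotProduct, add_mul]
    exact (abs_add_le _ _).trans (add_le_add (h.2 v) (h'.2 v))⟩

theorem Bd.smul {a : Fin K → ℝ} {α : ℝ} (h : Bd N a α) (t : ℝ) : Bd N (t • a) (|t| * α) :=
  ⟨mul_nonneg (abs_nonneg _) h.1, fun v => by
    rw [smul_dotProduct, smul_eq_mul, abs_mul, mul_assoc]
    exact mul_le_mul_of_nonneg_left (h.2 v) (abs_nonneg _)⟩

theorem Bd.sub {a b : Fin K → ℝ} {α β : ℝ} (h : Bd N a α) (h' : Bd N b β) :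
    Bd N (a - b) (α + β) := by
  have := h.add (h'.smul (-1))
  simpa [sub_eq_add_neg] using this

theorem Bd.zero : Bd N 0 0 := ⟨le_rfl, fun v => by simp⟩

theorem Bd.sum {ι : Type*} (s : Finset ι) {a : ι → Fin K → ℝ} {α : ι → ℝ}
    (h : ∀ i ∈ s, Bd N (a i) (α i)) : Bd N (∑ i ∈ s, a i) (∑ i ∈ s, α i) := by
  classical
  induction s using Finset.induction_on with
  | empty => simpa using Bd.zero
  | insert i s hi ih =>
    rw [Finset.sum_insert hi, Finset.sum_insert hi]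
    exact (h i (by simp)).add (ih fun j hj => h j (by simp [hj]))

theorem Mass.mono {J : Matrix (Fin K) (Fin K) ℝ} {c c' : ℝ} (h : Mass N J c) (hle : c ≤ c') :
    Mass N J c' :=
  ⟨h.1.trans hle, fun Λ C hC hS hΛ => (h.2 Λ C hC hS hΛ).trans (mul_le_mul_of_nonneg_left hle hC)⟩

theorem Mass.add {J J' : Matrix (Fin K) (Fin K) ℝ} {c c' : ℝ} (h : Mass N J c)
    (h' : Mass N J' c') : Mass N (J + J') (c + c') :=
  ⟨add_nonneg h.1 h'.1, fun Λ C hC hS hΛ => by
    rw [map_add, mul_add]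
    exact (abs_add_le _ _).trans (add_le_add (h.2 Λ C hC hS hΛ) (h'.2 Λ C hC hS hΛ))⟩

theorem Mass.smul {J : Matrix (Fin K) (Fin K) ℝ} {c : ℝ} (h : Mass N J c) (t : ℝ) :
    Mass N (t • J) (|t| * c) :=
  ⟨mul_nonneg (abs_nonneg _) h.1, fun Λ C hC hS hΛ => by
    rw [map_smul, smul_eq_mul, abs_mul, mul_left_comm]
    exact mul_le_mul_of_nonneg_left (h.2 Λ C hC hS hΛ) (abs_nonneg _)⟩

theorem Mass.zero : Mass N 0 0 := ⟨le_rfl, fun Λ C _ _ _ => by simp⟩

theorem Mass.sum {ι : Type*} (s : Finset ι) {J : ι → Matrix (Fin K) (Fin K) ℝ} {c : ι → ℝ}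
    (h : ∀ i ∈ s, Mass N (J i) (c i)) : Mass N (∑ i ∈ s, J i) (∑ i ∈ s, c i) := by
  classical
  induction s using Finset.induction_on with
  | empty => simpa using Mass.zero
  | insert i s hi ih =>
    rw [Finset.sum_insert hi, Finset.sum_insert hi]
    exact (h i (by simp)).add (ih fun j hj => h j (by simp [hj]))

theorem Mass.rank_one {a b : Fin K → ℝ} {α β : ℝ} (h : Bd N a α) (h' : Bd N b β) :
    Mass N (vecMulVec a b) (α * β) :=
  ⟨mul_nonneg h.1 h'.1, fun _ _ _ _ hΛ => hΛ a b α β h h'⟩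

theorem det_le_exp {A : Matrix (Fin K) (Fin K) ℝ} (hA : A.PosSemidef) :
    A.det ≤ Real.exp (A.trace - K) := by
  rw [hA.1.det_eq_prod_eigenvalues, hA.1.trace_eq_sum_eigenvalues]
  simp only [RCLike.ofReal_real_eq_id, id]
  have : (∑ i, hA.1.eigenvalues i) - (K : ℝ) = ∑ i : Fin K, (hA.1.eigenvalues i - 1) := by
    simp [Finset.sum_sub_distrib]
  rw [this, Real.exp_sum]
  refine Finset.prod_le_prod (fun i _ => hA.eigenvalues_nonneg i) fun i _ => ?_
  have := Real.add_one_le_exp (hA.1.eigenvalues i - 1)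
  linarith

theorem hadamard (hN : N.PosDef) (φ : Fin K → Fin K → ℝ) (α : Fin K → ℝ)
    (h : ∀ i, Bd N (φ i) (α i)) : |det (Matrix.of φ)| ≤ √(det N) * ∏ i, α i := by
  by_cases h0 : ∃ i, α i = 0
  · obtain ⟨i, hi⟩ := h0
    have h1 := (h i).2 (φ i)
    rw [hi, zero_mul, abs_nonpos_iff, dotProduct_self_eq_zero] at h1
    rw [det_eq_zero_of_row_eq_zero i (fun j => by simp [h1]), abs_zero]
    exact mul_nonneg (Real.sqrt_nonneg _) (Finset.prod_nonneg fun i _ => (h i).1)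
  push Not at h0
  have hpos : ∀ i, 0 < α i := fun i => lt_of_le_of_ne (h i).1 (h0 i).symm
  set Ψ : Matrix (Fin K) (Fin K) ℝ := Matrix.of fun i j => (α i)⁻¹ * φ i j with hΨ
  have hps : (Ψ * N⁻¹ * Ψᴴ).PosSemidef := hN.inv.posSemidef.mul_mul_conjTranspose_same Ψ
  have hdN := hN.det_pos
  have hu : IsUnit N.det := hdN.ne'.isUnit
  have hdiag : ∀ i, (Ψ * N⁻¹ * Ψᴴ) i i ≤ 1 := by
    intro i
    set y : Fin K → ℝ := (α i)⁻¹ • φ i with hy
    have e1 : (Ψ * N⁻¹ * Ψᴴ) i i = y ⬝ᵥ N⁻¹ *ᵥ y := by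
      rw [dotProduct_mulVec, mul_apply]
      simp only [conjTranspose_apply, star_trivial]
      rfl
    have hb := ((h i).smul (α i)⁻¹).2 (N⁻¹ *ᵥ y)
    rw [abs_of_pos (inv_pos.2 (hpos i)), inv_mul_cancel₀ (h0 i), one_mul, mulVec_mulVec,
      mul_nonsing_inv _ hu, one_mulVec, ← hy, dotProduct_comm (N⁻¹ *ᵥ y)] at hb
    rw [e1]
    set z := y ⬝ᵥ N⁻¹ *ᵥ y
    by_contra hz
    push Not at hz
    have h2 : √z < z := by
      rw [Real.sqrt_lt' (by linarith)]; nlinarith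
    have := le_abs_self z
    linarith
  have htr : (Ψ * N⁻¹ * Ψᴴ).trace - K ≤ 0 := by
    have : (Ψ * N⁻¹ * Ψᴴ).trace ≤ ∑ _i : Fin K, (1 : ℝ) :=
      Finset.sum_le_sum fun i _ => hdiag i
    simpa using this
  have h3 := (det_le_exp hps).trans (Real.exp_le_one_iff.2 htr)
  rw [det_mul, det_mul, det_conjTranspose, star_trivial, det_nonsing_inv, Ring.inverse_eq_inv]
    at h3
  have h4 : det Ψ = (∏ i, α i)⁻¹ * det (Matrix.of φ) := by
    rw [hΨ, ← Finset.prod_inv_distrib]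
    exact det_mul_column (fun i => (α i)⁻¹) (Matrix.of φ)
  have hP : 0 < ∏ i, α i := Finset.prod_pos fun i _ => hpos i
  have h5 : |det Ψ| ≤ √(det N) := by
    refine Real.abs_le_sqrt ?_
    have : det Ψ * (det N)⁻¹ * det Ψ * det N ≤ 1 * det N := mul_le_mul_of_nonneg_right h3 hdN.le
    have e : det Ψ * (det N)⁻¹ * det Ψ * det N = det Ψ ^ 2 := by field_simp
    linarith
  rw [h4, abs_mul, abs_of_pos (inv_pos.2 hP), inv_mul_le_iff₀ hP] at h5
  linarith

variable {ι₁ ι₂ : Type*} [Fintype ι₁] [Fintype ι₂] (e : ι₁ ⊕ (ι₂ × Bool) ≃ Fin K)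

theorem W_bound (hN : N.PosDef) {c : ι₁ → Fin K → ℝ} {γ : ι₁ → ℝ} (hc : ∀ i, Bd N (c i) (γ i))
    {J : ι₂ → Matrix (Fin K) (Fin K) ℝ} {μ : ι₂ → ℝ} (hJ : ∀ r, Mass N (J r) (μ r)) :
    |W e c J| ≤ √(det N) * (∏ i, γ i) * ∏ r, μ r := by
  classical
  have key : ∀ (s : Finset ι₂) (J : ι₂ → Matrix (Fin K) (Fin K) ℝ) (μ : ι₂ → ℝ),
      (∀ r ∈ s, Mass N (J r) (μ r)) →
      (∀ r ∉ s, ∃ a b α β, J r = vecMulVec a b ∧ Bd N a α ∧ Bd N b β ∧ μ r = α * β) →
      |W e c J| ≤ √(det N) * (∏ i, γ i) * ∏ r, μ r := by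
    intro s
    induction s using Finset.induction_on with
    | empty =>
      intro J μ _ h
      choose a b α β h1 h2 h3 h4 using fun r => h r (by simp)
      have eJ : J = fun r => vecMulVec (a r) (b r) := funext h1
      rw [eJ, W_rank_one]
      refine (hadamard hN _ (fun i => Sum.elim γ (fun p => bif p.2 then β p.1 else α p.1) (e.symm i))
        fun i => ?_).trans (le_of_eq ?_)
      · rcases e.symm i with i' | ⟨r, _ | _⟩
        · exact hc i'
        · exact h2 r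
        · exact h3 r
      · rw [← e.prod_comp, Fintype.prod_sum_type, Fintype.prod_prod_type, mul_assoc]
        simp [h4, mul_comm]
    | insert r0 s hr0 ih =>
      intro J μ h1 h2
      have hμ : ∀ r, 0 ≤ μ r := by
        intro r
        by_cases hr : r ∈ insert r0 s
        · exact (h1 r hr).1
        · obtain ⟨a, b, α, β, _, ha, hb, e4⟩ := h2 r hr
          rw [e4]; exact mul_nonneg ha.1 hb.1
      have hC : 0 ≤ √(det N) * (∏ i, γ i) * ∏ r ∈ univ.erase r0, μ r :=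
        mul_nonneg (mul_nonneg (Real.sqrt_nonneg _) (Finset.prod_nonneg fun i _ => (hc i).1))
          (Finset.prod_nonneg fun r _ => hμ r)
      have := (h1 r0 (by simp)).2 ((WM e c).toLinearMap J r0) _ hC (by
        intro S hS
        rw [MultilinearMap.toLinearMap_apply, WM_apply]
        exact null_symm e c hS _ r0 (by simp)) (by
        intro a b α β ha hb
        rw [MultilinearMap.toLinearMap_apply, WM_apply]
        refine (ih _ (Function.update μ r0 (α * β)) ?_ ?_).trans (le_of_eq ?_)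
        · intro r hr
          have hne : r ≠ r0 := fun h => hr0 (h ▸ hr)
          rw [Function.update_of_ne hne, Function.update_of_ne hne]
          exact h1 r (by simp [hr])
        · intro r hr
          by_cases hne : r = r0
          · subst hne
            exact ⟨a, b, α, β, by simp, ha, hb, by simp⟩
          · rw [Function.update_of_ne hne, Function.update_of_ne hne]
            exact h2 r (by simp [hr, hne])
        · rw [Finset.prod_update_of_mem (mem_univ _), Finset.sdiff_singleton_eq_erase]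
          ring)
      rw [MultilinearMap.toLinearMap_apply, Function.update_eq_self, WM_apply] at this
      rw [← Finset.mul_prod_erase univ μ (mem_univ r0)]
      linarith
  exact key univ J μ (fun r _ => hJ r) (fun r hr => absurd (mem_univ r) hr)

/-- The quadratic form `∑ v_i^2 / ρ_i^2 + Q`. -/
noncomputable def formN (ρ : Fin K → ℝ) (Q : Matrix (Fin K) (Fin K) ℝ) : Matrix (Fin K) (Fin K) ℝ :=
  diagonal (fun i => (ρ i ^ 2)⁻¹) + Q

theorem formN_posDef {ρ : Fin K → ℝ} (hρ : ∀ i, 0 < ρ i) {Q : Matrix (Fin K) (Fin K) ℝ}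
    (hQ : Q.PosSemidef) : (formN ρ Q).PosDef :=
  (PosDef.diagonal fun i => inv_pos.2 (pow_pos (hρ i) 2)).add_posSemidef hQ

theorem formN_apply (ρ : Fin K → ℝ) (Q : Matrix (Fin K) (Fin K) ℝ) (v : Fin K → ℝ) :
    v ⬝ᵥ formN ρ Q *ᵥ v = ∑ i, v i ^ 2 / ρ i ^ 2 + v ⬝ᵥ Q *ᵥ v := by
  rw [formN, add_mulVec, dotProduct_add]
  congr 1
  refine Finset.sum_congr rfl fun i _ => ?_
  rw [mulVec_diagonal]; ring

theorem sqrt_det_formN {ρ : Fin K → ℝ} (hρ : ∀ i, 0 < ρ i) {Q : Matrix (Fin K) (Fin K) ℝ}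
    (hQ : Q.PosSemidef) {B : ℝ} (hB : ∑ i, ρ i ^ 2 * Q i i ≤ 2 * B) :
    √(det (formN ρ Q)) ≤ Real.exp B * ∏ i, (ρ i)⁻¹ := by
  have hps : (diagonal ρ * formN ρ Q * (diagonal ρ)ᴴ).PosSemidef :=
    (formN_posDef hρ hQ).posSemidef.mul_mul_conjTranspose_same _
  have h1 := det_le_exp hps
  have htr : (diagonal ρ * formN ρ Q * (diagonal ρ)ᴴ).trace - K = ∑ i, ρ i ^ 2 * Q i i := by
    have : ∀ i, (diagonal ρ * formN ρ Q * (diagonal ρ)ᴴ) i i = 1 + ρ i ^ 2 * Q i i := by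
      intro i
      have := (hρ i).ne'
      simp [formN]
      field_simp
    simp only [trace, diag_apply, this, Finset.sum_add_distrib]
    simp
  rw [htr, det_mul, det_mul, det_conjTranspose, star_trivial, det_diagonal] at h1
  have hP : 0 < ∏ i, ρ i := Finset.prod_pos fun i _ => hρ i
  rw [Finset.prod_inv_distrib, Real.sqrt_le_left (by positivity)]
  have h2 : Real.exp (∑ i, ρ i ^ 2 * Q i i) ≤ Real.exp B ^ 2 := by
    rw [← Real.exp_nat_mul]; exact Real.exp_le_exp.2 (by simpa using hB)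
  rw [mul_pow, inv_pow, ← div_eq_mul_inv, le_div_iff₀ (by positivity)]
  nlinarith

theorem bd_single {ρ : Fin K → ℝ} (hρ : ∀ i, 0 < ρ i) (hρ1 : ∀ i, ρ i ≤ 1)
    {Q : Matrix (Fin K) (Fin K) ℝ} (hQ : Q.PosSemidef) (i : Fin K) :
    Bd (formN ρ Q) (Pi.single i 1) 1 := by
  refine ⟨zero_le_one, fun v => ?_⟩
  rw [one_mul, single_dotProduct, one_mul, formN_apply]
  refine Real.abs_le_sqrt ?_
  have h1 := hQ.dotProduct_mulVec_nonneg v
  rw [star_trivial] at h1
  have h2 : v i ^ 2 / ρ i ^ 2 ≤ ∑ i, v i ^ 2 / ρ i ^ 2 :=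
    Finset.single_le_sum (f := fun i => v i ^ 2 / ρ i ^ 2) (fun i _ => by positivity) (mem_univ i)
  have h3 : v i ^ 2 ≤ v i ^ 2 / ρ i ^ 2 := by
    have := hρ i
    rw [le_div_iff₀ (by positivity)]
    have : ρ i ^ 2 ≤ 1 := by nlinarith [hρ1 i]
    nlinarith [sq_nonneg (v i)]
  linarith

end Vale.Agent.P184
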