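import Vale.Agent.P184.Geom
import Vale.Agent.P184.Hada

namespace Vale.Agent.P184

open Finset Matrix Filter Topology MeasureTheory

variable {G : Type*} [Group G] {k : ℕ}

/-- One dimensional majorant. -/
noncomputable def Fk : ℝ → ℝ := (Set.Ioi 0).indicator fun u => Real.exp (-u) * (1 + 2 * (√u)⁻¹)

theorem Fk_nonneg (u : ℝ) : 0 ≤ Fk u := Set.indicator_nonneg (fun _ _ => by positivity) u

theorem Fk_integrable : Integrable Fk := by
  refine IntegrableOn.integrable_indicator ?_ measurableSet_Ioi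
  have h := (integrableOn_exp_neg_Ioi 0).add
    ((Real.GammaIntegral_convergent (s := 1 / 2) (by norm_num)).const_mul 2)
  refine h.congr_fun (fun u hu => ?_) measurableSet_Ioi
  simp only [Pi.add_apply]
  rw [Real.sqrt_eq_rpow, ← Real.rpow_neg (le_of_lt hu)]
  norm_num
  ring

theorem inv_sqrt_le {u T : ℝ} (hu : 0 < u) (hT : 0 < T) (hT2 : T ≤ 2) :
    (√(min 1 (u / T)))⁻¹ ≤ Real.exp u * Fk u := by
  rw [Fk, Set.indicator_of_mem (show u ∈ Set.Ioi 0 from hu), ← mul_assoc, ← Real.exp_add,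
    add_neg_cancel, Real.exp_zero, one_mul]
  have h0 : 0 < √u := Real.sqrt_pos.2 hu
  rcases le_total 1 (u / T) with h | h
  · rw [min_eq_left h, Real.sqrt_one, inv_one]
    exact le_add_of_nonneg_right (by positivity)
  · rw [min_eq_right h]
    have h1 : √u / 2 ≤ √(u / T) := by
      refine Real.le_sqrt_of_sq_le ?_
      rw [div_pow, Real.sq_sqrt hu.le]
      exact div_le_div_of_nonneg_left hu.le hT (by linarith)
    have h2 := inv_anti₀ (by positivity) h1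
    rw [inv_div, div_eq_mul_inv 2] at h2
    linarith

variable {ι₁ ι₂ : Type*} [Fintype ι₁] [Fintype ι₂]

theorem IF_bound (l : Len G) {χ : ℝ → ℝ} (hχ0 : ∀ x, 0 ≤ χ x) (hχ : ∀ x, χ x ≤ 1)
    (hχ1 : ∀ x ≤ (1 : ℝ), χ x = 0) (hχ2 : ∀ x ≥ (2 : ℝ), χ x = 0) {M A : ℝ} (hM : 0 < M)
    (hA : 0 ≤ A) {e : ι₁ ⊕ (ι₂ × Bool) ≃ Fin (k + 1)} {c : ι₁ → Fam G} {φ : ι₂ → Fam G} {g : G}
    {x : Fin (k + 1) → G}
    (h : ∀ s, (∀ i, 0 < dur s i) → |Fs e c φ g x s| ≤ A * ∏ i, (rho l M g x s i)⁻¹) :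
    |IF χ e c φ g x| ≤ A * (Real.exp (2 * M) * ((∫ u, Fk u) / M) ^ (k + 1)) * Wt l g x := by
  have hW := Wt_nonneg l g x
  have hi : Integrable fun τ : Fin (k + 1) → ℝ => A * Real.exp (2 * M) * Wt l g x *
      ∏ i, Fk (M * τ i) :=
    (Integrable.fintype_prod (f := fun (_ : Fin (k + 1)) u => Fk (M * u))
      fun _ => Fk_integrable.comp_mul_left' hM.ne').const_mul _
  have hnn : ∀ τ : Fin (k + 1) → ℝ, 0 ≤ A * Real.exp (2 * M) * Wt l g x * ∏ i, Fk (M * τ i) :=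
    fun τ => mul_nonneg (by positivity) (Finset.prod_nonneg fun i _ => Fk_nonneg _)
  rw [← Real.norm_eq_abs]
  refine (norm_integral_le_of_norm_le hi.integrableOn ?_).trans
    ((setIntegral_le_integral hi (Eventually.of_forall hnn)).trans (le_of_eq ?_))
  · have hne : ∀ᵐ τ : Fin (k + 1) → ℝ, ∀ i, τ i ≠ 0 :=
      ae_all_iff.2 fun i => Measure.ae_eval_ne (fun _ => volume) i 0
    filter_upwards [ae_restrict_mem (measurableSet_Icc : MeasurableSet (box (k + 1))),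
      ae_restrict_of_ae hne] with τ hτ hne
    by_cases h0 : χ (∑ i, τ i) = 0
    · rw [h0, zero_mul, norm_zero]; exact hnn τ
    have h1 : 1 < ∑ i, τ i := not_le.1 fun h => h0 (hχ1 _ h)
    have h2 : ∑ i, τ i < 2 := not_le.1 fun h => h0 (hχ2 _ h)
    have hT : 0 < ∑ i, τ i := by linarith
    have hp : ∀ i, 0 < τ i := fun i => lt_of_le_of_ne (hτ.1 i) (hne i).symm
    have h3 := h (Sm τ) fun i => by rw [dur_Sm hT.ne']; exact div_pos (hp i) hT
    have h4 : ∏ i, (rho l M g x (Sm τ) i)⁻¹ ≤ ∏ i, (1 + l.n (step g x i)) *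
        (Real.exp (M * τ i) * Fk (M * τ i)) := by
      refine Finset.prod_le_prod (fun i _ => (inv_pos.2 (rho_pos l hM g x
        (fun i => by rw [dur_Sm hT.ne']; exact div_pos (hp i) hT) i)).le) fun i _ => ?_
      rw [rho, inv_div, div_eq_mul_inv, dur_Sm hT.ne', ← mul_div_assoc]
      exact mul_le_mul_of_nonneg_left (inv_sqrt_le (mul_pos hM (hp i)) hT h2.le)
        (by have := l.nonneg (step g x i); linarith)
    rw [Finset.prod_mul_distrib, Finset.prod_mul_distrib, ← Real.exp_sum, ← Finset.mul_sum] at h4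
    have h5 : Real.exp (M * ∑ i, τ i) ≤ Real.exp (2 * M) := Real.exp_le_exp.2 (by nlinarith)
    have h6 : (∑ i, τ i)⁻¹ ^ k ≤ 1 := pow_le_one₀ (inv_pos.2 hT).le (inv_le_one_of_one_le₀ h1.le)
    have hP : 0 ≤ ∏ i, Fk (M * τ i) := Finset.prod_nonneg fun i _ => Fk_nonneg _
    rw [Real.norm_eq_abs, abs_mul, abs_mul, abs_of_nonneg (hχ0 _),
      abs_of_nonneg (pow_nonneg (inv_pos.2 hT).le k)]
    calc _ ≤ 1 * (1 * |Fs e c φ g x (Sm τ)|) := by gcongr; exact hχ _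
      _ ≤ A * (Wt l g x * (Real.exp (2 * M) * ∏ i, Fk (M * τ i))) := by
        rw [one_mul, one_mul]
        refine h3.trans (mul_le_mul_of_nonneg_left (h4.trans ?_) hA)
        unfold Wt at hW ⊢
        gcongr
      _ = _ := by ring
  · rw [integral_const_mul, integral_fintype_prod_volume_eq_pow (fun u => Fk (M * u)),
      Measure.integral_comp_mul_left, abs_of_pos (inv_pos.2 hM), Fintype.card_fin, smul_eq_mul,
      div_eq_inv_mul]
    ring

/-- Control of a one-form at a point. -/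
def Ctl {K : ℕ} (N : Matrix (Fin K) (Fin K) ℝ) (c : Fin K → ℝ)
    (φ : (Fin K → ℝ) → (Fin K → ℝ) →L[ℝ] ℝ) (s : Fin K → ℝ) (γ : ℝ) : Prop :=
  Bd N (cv (φ s)) γ ∧ ∃ a J, toM (fderiv ℝ φ s) = vecMulVec a c + J ∧ Mass N J γ

theorem Ctl.mono {K : ℕ} {N : Matrix (Fin K) (Fin K) ℝ} {c : Fin K → ℝ}
    {φ : (Fin K → ℝ) → (Fin K → ℝ) →L[ℝ] ℝ} {s : Fin K → ℝ} {γ γ' : ℝ} (h : Ctl N c φ s γ)
    (hle : γ ≤ γ') : Ctl N c φ s γ' := by
  obtain ⟨h1, a, J, h2, h3⟩ := h
  exact ⟨h1.mono hle, a, J, h2, h3.mono hle⟩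

omit [Group G] in
theorem Fs_bound (e : ι₁ ⊕ (ι₂ × Bool) ≃ Fin (k + 1)) {c : ι₁ → Fam G} {φ : ι₂ → Fam G} {g : G}
    {x : Fin (k + 1) → G} {s : Fin (k + 1) → ℝ} {N : Matrix (Fin (k + 1)) (Fin (k + 1)) ℝ}
    (hN : N.PosDef) (i0 : ι₁) {γ : ℝ} (hc : ∀ i, Ctl N (cv (c i0 k g x s)) (c i k g x) s γ)
    (hφ : ∀ r, Ctl N (cv (c i0 k g x s)) (φ r k g x) s γ) :
    |Fs e c φ g x s| ≤ √(det N) * γ ^ (Fintype.card ι₁ + Fintype.card ι₂) := by
  choose a J h1 h2 using fun r => (hφ r).2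
  simp only [Fs, h1]
  rw [W_congr_null e fun r => null_single e (fun i => cv (c i k g x s)) (a r) i0]
  refine (W_bound e hN (fun i => (hc i).1) h2).trans (le_of_eq ?_)
  simp [pow_add, mul_assoc]

theorem vol_lower {χ : ℝ → ℝ} (hc : Continuous χ) (hχ0 : ∀ x, 0 ≤ χ x)
    (hχ1 : ∀ x ≤ (1 : ℝ), χ x = 0) (hχ : ∀ x, 5 / 4 ≤ x → x ≤ 7 / 4 → χ x = 1) (k : ℕ) :
    (4 * (k + 1 : ℝ))⁻¹ ^ (k + 1) ≤ ∫ τ in box (k + 1), χ (∑ i, τ i) * (∑ i, τ i)⁻¹ ^ k := by
  have hk : (0 : ℝ) < k + 1 := by positivity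
  have hi : IntegrableOn (fun τ : Fin (k + 1) → ℝ => χ (∑ i, τ i) * (∑ i, τ i)⁻¹ ^ k)
      (box (k + 1)) := by
    refine ContinuousOn.integrableOn_compact isCompact_Icc fun τ hτ =>
      ContinuousAt.continuousWithinAt ?_
    have hT : Continuous fun t : Fin (k + 1) → ℝ => ∑ i, t i := by fun_prop
    by_cases h : 0 < ∑ i, τ i
    · exact (hc.comp hT).continuousAt.mul ((hT.continuousAt.inv₀ h.ne').pow k)
    · refine continuousAt_const.congr (f := fun _ => 0) ?_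
      filter_upwards [hT.continuousAt.eventually (gt_mem_nhds (show ∑ i, τ i < 1 by linarith))]
        with t ht
      rw [hχ1 _ ht.le, zero_mul]
  set a : Fin (k + 1) → ℝ := fun _ => 5 / 4 / (k + 1) with ha
  set b : Fin (k + 1) → ℝ := fun _ => 7 / 4 / (k + 1) with hb
  have hab : a ≤ b := fun _ => div_le_div_of_nonneg_right (by norm_num) hk.le
  have hsub : Set.Icc a b ⊆ box (k + 1) := Set.Icc_subset_Icc (fun _ => by simp only [ha]; positivity)
    fun _ => by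
      simp only [hb]
      rw [div_le_iff₀ hk]
      have : (0 : ℝ) ≤ k := by positivity
      linarith
  refine le_trans ?_ (setIntegral_mono_set hi ?_ hsub.eventuallyLE)
  · refine le_trans ?_ (setIntegral_ge_of_const_le_real (c := (2 : ℝ)⁻¹ ^ (k + 1)) measurableSet_Icc
      isCompact_Icc.measure_lt_top.ne (fun τ hτ => ?_) (hi.mono_set hsub))
    · rw [Measure.real, Real.volume_Icc_pi_toReal hab]
      simp only [ha, hb, Finset.prod_const, card_univ, Fintype.card_fin, ← mul_pow]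
      refine le_of_eq ?_
      congr 1
      field_simp
      norm_num
    · have h1 : ∑ i, a i ≤ ∑ i, τ i := Finset.sum_le_sum fun i _ => hτ.1 i
      have h2 : ∑ i, τ i ≤ ∑ i, b i := Finset.sum_le_sum fun i _ => hτ.2 i
      simp only [ha, hb, Finset.sum_const, card_univ, Fintype.card_fin, nsmul_eq_mul, Nat.cast_add,
        Nat.cast_one, mul_div_cancel₀ _ hk.ne'] at h1 h2
      rw [hχ _ h1 h2, one_mul, pow_succ]
      calc _ ≤ (2 : ℝ)⁻¹ ^ k := mul_le_of_le_one_right (by positivity) (by norm_num)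
        _ ≤ _ := pow_le_pow_left₀ (by norm_num) (inv_anti₀ (by linarith) (by linarith)) k
  · filter_upwards [ae_restrict_mem (measurableSet_Icc : MeasurableSet (box (k + 1)))] with τ hτ
    exact mul_nonneg (hχ0 _) (pow_nonneg (inv_nonneg.2 (Finset.sum_nonneg fun i _ => hτ.1 i)) k)

end Vale.Agent.P184
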