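import Vale.Agent.P184.Theta

namespace Vale.Agent.P184

open Finset Matrix Filter Topology MeasureTheory

variable {G : Type*} [Group G] {k : ℕ} {A : Type*} [NormedRing A] {l : Len G} {tr : A →+ ℂ}
  {e : G → A} {c : ℝ}

theorem Idem.Lf_sum (H : Idem l tr e c) {ι : Type*} [Fintype ι]
    {f : ι → G → (Fin (k + 1) → G) → ℝ} (hf : ∀ i, Adm l (f i)) (a : ι → ℝ) :
    Lf tr e (fun g x => ∑ i, a i * f i g x) = ∑ i, a i * Lf tr e (f i) := by
  unfold Lf
  simp only [← tsum_mul_left]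
  rw [← Summable.tsum_finsetSum fun i _ => (H.summable (hf i)).mul_left _]
  refine tsum_congr fun x => ?_
  push_cast
  rw [Finset.mul_sum]
  exact Finset.sum_congr rfl fun i _ => by ring

theorem Idem.Lf_le (H : Idem l tr e c) {f : G → (Fin (k + 1) → G) → ℝ} {ψ : G → ℝ}
    (h0 : ∀ g, 0 ≤ ψ g) (hs : Summable fun g => ‖e g‖ * ψ g) {B : ℝ}
    (hf : ∀ g x, |f g x| ≤ B * ∏ i, ψ (step g x i)) :
    ‖Lf tr e f‖ ≤ max c 0 * B * (∑' g, ‖e g‖ * ψ g) ^ (k + 1) := by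
  refine tsum_of_norm_bounded ((hasSum_prod_pow (fun g => mul_nonneg (norm_nonneg _) (h0 g)) hs
    (k + 1)).mul_left (max c 0 * B)) fun a => ?_
  rw [norm_mul, Complex.norm_real, Real.norm_eq_abs, Finset.prod_mul_distrib]
  have h2 := hf (pp a (Fin.last k)) (pp a)
  rw [step_pp] at h2
  calc _ ≤ (max c 0 * ∏ i, ‖e (a i)‖) * (B * ∏ i, ψ (a i)) :=
        mul_le_mul (H.norm_wt a) h2 (abs_nonneg _)
          (mul_nonneg (le_max_right _ _) (Finset.prod_nonneg fun _ _ => norm_nonneg _))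
    _ = _ := by ring

/-- The cut off function. -/
noncomputable def bump : ContDiffBump (3 / 2 : ℝ) := ⟨1 / 4, 1 / 2, by norm_num, by norm_num⟩

theorem bump_le (x : ℝ) (hx : x ≤ 1) : bump x = 0 :=
  bump.zero_of_le_dist (by
    rw [Real.dist_eq, abs_of_nonpos (by linarith)]; change (1 / 2 : ℝ) ≤ _; linarith)

theorem bump_ge (x : ℝ) (hx : x ≥ 2) : bump x = 0 :=
  bump.zero_of_le_dist (by
    rw [Real.dist_eq, abs_of_nonneg (by linarith)]; change (1 / 2 : ℝ) ≤ _; linarith)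

theorem bump_one (x : ℝ) (h1 : 5 / 4 ≤ x) (h2 : x ≤ 7 / 4) : bump x = 1 :=
  bump.one_of_mem_closedBall (by
    rw [Metric.mem_closedBall, Real.dist_eq, abs_le]
    change -(1 / 4 : ℝ) ≤ _ ∧ _ ≤ (1 / 4 : ℝ)
    constructor <;> linarith)

variable {L η ρ M : ℝ} {Λ : Fam G}

/-- The three families used in the argument. -/
def Tri (Λ : Fam G) (η : ℝ) (ψ : Fam G) : Prop := ψ = th0 ∨ ψ = th Λ η - th0 ∨ ψ = th Λ η

theorem AnFam.tri_good (h : AnFam l L η ρ M Λ) (hη : 0 < η) {ψ : Fam G} (hψ : Tri Λ η ψ) :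
    ∃ d, Good ψ d := by
  rcases hψ with rfl | rfl | rfl
  exacts [⟨_, th0_good⟩, ⟨_, (h.th_good hη).sub th0_good⟩, ⟨_, h.th_good hη⟩]

theorem AnFam.adm (h : AnFam l L η ρ M Λ) (hη : 0 < η) (hk : (k : ℝ) + 1 ≤ M) {φ : G → ℝ}
    (hφ : ∀ h g, φ (h * g * h⁻¹) = φ g) (h1 : ∀ g, |φ g| ≤ 1)
    (hD : ∀ g, φ g ≠ 0 → l.Disp ρ ⌈l.C * Real.exp ρ⌉₊ g) {ι₁ ι₂ : Type*} [Fintype ι₁] [Fintype ι₂]
    (p : ι₁ ⊕ (ι₂ × Bool) ≃ Fin (k + 1)) {a : ι₁ → Fam G} {ψ : ι₂ → Fam G} (i0 : ι₁)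
    (h0 : a i0 = th Λ η) (ha : ∀ i, Tri Λ η (a i)) (hψ : ∀ r, Tri Λ η (ψ r)) :
    (Adm l fun g x => φ g * IF bump p a ψ g x) ∧ ∀ g x, |φ g * IF bump p a ψ g x| ≤
      Real.exp (2 * M) * (3 * M) ^ (Fintype.card ι₁ + Fintype.card ι₂) *
        (Real.exp (2 * M) * ((∫ u, Fk u) / M) ^ (k + 1)) * Wt l g x := by
  have hM : 0 < M := lt_of_lt_of_le (by positivity) hk
  have key : ∀ g x, |φ g * IF bump p a ψ g x| ≤
      Real.exp (2 * M) * (3 * M) ^ (Fintype.card ι₁ + Fintype.card ι₂) *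
        (Real.exp (2 * M) * ((∫ u, Fk u) / M) ^ (k + 1)) * Wt l g x := by
    intro g x
    by_cases hg : φ g = 0
    · have := Wt_nonneg l g x
      have : 0 ≤ ∫ u, Fk u := integral_nonneg Fk_nonneg
      rw [hg, zero_mul, abs_zero]; positivity
    rw [abs_mul]
    refine (mul_le_of_le_one_left (abs_nonneg _) (h1 g)).trans (IF_bound l (fun _ => bump.nonneg)
      (fun _ => bump.le_one) bump_le bump_ge hM (by positivity) fun s hs => ?_)
    obtain ⟨N, hN, hd, c1, c2, c3, -⟩ := h.ctl hη hk (hD g hg) x hs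
    have hc : ∀ ψ, Tri Λ η ψ → Ctl N (cv (a i0 k g x s)) (ψ k g x) s (3 * M) := by
      rw [h0]
      rintro ψ (rfl | rfl | rfl)
      exacts [c1, c2, c3]
    refine (Fs_bound p hN i0 (fun i => hc _ (ha i)) fun r => hc _ (hψ r)).trans ?_
    rw [mul_right_comm]
    exact mul_le_mul_of_nonneg_right hd (by positivity)
  refine ⟨⟨fun u g x => ?_, _, key⟩, key⟩
  have := IF_inv bump p (fun i => (h.tri_good hη (ha i)).choose_spec.nat)
    (fun r => (h.tri_good hη (hψ r)).choose_spec.nat) u g x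
  simp only [hφ, this]

theorem AnFam.Lf_top (h : AnFam l L η ρ M Λ) (hη : 0 < η) (H : Idem l tr e c) (hk : Odd k)
    (hM : ((k + 1 : ℕ) : ℝ) + 1 ≤ M) {φ : G → ℝ}
    (hφ : ∀ h g, φ (h * g * h⁻¹) = φ g) (h1 : ∀ g, |φ g| ≤ 1)
    (hD : ∀ g, φ g ≠ 0 → l.Disp ρ ⌈l.C * Real.exp ρ⌉₊ g) {ι : Type*} [Fintype ι]
    (p : Bool ⊕ (ι × Bool) ≃ Fin (k + 1)) :
    Lf tr e (fun g x => φ g * IF bump (topPat p) (fun _ => th Λ η) (fun _ => th Λ η) g x)
      = (((∫ τ in box (k + 2), bump (∑ i, τ i) * (∑ i, τ i)⁻¹ ^ (k + 1)) *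
        W (topPat p) (fun _ => Pi.single 0 1) fun _ => J1 (k + 1) : ℝ) : ℂ) *
        ∑' g, tr (e g) * (φ g : ℂ) := by
  classical
  have hθ := h.th_good hη
  have hα : Good (th Λ η - th0) 0 := by simpa using hθ.sub th0_good
  have hM' : (k : ℝ) + 1 ≤ M := by push_cast at hM; linarith
  have zero : ∀ ψ : Option ι → Fam G, (∀ r, Tri Λ η (ψ r)) → ψ none = th Λ η - th0 →
      Lf tr e (fun g x => φ g * IF bump (topPat p) (fun _ => th Λ η) ψ g x) = 0 := by
    intro ψ hψ h0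
    choose d hd using fun r => h.tri_good hη (hψ r)
    have hd' : ∀ r, Good (ψ r) (Function.update d none 0 r) := by
      rintro (_ | r)
      · simpa [h0] using hα
      · simpa using hd (some r)
    have ha : ∀ b, Tri Λ η (bif b then ψ none else th Λ η) := by
      rintro (_ | _)
      exacts [Or.inr (Or.inr rfl), hψ none]
    have hA := (h.adm hη hM' hφ h1 hD p false rfl ha fun r => hψ (some r)).1
    simp only [IF_stokes bump.contDiff bump_le bump_ge p hθ hd' (by simp), Finset.mul_sum,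
      mul_left_comm (φ _)]
    rw [H.Lf_sum fun a => hA.face a]
    refine Finset.sum_eq_zero fun a _ => ?_
    rw [H.Lf_face_zero a hA, mul_zero]
    intro g x
    rw [IF_rot bump_le p (fun b => (h.tri_good hη (ha b)).choose_spec.nat) fun r => hd (some r),
      hk.neg_one_pow]
    ring
  have e1 : th Λ η = th Λ η - th0 + th0 := (sub_add_cancel _ _).symm
  have hT : ∀ (B : Finset (Option ι)) r,
      Tri Λ η (B.piecewise (fun _ => th Λ η - th0) (fun _ => th0) r) := by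
    intro B r
    by_cases hr : r ∈ B <;> simp [hr, Tri]
  have e2 : (fun g x => φ g * IF bump (topPat p) (fun _ => th Λ η) (fun _ => th Λ η) g x)
      = fun g x => ∑ B : Finset (Option ι), 1 * (φ g * IF bump (topPat p) (fun _ => th Λ η)
        (B.piecewise (fun _ => th Λ η - th0) fun _ => th0) g x) := by
    funext g x
    simp only [one_mul, ← Finset.mul_sum]
    rw [← IF_expand bump.continuous bump_le (topPat p) (fun _ => hθ) hα th0_good, ← e1]
  rw [e2, H.Lf_sum fun B => (h.adm hη hM hφ h1 hD (topPat p) () rfl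
    (fun _ => Or.inr (Or.inr rfl)) (hT B)).1, Finset.sum_eq_single ∅]
  · simp only [Finset.piecewise_empty, IF_th0 bump_le (topPat p) hθ]
    rw [H.Lf_const (fun u g => by rw [hφ]) (fun g => by
      rw [abs_mul]; exact mul_le_of_le_one_left (abs_nonneg _) (h1 g)), ← tsum_mul_left,
      ← tsum_mul_left]
    refine tsum_congr fun g => ?_
    push_cast; ring
  · intro B _ hB
    obtain ⟨r, hr⟩ := Finset.nonempty_iff_ne_empty.2 hB
    rw [← IF_slot bump (topPat p) _ _ (Equiv.swap none r), zero _ (fun _ => hT B _) (by simp [hr]),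
      mul_zero]
  · simp

theorem AnFam.top_le (h : AnFam l L η ρ M Λ) (hη : 0 < η) (hk : (k : ℝ) + 1 ≤ M) {φ : G → ℝ}
    (hφ : ∀ h g, φ (h * g * h⁻¹) = φ g) (h1 : ∀ g, |φ g| ≤ 1)
    (hD : ∀ g, φ g ≠ 0 → l.Disp ρ ⌈l.C * Real.exp ρ⌉₊ g) {ι : Type*} [Fintype ι]
    (p : Unit ⊕ (ι × Bool) ≃ Fin (k + 1)) {κ : ℝ} (hκ : 0 ≤ κ) (g : G) (x : Fin (k + 1) → G) :
    |φ g * IF bump p (fun _ => th Λ η) (fun _ => th Λ η) g x| ≤
      Real.exp (2 * M) * ((2 * η * M) ^ (1 + Fintype.card ι) +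
        (3 * M) ^ (1 + Fintype.card ι) * Real.exp (-(κ * L * M))) *
        (Real.exp (2 * M) * ((∫ u, Fk u) / M) ^ (k + 1)) *
        ∏ i, (1 + l.n (step g x i)) * Real.exp (κ * l.n (step g x i)) := by
  have hM : 0 < M := lt_of_lt_of_le (by positivity) hk
  have hW := Wt_nonneg l g x
  have hF : 0 ≤ ∫ u, Fk u := integral_nonneg Fk_nonneg
  have hs0 : 0 ≤ ∑ i, l.n (step g x i) := Finset.sum_nonneg fun i _ => l.nonneg _
  rw [Finset.prod_mul_distrib, ← Real.exp_sum, ← Finset.mul_sum, ← Wt]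
  by_cases hL : ∑ i, l.n (step g x i) ≤ L * M
  · by_cases hg : φ g = 0
    · rw [hg, zero_mul, abs_zero]; positivity
    rw [abs_mul]
    refine (mul_le_of_le_one_left (abs_nonneg _) (h1 g)).trans ((IF_bound l
      (A := Real.exp (2 * M) * (2 * η * M) ^ (1 + Fintype.card ι)) (fun _ => bump.nonneg)
      (fun _ => bump.le_one) bump_le bump_ge hM (by positivity) fun s hs => ?_).trans ?_)
    · obtain ⟨N, hN, hd, -, -, -, c4⟩ := h.ctl hη hk (hD g hg) x hs
      refine (Fs_bound p hN () (fun _ => c4 hL) fun _ => c4 hL).trans ?_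
      rw [mul_right_comm (Real.exp _), Fintype.card_unit]
      exact mul_le_mul_of_nonneg_right hd (by positivity)
    · gcongr
      · exact le_add_of_nonneg_right (by positivity)
      · exact le_mul_of_one_le_right hW (Real.one_le_exp (by positivity))
  · refine ((h.adm hη hk hφ h1 hD p () rfl (fun _ => Or.inr (Or.inr rfl))
      fun _ => Or.inr (Or.inr rfl)).2 g x).trans ?_
    have h2 : 1 ≤ Real.exp (-(κ * L * M)) * Real.exp (κ * ∑ i, l.n (step g x i)) := by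
      rw [← Real.exp_add]
      exact Real.one_le_exp (by nlinarith [not_le.1 hL])
    rw [Fintype.card_unit]
    calc _ ≤ Real.exp (2 * M) * (3 * M) ^ (1 + Fintype.card ι) *
          (Real.exp (2 * M) * ((∫ u, Fk u) / M) ^ (k + 1)) * Wt l g x *
          (Real.exp (-(κ * L * M)) * Real.exp (κ * ∑ i, l.n (step g x i))) :=
          le_mul_of_one_le_right (by positivity) h2
      _ = Real.exp (2 * M) * ((3 * M) ^ (1 + Fintype.card ι) * Real.exp (-(κ * L * M))) *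
          (Real.exp (2 * M) * ((∫ u, Fk u) / M) ^ (k + 1)) *
          (Wt l g x * Real.exp (κ * ∑ i, l.n (step g x i))) := by ring
      _ ≤ _ := by
          gcongr
          exact le_add_of_nonneg_left (by positivity)

theorem numeric {t c F E B η X : ℝ} {n : ℕ} (hc : 0 ≤ c) (hF : 0 ≤ F) (hE : 0 ≤ E)
    (hB1 : 1 ≤ B) (hB : 4 * Real.exp 6 * F * E ≤ B) (hη : 2 * η = (2 * B)⁻¹ ^ 2)
    (hX : X = (6 * B)⁻¹ ^ (2 * n + 3)) {M : ℝ} (hM : M = (2 * n + 3 : ℕ))
    (h : (4 * M)⁻¹ ^ (2 * n + 3) * (n + 1).factorial * t ≤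
      c * (Real.exp (2 * M) * ((2 * η * M) ^ (n + 2) + (3 * M) ^ (n + 2) * X) *
        (Real.exp (2 * M) * (F / M) ^ (2 * n + 3))) * E ^ (2 * n + 3)) :
    t ≤ 2 * c * 2⁻¹ ^ n := by
  have hM0 : 0 < M := by rw [hM]; positivity
  have hf : (0 : ℝ) < (n + 1).factorial := by positivity
  have hex : ∀ a : ℝ, Real.exp (a * M) = Real.exp a ^ (2 * n + 3) := fun a => by
    rw [← Real.exp_nat_mul, hM, mul_comm]
  have h1 : M ^ (n + 2) ≤ (n + 1).factorial * Real.exp (2 * M) := by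
    have a1 := Real.pow_div_factorial_le_exp M hM0.le (n + 2)
    rw [div_le_iff₀ (by positivity), Nat.factorial_succ] at a1
    have a2 : ((n + 1 + 1 : ℕ) : ℝ) ≤ Real.exp M := by
      have := Real.add_one_le_exp M
      have : (0 : ℝ) ≤ n := by positivity
      rw [hM] at *; push_cast at *; linarith
    rw [two_mul, Real.exp_add]
    push_cast at a1 a2
    refine a1.trans ?_
    nlinarith [mul_le_mul_of_nonneg_left a2 (mul_pos hf (Real.exp_pos M)).le]
  have h2 : (2 * η) ^ (n + 2) + 3 ^ (n + 2) * X ≤ 2 * (2 * B)⁻¹ ^ (2 * n + 3) := by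
    have a1 : (2 * η) ^ (n + 2) ≤ (2 * B)⁻¹ ^ (2 * n + 3) := by
      rw [hη, ← pow_mul]
      exact pow_le_pow_of_le_one (by positivity) (inv_le_one_of_one_le₀ (by linarith)) (by omega)
    have a2 : (3 : ℝ) ^ (n + 2) * X ≤ (2 * B)⁻¹ ^ (2 * n + 3) := by
      rw [hX, show (2 * B)⁻¹ = 3 * (6 * B)⁻¹ by field_simp; norm_num, mul_pow]
      exact mul_le_mul_of_nonneg_right (pow_le_pow_right₀ (by norm_num) (by omega)) (by positivity)
    linarith
  have h3 : c * (Real.exp (2 * M) * ((2 * η * M) ^ (n + 2) + (3 * M) ^ (n + 2) * X) *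
        (Real.exp (2 * M) * (F / M) ^ (2 * n + 3))) * E ^ (2 * n + 3)
      = (4 * M)⁻¹ ^ (2 * n + 3) * (c * (4 * Real.exp 4 * F * E) ^ (2 * n + 3) *
        (M ^ (n + 2) * ((2 * η) ^ (n + 2) + 3 ^ (n + 2) * X))) := by
    have e1 : Real.exp 4 = Real.exp 2 * Real.exp 2 := by rw [← Real.exp_add]; norm_num
    have e2 : F / M = (4 * M)⁻¹ * (4 * F) := by field_simp
    rw [hex, e1, e2]
    simp only [mul_pow]
    ring
  rw [h3, mul_assoc] at h
  have h4 := le_of_mul_le_mul_left h (by positivity)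
  have hη0 : 0 ≤ 2 * η := by rw [hη]; positivity
  have hX0 : 0 ≤ X := by rw [hX]; positivity
  refine le_of_mul_le_mul_left (h4.trans ?_) hf
  calc _ ≤ c * (4 * Real.exp 4 * F * E) ^ (2 * n + 3) *
        ((n + 1).factorial * Real.exp (2 * M) * (2 * (2 * B)⁻¹ ^ (2 * n + 3))) := by gcongr
    _ = (n + 1).factorial * (2 * c * (4 * Real.exp 6 * F * E * (2 * B)⁻¹) ^ (2 * n + 3)) := by
      have e1 : Real.exp 6 = Real.exp 4 * Real.exp 2 := by rw [← Real.exp_add]; norm_num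
      rw [hex, e1]
      simp only [mul_pow]
      ring
    _ ≤ (n + 1).factorial * (2 * c * 2⁻¹ ^ (2 * n + 3)) := by
      gcongr
      rw [mul_inv_le_iff₀ (by linarith)]
      linarith
    _ ≤ _ := by
      gcongr ?_ * (2 * c * ?_)
      exact pow_le_pow_of_le_one (by norm_num) (by norm_num) (by omega)

theorem core (hA : AnCore l) (H : Idem l tr e c) {κ : ℝ} (hκ : 0 < κ)
    (hE : Summable fun g => ‖e g‖ * ((1 + l.n g) * Real.exp (κ * l.n g))) :
    ∃ ρ : ℝ, ∀ φ : G → ℝ, (∀ h g, φ (h * g * h⁻¹) = φ g) → (∀ g, |φ g| ≤ 1) →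
      (∀ g, φ g ≠ 0 → l.Disp ρ ⌈l.C * Real.exp ρ⌉₊ g) → ∑' g, tr (e g) * (φ g : ℂ) = 0 := by
  have hψ : ∀ g, 0 ≤ (1 + l.n g) * Real.exp (κ * l.n g) := fun g => by
    have := l.nonneg g
    positivity
  set E := ∑' g, ‖e g‖ * ((1 + l.n g) * Real.exp (κ * l.n g))
  have hE0 : 0 ≤ E := tsum_nonneg fun g => mul_nonneg (norm_nonneg _) (hψ g)
  set B := max 1 (4 * Real.exp 6 * (∫ u, Fk u) * E)
  have hB1 : 1 ≤ B := le_max_left _ _
  have hη : 0 < (2 * B)⁻¹ ^ 2 / 2 := by positivity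
  obtain ⟨ρ, M₀, hM⟩ := hA (Real.log (6 * B) / κ) _
    (div_pos (Real.log_pos (by linarith)) hκ) hη
  refine ⟨ρ, fun φ hφ h1 hD => norm_le_zero_iff.1 ?_⟩
  have hlim : Tendsto (fun n : ℕ => 2 * max c 0 * (2⁻¹ : ℝ) ^ n) atTop (𝓝 0) := by
    simpa using (tendsto_pow_atTop_nhds_zero_of_lt_one (r := (2⁻¹ : ℝ)) (by norm_num)
      (by norm_num)).const_mul (2 * max c 0)
  refine ge_of_tendsto hlim (eventually_atTop.2 ⟨M₀, fun n hn => ?_⟩)
  obtain ⟨Λ, h⟩ := hM (2 * n + 3) (by omega)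
  let p : Bool ⊕ (Fin n × Bool) ≃ Fin (2 * n + 1 + 1) :=
    Fintype.equivFinOfCardEq (by simp; ring)
  have hk : ((2 * n + 1 + 1 : ℕ) : ℝ) + 1 ≤ (2 * n + 3 : ℕ) := by push_cast; linarith
  have a1 := h.Lf_top hη H (k := 2 * n + 1) (by simp) hk hφ h1 hD p
  have a2 := H.Lf_le hψ hE (h.top_le hη hk hφ h1 hD (topPat p) hκ.le)
  have a3 := vol_lower bump.continuous (fun _ => bump.nonneg) bump_le bump_one (2 * n + 1 + 1)
  have a4 := W_J1 (topPat p)
  rw [a1, norm_mul, Complex.norm_real, Real.norm_eq_abs, abs_mul] at a2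
  simp only [Fintype.card_option, Fintype.card_fin] at a2 a4
  rw [add_comm 1 (n + 1)] at a2
  refine numeric (η := (2 * B)⁻¹ ^ 2 / 2) (le_max_right _ _) (integral_nonneg Fk_nonneg) hE0 hB1
    (le_max_right _ _) (by ring) ?_ rfl (le_trans ?_ a2)
  · rw [mul_div_cancel₀ _ hκ.ne', mul_comm (Real.log _), ← mul_neg,
      Real.exp_nat_mul, Real.exp_neg, Real.exp_log (by linarith)]
  · refine mul_le_mul_of_nonneg_right (mul_le_mul (le_trans (le_of_eq ?_) (a3.trans (le_abs_self _)))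
      a4 (by positivity) (abs_nonneg _)) (norm_nonneg _)
    push_cast; ring

end Vale.Agent.P184
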