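import Vale.Agent.P184.Len

namespace Vale.Agent.P184

open Finset

variable {G : Type*} [Group G] {k : ℕ}

/-- Cyclic rotation of the vertices of a `g`-twisted loop. -/
def rot (g : G) (x : Fin (k + 1) → G) : Fin (k + 1) → G :=
  Fin.cons (g⁻¹ * x (Fin.last k)) (Fin.init x)

/-- The step arriving at vertex `i`. -/
def step (g : G) (x : Fin (k + 1) → G) (i : Fin (k + 1)) : G := (rot g x i)⁻¹ * x i

/-- Product of `1 + length` of the steps. -/
def Wt (l : Len G) (g : G) (x : Fin (k + 1) → G) : ℝ := ∏ i, (1 + l.n (step g x i))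

/-- Partial products. -/
def pp (a : Fin (k + 1) → G) (i : Fin (k + 1)) : G := Fin.partialProd a i.succ

/-- Invariance under left translation. -/
def Inv (f : G → (Fin (k + 1) → G) → ℝ) : Prop :=
  ∀ h g x, f (h * g * h⁻¹) (fun i => h * x i) = f g x

/-- Admissible cochains. -/
def Adm (l : Len G) (f : G → (Fin (k + 1) → G) → ℝ) : Prop :=
  Inv f ∧ ∃ C : ℝ, ∀ g x, |f g x| ≤ C * Wt l g x

/-- Rotation of plain tuples. -/
def ra {α : Type*} (a : Fin (k + 1) → α) : Fin (k + 1) → α :=
  Fin.cons (a (Fin.last k)) (Fin.init a)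

/-- Rotation as an equivalence. -/
def raEquiv (α : Type*) (k : ℕ) : (Fin (k + 1) → α) ≃ (Fin (k + 1) → α) where
  toFun := ra
  invFun a := Fin.snoc (α := fun _ => α) (Fin.tail a) (a 0)
  left_inv a := by simp [ra]
  right_inv a := by simp [ra]

@[simp] theorem rot_zero (g : G) (x : Fin (k + 1) → G) : rot g x 0 = g⁻¹ * x (Fin.last k) := rfl

@[simp] theorem rot_succ (g : G) (x : Fin (k + 1) → G) (i : Fin k) :
    rot g x i.succ = x i.castSucc := rfl

@[simp] theorem ra_zero {α : Type*} (x : Fin (k + 1) → α) : ra x 0 = x (Fin.last k) := rfl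

@[simp] theorem ra_succ {α : Type*} (x : Fin (k + 1) → α) (i : Fin k) :
    ra x i.succ = x i.castSucc := rfl

theorem rot_surj (g : G) : Function.Surjective (rot g : (Fin (k + 1) → G) → _) := by
  intro y
  refine ⟨Fin.snoc (α := fun _ => G) (Fin.tail y) (g * y 0), ?_⟩
  simp [rot]

theorem step_rot (g : G) (x : Fin (k + 1) → G) : step g (rot g x) = ra (step g x) := by
  funext i
  refine Fin.cases ?_ (fun j => ?_) i
  · simp [step, mul_assoc]
  · simp [step]

theorem prod_ra {M : Type*} [CommMonoid M] (a : Fin (k + 1) → M) : ∏ i, ra a i = ∏ i, a i := by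
  rw [Fin.prod_univ_succ, Fin.prod_univ_castSucc, mul_comm]; simp

theorem Wt_rot (l : Len G) (g : G) (x : Fin (k + 1) → G) : Wt l g (rot g x) = Wt l g x := by
  unfold Wt
  rw [step_rot, ← prod_ra (fun i => 1 + l.n (step g x i))]
  refine Finset.prod_congr rfl fun i _ => ?_
  refine Fin.cases ?_ (fun j => ?_) i <;> simp

theorem Wt_nonneg (l : Len G) (g : G) (x : Fin (k + 1) → G) : 0 ≤ Wt l g x :=
  Finset.prod_nonneg fun i _ => by have := l.nonneg (step g x i); linarith

theorem face_rot (g : G) (x : Fin (k + 2) → G) (j : Fin (k + 1)) :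
    (fun i => rot g x (j.succ.succAbove i)) = rot g (fun i => x (j.castSucc.succAbove i)) := by
  funext i
  refine Fin.cases ?_ (fun i => ?_) i
  · have : j.castSucc.succAbove (Fin.last k) = Fin.last (k + 1) := by
      rw [Fin.succAbove_castSucc_of_le _ _ (Fin.le_last j)]; rfl
    simp [this]
  · simp [Fin.succ_succAbove_succ, Fin.castSucc_succAbove_castSucc]

theorem Wt_face (l : Len G) (g : G) (j : Fin (k + 2)) :
    ∀ x : Fin (k + 2) → G, Wt l g (fun i => x (j.succAbove i)) ≤ Wt l g x := by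
  refine Fin.induction ?_ (fun j ih => ?_) j
  · intro x
    unfold Wt
    rw [Fin.prod_univ_succ, Fin.prod_univ_succ (n := k + 1), Fin.prod_univ_succ (n := k), ← mul_assoc]
    have h0 : step g (fun i => x ((0 : Fin (k + 2)).succAbove i)) 0 = step g x 0 * step g x (Fin.succ 0) := by
      simp only [step, rot_zero, rot_succ, Fin.succAbove_zero, Fin.succ_last]
      simp [mul_assoc]
    have h1 : ∀ i : Fin k, step g (fun i => x ((0 : Fin (k + 2)).succAbove i)) i.succ
        = step g x i.succ.succ := by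
      intro i
      simp only [step, rot_succ, Fin.succAbove_zero, Fin.succ_castSucc]
    simp only [h0, h1]
    refine mul_le_mul_of_nonneg_right ?_ (Finset.prod_nonneg fun i _ => by
      have := l.nonneg (step g x i.succ.succ); linarith)
    have a := l.mul (step g x 0) (step g x (Fin.succ 0))
    have b := l.nonneg (step g x 0)
    have c := l.nonneg (step g x (Fin.succ 0))
    nlinarith [mul_nonneg b c]
  · intro x
    obtain ⟨y, rfl⟩ := rot_surj g x
    rw [face_rot, Wt_rot, Wt_rot]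
    exact ih y

theorem rot_mul (h g : G) (x : Fin (k + 1) → G) :
    rot (h * g * h⁻¹) (fun i => h * x i) = fun i => h * rot g x i := by
  funext i
  refine Fin.cases ?_ (fun j => ?_) i
  · simp [mul_assoc]
  · simp

theorem step_mul (h g : G) (x : Fin (k + 1) → G) :
    step (h * g * h⁻¹) (fun i => h * x i) = step g x := by
  funext i
  rw [step, rot_mul, step]; simp [mul_assoc]

theorem Inv.rot {f : G → (Fin (k + 1) → G) → ℝ} (hf : Inv f) : Inv fun g x => f g (rot g x) := by
  intro h g x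
  simp only [rot_mul]
  exact hf h g _

theorem Adm.rot {l : Len G} {f : G → (Fin (k + 1) → G) → ℝ} (hf : Adm l f) :
    Adm l fun g x => f g (rot g x) := by
  obtain ⟨C, hC⟩ := hf.2
  exact ⟨hf.1.rot, C, fun g x => by rw [← Wt_rot]; exact hC _ _⟩

theorem Adm.face {l : Len G} {f : G → (Fin (k + 1) → G) → ℝ} (hf : Adm l f) (j : Fin (k + 2)) :
    Adm l fun g (x : Fin (k + 2) → G) => f g (fun i => x (j.succAbove i)) := by
  obtain ⟨C, hC⟩ := hf.2
  refine ⟨fun h g x => hf.1 h g _, max C 0, fun g x => (hC _ _).trans ?_⟩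
  exact mul_le_mul (le_max_left _ _) (Wt_face l g j x) (Wt_nonneg _ _ _) (le_max_right _ _)

theorem partialProd_init (a : Fin (k + 1) → G) (i : Fin (k + 1)) :
    Fin.partialProd (Fin.init a) i = Fin.partialProd a i.castSucc := by
  refine Fin.induction ?_ (fun j ih => ?_) i
  · simp
  · rw [Fin.partialProd_succ, ih, ← Fin.succ_castSucc, Fin.partialProd_succ]; rfl

theorem rot_pp (a : Fin (k + 1) → G) (i : Fin (k + 1)) :
    rot (pp a (Fin.last k)) (pp a) i = Fin.partialProd a i.castSucc := by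
  refine Fin.cases ?_ (fun j => ?_) i
  · simp
  · rw [rot_succ, pp, Fin.succ_castSucc]

theorem step_pp (a : Fin (k + 1) → G) : step (pp a (Fin.last k)) (pp a) = a := by
  funext i
  rw [step, rot_pp, pp, Fin.partialProd_succ]; simp

theorem pp_ra (a : Fin (k + 1) → G) :
    pp (ra a) = fun i => a (Fin.last k) * rot (pp a (Fin.last k)) (pp a) i := by
  funext i
  rw [rot_pp, pp, Fin.partialProd_succ', ← partialProd_init]; rfl

theorem pp_ra_last (a : Fin (k + 1) → G) :
    pp (ra a) (Fin.last k) = a (Fin.last k) * pp a (Fin.last k) * (a (Fin.last k))⁻¹ := by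
  rw [pp_ra]
  simp only [rot_pp]
  rw [pp, Fin.partialProd_succ]; simp [mul_assoc]

theorem hasSum_prod_pow {G : Type*} {φ : G → ℝ} (h0 : ∀ g, 0 ≤ φ g) (hs : Summable φ) (k : ℕ) :
    HasSum (fun a : Fin k → G => ∏ i, φ (a i)) ((∑' g, φ g) ^ k) := by
  induction k with
  | zero => simp
  | succ k ih =>
    have h2 : Summable fun x : G × (Fin k → G) => φ x.1 * ∏ i, φ (x.2 i) :=
      Summable.mul_of_nonneg (f := φ) (g := fun a : Fin k → G => ∏ i, φ (a i)) hs ih.summable h0
        (fun a => Finset.prod_nonneg fun i _ => h0 _)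
    have h := HasSum.mul (f := φ) (g := fun a : Fin k → G => ∏ i, φ (a i)) hs.hasSum ih h2
    rw [← (Fin.consEquiv fun _ : Fin (k + 1) => G).hasSum_iff, pow_succ']
    have e : ((fun a : Fin (k + 1) → G => ∏ i, φ (a i)) ∘ (Fin.consEquiv fun _ : Fin (k + 1) => G))
        = fun x : G × (Fin k → G) => φ x.1 * ∏ i, φ (x.2 i) := by
      funext x
      simp [Fin.prod_univ_succ, Fin.consEquiv]
    rw [e]; exact h

variable {A : Type*} [NormedRing A]

/-- A weighted summable idempotent together with a bounded trace. -/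
structure Idem (l : Len G) (tr : A →+ ℂ) (e : G → A) (c : ℝ) : Prop where
  comm : ∀ x y, tr (x * y) = tr (y * x)
  bound : ∀ x, ‖tr x‖ ≤ c * ‖x‖
  summ : Summable fun g => ‖e g‖ * (1 + l.n g)
  idem : ∀ g, HasSum (fun h => e h * e (h⁻¹ * g)) (e g)

/-- Trace of the ordered product. -/
def wt (tr : A →+ ℂ) (e : G → A) (a : Fin (k + 1) → G) : ℂ :=
  tr (List.ofFn fun i => e (a i)).prod

/-- The basic functional on cochains. -/
noncomputable def Lf (tr : A →+ ℂ) (e : G → A) (f : G → (Fin (k + 1) → G) → ℝ) : ℂ :=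
  ∑' a : Fin (k + 1) → G, wt tr e a * (f (pp a (Fin.last k)) (pp a) : ℂ)

variable {l : Len G} {tr : A →+ ℂ} {e : G → A} {c : ℝ}

theorem Idem.norm_wt (H : Idem l tr e c) (a : Fin (k + 1) → G) :
    ‖wt tr e a‖ ≤ max c 0 * ∏ i, ‖e (a i)‖ := by
  have h1 : ‖(List.ofFn fun i => e (a i)).prod‖ ≤ ∏ i, ‖e (a i)‖ := by
    refine (List.norm_prod_le' (by simp)).trans (le_of_eq ?_)
    rw [List.map_ofFn, List.prod_ofFn]; rfl
  refine (H.bound _).trans ?_
  exact mul_le_mul (le_max_left _ _) h1 (norm_nonneg _) (le_max_right _ _)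

theorem Idem.summable (H : Idem l tr e c) {f : G → (Fin (k + 1) → G) → ℝ} (hf : Adm l f) :
    Summable fun a : Fin (k + 1) → G => wt tr e a * (f (pp a (Fin.last k)) (pp a) : ℂ) := by
  obtain ⟨C, hC⟩ := hf.2
  have h0 : ∀ g, 0 ≤ ‖e g‖ * (1 + l.n g) := fun g =>
    mul_nonneg (norm_nonneg _) (by have := l.nonneg g; linarith)
  have h := (hasSum_prod_pow h0 H.summ (k + 1)).summable.mul_left (max c 0 * C)
  refine Summable.of_norm_bounded h fun a => ?_
  rw [norm_mul, Complex.norm_real, Real.norm_eq_abs, Finset.prod_mul_distrib]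
  have h2 := hC (pp a (Fin.last k)) (pp a)
  rw [Wt, step_pp] at h2
  calc _ ≤ (max c 0 * ∏ i, ‖e (a i)‖) * (C * ∏ i, (1 + l.n (a i))) :=
        mul_le_mul (H.norm_wt a) h2 (abs_nonneg _)
          (mul_nonneg (le_max_right _ _) (Finset.prod_nonneg fun _ _ => norm_nonneg _))
    _ = _ := by ring

theorem Idem.wt_ra (H : Idem l tr e c) (a : Fin (k + 1) → G) : wt tr e (ra a) = wt tr e a := by
  unfold wt
  rw [List.ofFn_succ, List.prod_cons, List.ofFn_succ' (fun i => e (a i)), List.prod_concat, H.comm]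
  rfl

theorem Idem.Lf_rot (H : Idem l tr e c) {f : G → (Fin (k + 1) → G) → ℝ} (hf : Inv f) :
    Lf tr e (fun g x => f g (rot g x)) = Lf tr e f := by
  unfold Lf
  rw [← (raEquiv G k).tsum_eq (fun a => wt tr e a * (f (pp a (Fin.last k)) (pp a) : ℂ))]
  refine tsum_congr fun a => ?_
  change _ = wt tr e (ra a) * (f (pp (ra a) (Fin.last k)) (pp (ra a)) : ℂ)
  rw [H.wt_ra, pp_ra_last, pp_ra, hf]

/-- Splitting the first entry. -/
def splitEquiv (G : Type*) [Group G] (k : ℕ) : (Fin (k + 1) → G) × G ≃ (Fin (k + 2) → G) where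
  toFun p := Fin.cons p.2 (Fin.cons (p.2⁻¹ * p.1 0) (Fin.tail p.1))
  invFun a := (Fin.cons (a 0 * a 1) (Fin.tail (Fin.tail a)), a 0)
  left_inv p := by
    ext i
    · refine Fin.cases ?_ (fun j => ?_) i
      · simp
      · simp [Fin.tail]
    · simp
  right_inv a := by
    funext i
    refine Fin.cases ?_ (fun j => ?_) i
    · simp
    · refine Fin.cases ?_ (fun j => ?_) j
      · simp
      · simp [Fin.tail]

theorem pp_split (a : Fin (k + 1) → G) (h : G) (i : Fin (k + 1)) :
    pp (splitEquiv G k (a, h)) i.succ = pp a i := by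
  simp only [pp, splitEquiv, Equiv.coe_fn_mk]
  rw [Fin.partialProd_succ', Fin.tail_cons, Fin.partialProd_succ', Fin.tail_cons,
    Fin.partialProd_succ']
  simp [mul_assoc]

theorem Idem.Lf_tail (H : Idem l tr e c) {f : G → (Fin (k + 1) → G) → ℝ} (hf : Adm l f) :
    Lf tr e (fun g (x : Fin (k + 2) → G) => f g (fun i => x ((0 : Fin (k + 2)).succAbove i)))
      = Lf tr e f := by
  have hs := H.summable (hf.face 0)
  unfold Lf
  rw [← (splitEquiv G k).tsum_eq]
  have hs2 := (splitEquiv G k).summable_iff.2 hs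
  rw [Function.comp_def] at hs2
  rw [hs2.tsum_prod]
  refine tsum_congr fun a => ?_
  have hc : Continuous tr := AddMonoidHomClass.continuous_of_bound tr c H.bound
  have h1 : HasSum (fun h => wt tr e (splitEquiv G k (a, h))) (wt tr e a) := by
    have := ((H.idem (a 0)).mul_right (List.ofFn fun i : Fin k => e (a i.succ)).prod).map tr hc
    unfold wt
    rw [List.ofFn_succ (f := fun i => e (a i)), List.prod_cons]
    refine this.congr_fun fun h => ?_
    simp [splitEquiv, List.ofFn_succ, mul_assoc, Fin.tail]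
  have h2 : ∀ h, (f (pp (splitEquiv G k (a, h)) (Fin.last (k + 1)))
      fun i => pp (splitEquiv G k (a, h)) ((0 : Fin (k + 2)).succAbove i))
      = f (pp a (Fin.last k)) (pp a) := by
    intro h
    simp only [Fin.succAbove_zero, ← Fin.succ_last, pp_split]
  simp only [h2]
  exact (h1.mul_right _).tsum_eq

theorem Idem.Lf_face (H : Idem l tr e c) (j : Fin (k + 2)) :
    ∀ f : G → (Fin (k + 1) → G) → ℝ, Adm l f →
    Lf tr e (fun g (x : Fin (k + 2) → G) => f g (fun i => x (j.succAbove i))) = Lf tr e f := by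
  refine Fin.induction (fun f hf => H.Lf_tail hf) (fun j ih f hf => ?_) j
  rw [← H.Lf_rot (hf.face j.succ).1, ← H.Lf_rot hf.1, ← ih _ hf.rot]
  simp only [face_rot]

theorem Idem.Lf_face_zero (H : Idem l tr e c) (j : Fin (k + 2))
    {f : G → (Fin (k + 1) → G) → ℝ} (hf : Adm l f) (ha : ∀ g x, f g (rot g x) = -f g x) :
    Lf tr e (fun g (x : Fin (k + 2) → G) => f g (fun i => x (j.succAbove i))) = 0 := by
  rw [H.Lf_face j _ hf]
  have h := H.Lf_rot hf.1
  simp only [ha] at h
  have h2 : Lf tr e (fun g x => -f g x) = -Lf tr e f := by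
    unfold Lf
    rw [← tsum_neg]
    refine tsum_congr fun a => ?_
    push_cast; ring
  rw [h2] at h
  linear_combination (-1 / 2 : ℂ) * h

theorem one_le_Wt (l : Len G) (g : G) (x : Fin (k + 1) → G) : 1 ≤ Wt l g x :=
  Finset.one_le_prod fun i _ => by have := l.nonneg (step g x i); linarith

theorem adm_const (l : Len G) {φ : G → ℝ} (hφ : ∀ h g, φ (h * g * h⁻¹) = φ g) {B : ℝ}
    (hB : ∀ g, |φ g| ≤ B) (k : ℕ) : Adm l fun g (_ : Fin (k + 1) → G) => φ g :=
  ⟨fun h g _ => hφ h g, B, fun g x => (hB g).trans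
    (le_mul_of_one_le_right ((abs_nonneg _).trans (hB g)) (one_le_Wt l g x))⟩

theorem Idem.Lf_const (H : Idem l tr e c) {φ : G → ℝ} (hφ : ∀ h g, φ (h * g * h⁻¹) = φ g) {B : ℝ}
    (hB : ∀ g, |φ g| ≤ B) (k : ℕ) :
    Lf tr e (fun g (_ : Fin (k + 1) → G) => φ g) = ∑' g, tr (e g) * (φ g : ℂ) := by
  induction k with
  | zero =>
    unfold Lf
    rw [← (Equiv.funUnique (Fin 1) G).symm.tsum_eq]
    refine tsum_congr fun g => ?_
    simp [wt, pp, Fin.partialProd]
  | succ k ih => rw [← ih, ← H.Lf_tail (adm_const l hφ hB k)]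

end Vale.Agent.P184
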