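import Vale.Agent.P184.Alt

namespace Vale.Agent.P184

open Finset Matrix Equiv

variable {K : ℕ} {ι₁ ι₂ : Type*} [Fintype ι₁] [Fintype ι₂]

theorem W_pat (e e' : ι₁ ⊕ (ι₂ × Bool) ≃ Fin K) (c : ι₁ → Fin K → ℝ)
    (J : ι₂ → Matrix (Fin K) (Fin K) ℝ) : |W e c J| = |W e' c J| := by
  have := alt_reindex (fun σ => term e c J σ) (e.symm.trans e')
  have h2 : ∀ σ : Perm (Fin K), term e c J (σ * (e.symm.trans e') : Perm (Fin K))
      = term e' c J σ := by
    intro σ; simp [term]
  simp only [h2] at this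
  unfold W
  rw [this, abs_mul, abs_sg, one_mul]

/-- The cyclic shift matrix. -/
def J1 (k : ℕ) : Matrix (Fin (k + 1)) (Fin (k + 1)) ℝ :=
  Matrix.of fun a b => if a = finRotate (k + 1) b then 1 else 0

theorem W_J1 {k : ℕ} (e : Unit ⊕ (ι₂ × Bool) ≃ Fin (k + 1)) :
    ((Fintype.card ι₂).factorial : ℝ) ≤ |W e (fun _ => Pi.single 0 1) (fun _ => J1 k)| := by
  classical
  set n := Fintype.card ι₂ with hn
  have hk : k = 2 * n := by
    have := Fintype.card_congr e
    simp at this
    omega
  let φ : ι₂ ≃ Fin n := Fintype.equivFin ι₂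
  let f : Unit ⊕ (ι₂ × Bool) → Fin (k + 1) := fun x => match x with
    | .inl _ => 0
    | .inr (r, b) => ⟨2 * (φ r : ℕ) + (bif b then 1 else 2), by
        have := (φ r).2; cases b <;> simp <;> omega⟩
  have hf : Function.Injective f := by
    rintro (_ | ⟨r, _ | _⟩) (_ | ⟨r', _ | _⟩) h <;> simp [f, Fin.ext_iff] at h ⊢ <;>
      first | omega | exact φ.injective (Fin.ext h)
  let e0 : Unit ⊕ (ι₂ × Bool) ≃ Fin (k + 1) := Equiv.ofBijective f
    ((Fintype.bijective_iff_injective_and_card f).2 ⟨hf, Fintype.card_congr e⟩)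
  have v0 : e0 (.inl ()) = 0 := rfl
  have vt : ∀ r, (e0 (.inr (r, true)) : ℕ) = 2 * (φ r : ℕ) + 1 := fun r => rfl
  have vf : ∀ r, (e0 (.inr (r, false)) : ℕ) = 2 * (φ r : ℕ) + 2 := fun r => rfl
  rw [W_pat e e0]
  refine le_trans ?_ (le_abs_self _)
  let P : Perm ι₂ → Perm (Fin (k + 1)) := fun π =>
    e0.permCongr (Equiv.sumCongr (Equiv.refl Unit) (prodCongrLeft fun _ : Bool => π))
  have hPs : ∀ π, sg (P π) = 1 := fun π => by
    simp [P, sg, Perm.sign_sumCongr, Perm.sign_prodCongrLeft]
  have hP1 : ∀ π, P π (e0 (.inl ())) = e0 (.inl ()) := fun π => by simp [P]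
  have hP2 : ∀ π r b, P π (e0 (.inr (r, b))) = e0 (.inr (π r, b)) := fun π r b => by simp [P]
  have hrot : ∀ a b : Fin (k + 1), a ≠ 0 → (a = finRotate (k + 1) b ↔ (a : ℕ) = b + 1) := by
    intro a b ha
    by_cases hb : b = Fin.last k
    · subst hb
      have := a.2
      simp only [finRotate_last, ha, Fin.val_last, false_iff]; omega
    · rw [Fin.ext_iff, coe_finRotate_of_ne_last hb]
  have hPt : ∀ π, term e0 (fun _ => Pi.single 0 1) (fun _ => J1 k) (P π) = 1 := by
    intro π
    unfold term
    simp only [Finset.univ_unique, Finset.prod_singleton, hP2]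
    rw [show (default : Unit) = () from rfl, hP1, v0, Pi.single_eq_same, one_mul]
    refine Finset.prod_eq_one fun r _ => ?_
    rw [J1, of_apply, if_pos]
    rw [hrot, vt, vf]
    rw [← v0]; exact e0.injective.ne (by simp)
  have hnn : ∀ σ : Perm (Fin (k + 1)),
      0 ≤ sg σ * term e0 (fun _ => Pi.single 0 1) (fun _ => J1 k) σ := by
    intro σ
    by_cases h : term e0 (fun _ => Pi.single 0 1) (fun _ => J1 k) σ = 0
    · rw [h, mul_zero]
    suffices ∃ π, σ = P π by
      obtain ⟨π, rfl⟩ := this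
      rw [hPs, hPt]; norm_num
    unfold term at h
    obtain ⟨h1, h2⟩ := mul_ne_zero_iff.1 h
    have h0 : σ (e0 (.inl ())) = 0 := by
      by_contra hne
      exact (Finset.prod_ne_zero_iff.1 h1 () (mem_univ _)) (Pi.single_eq_of_ne hne _)
    have hne0 : ∀ y, σ (e0 (.inr y)) ≠ 0 := fun y hy =>
      absurd (e0.injective (σ.injective (hy.trans h0.symm))) (by simp)
    have h3 : ∀ r, (σ (e0 (.inr (r, false))) : ℕ) = σ (e0 (.inr (r, true))) + 1 := by
      intro r
      have := Finset.prod_ne_zero_iff.1 h2 r (mem_univ _)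
      exact (hrot _ _ (hne0 _)).1 (by simpa [J1] using this)
    have hodd : ∀ v : ℕ, ∀ r, (σ (e0 (.inr (r, true))) : ℕ) = v → v % 2 = 1 := by
      intro v
      induction v using Nat.strong_induction_on with
      | _ v ih =>
        intro r hr
        have hv0 : v ≠ 0 := fun h => hne0 (r, true) (Fin.ext (by simpa [h] using hr))
        have hlt : v - 1 < k + 1 := by have := (σ (e0 (.inr (r, true)))).2; omega
        obtain ⟨y, hy⟩ := (e0.trans σ).surjective ⟨v - 1, hlt⟩
        have hy' : (σ (e0 y) : ℕ) = v - 1 := congrArg Fin.val hy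
        rcases y with _ | ⟨r', _ | _⟩
        · rw [h0] at hy'; simp at hy'; omega
        · have := ih (v - 2) (by omega) r' (by have := h3 r'; omega)
          have := h3 r'; omega
        · have h5 : σ (e0 (.inr (r', false))) = σ (e0 (.inr (r, true))) :=
            Fin.ext (by have := h3 r'; omega)
          exact absurd (e0.injective (σ.injective h5)) (by simp)
    let p : ι₂ → ι₂ := fun r => φ.symm ⟨(σ (e0 (.inr (r, true))) : ℕ) / 2, by
      have := (σ (e0 (.inr (r, false)))).2
      have := h3 r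
      omega⟩
    have hp1 : ∀ r, e0 (.inr (p r, true)) = σ (e0 (.inr (r, true))) := fun r => by
      have := hodd _ r rfl
      refine Fin.ext ?_
      rw [vt]; simp only [p, Equiv.apply_symm_apply]; omega
    have hp2 : ∀ r, e0 (.inr (p r, false)) = σ (e0 (.inr (r, false))) := fun r => by
      have := hodd _ r rfl
      refine Fin.ext ?_
      rw [vf, h3]; simp only [p, Equiv.apply_symm_apply]; omega
    have hpi : Function.Injective p := fun r r' h => by
      have := hp1 r
      rw [h, hp1 r'] at this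
      simpa using (e0.injective (σ.injective this)).symm
    refine ⟨Equiv.ofBijective p (Finite.injective_iff_bijective.1 hpi), Equiv.ext fun i => ?_⟩
    obtain ⟨y, rfl⟩ := e0.surjective i
    rcases y with _ | ⟨r, _ | _⟩
    · rw [hP1, h0, v0]
    · rw [hP2]; exact (hp2 r).symm
    · rw [hP2]; exact (hp1 r).symm
  have hPi : Function.Injective P := fun π π' h => by
    ext r
    have := hP2 π r true
    rw [h, hP2] at this
    simpa using (e0.injective this).symm
  unfold W
  refine le_trans (le_of_eq ?_) (Finset.sum_le_sum_of_subset_of_nonneg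
    (Finset.subset_univ (univ.image P)) fun σ _ _ => hnn σ)
  rw [Finset.sum_image fun a _ b _ h => hPi h]
  simp [hPs, hPt, Fintype.card_perm, hn]

end Vale.Agent.P184
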