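import Vale.Agent.P184.Pull

namespace Vale.Agent.P184

open Finset Matrix Filter Topology MeasureTheory Equiv

variable {G : Type*} [Group G] {k : ℕ}

/-- Natural smooth families whose value on the constant vector is locally constant. -/
structure Good (φ : Fam G) (c : ℝ) : Prop where
  nat : Natural φ
  smooth : ∀ k g x, ∀ s ∈ Dl k, ContDiffAt ℝ 2 (φ k g x) s
  one : ∀ k g x, ∀ s ∈ Dl k, ∀ᶠ t in 𝓝 s, φ k g x t 1 = c

namespace Good
variable {φ : Fam G} {c : ℝ} (h : Good φ c) (g : G) (x : Fin (k + 1) → G) {s : Fin (k + 1) → ℝ}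
  (hs : s ∈ Dl k)
include h hs

theorem diff : DifferentiableAt ℝ (φ k g x) s := (h.smooth k g x s hs).differentiableAt (by norm_num)

theorem cv_one : cv (φ k g x s) ⬝ᵥ 1 = c := by
  rw [← cv_apply]; exact (h.one k g x s hs).self_of_nhds

theorem mulVec_one : toM (fderiv ℝ (φ k g x) s) *ᵥ 1 = 0 := by
  funext a
  have h1 := fd_line (h.diff g x hs) (Pi.single a 1) 1
  have h2 := (hasDerivAt_const (0 : ℝ) c).congr_of_eventuallyEq
    ((line_tendsto s (Pi.single a 1)).eventually (h.one k g x s hs))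
  have := h1.unique h2
  rw [toM_apply, single_dotProduct, one_mul] at this
  exact this

theorem one_vecMul : 1 ᵥ* toM (fderiv ℝ (φ k g x) s) = 0 := by
  funext b
  have h1 := fd_line (h.diff g x hs) 1 (Pi.single b 1)
  have e : (fun t : ℝ => φ k g x (s + t • (1 : Fin (k + 1) → ℝ)) (Pi.single b 1))
      = fun _ => φ k g x s (Pi.single b 1) := by
    funext t
    rw [← h.nat.shift k g x s t]
    congr 2
    funext i; simp
  rw [e] at h1
  have := h1.unique (hasDerivAt_const _ _)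
  rw [toM_apply, dotProduct_mulVec, dotProduct_single, mul_one] at this
  exact this

end Good

variable {ι₁ ι₂ : Type*} [Fintype ι₁] [Fintype ι₂]

/-- The integrand in the coordinates of jump times. -/
noncomputable def Fs (e : ι₁ ⊕ (ι₂ × Bool) ≃ Fin (k + 1)) (c : ι₁ → Fam G) (φ : ι₂ → Fam G) (g : G)
    (x : Fin (k + 1) → G) (s : Fin (k + 1) → ℝ) : ℝ :=
  W e (fun i => cv (c i k g x s)) fun r => toM (fderiv ℝ (φ r k g x) s)

/-- The integrated cochain. -/
noncomputable def IF (χ : ℝ → ℝ) (e : ι₁ ⊕ (ι₂ × Bool) ≃ Fin (k + 1)) (c : ι₁ → Fam G)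
    (φ : ι₂ → Fam G) (g : G) (x : Fin (k + 1) → G) : ℝ :=
  ∫ τ in box (k + 1), χ (∑ i, τ i) * ((∑ i, τ i)⁻¹ ^ k * Fs e c φ g x (Sm τ))

theorem W_hat [DecidableEq ι₁] (e : ι₁ ⊕ (ι₂ × Bool) ≃ Fin (k + 1)) {c : ι₁ → Fam G} {i0 : ι₁}
    (hc0 : Good (c i0) 1) (hc : ∀ i ≠ i0, Good (c i) 0) {φ : ι₂ → Fam G} {d : ι₂ → ℝ}
    (hφ : ∀ r, Good (φ r) (d r)) (g : G) (x : Fin (k + 1) → G) {τ : Fin (k + 1) → ℝ}
    (h0 : ∀ i, 0 ≤ τ i) (h : 0 < ∑ l, τ l) :
    W e (Function.update (fun i => hat (c i k g x) τ) i0 1) (fun r => Jac (hat (φ r k g x)) τ)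
      = det (Bm k) * ((∑ i, τ i)⁻¹ ^ k * Fs e c φ g x (Sm τ)) := by
  have hs := Sm_mem h0 h
  simp only [fun r => jac_hat h.ne' ((hφ r).smooth k g x _ hs), hat_eq]
  rw [W_congr_null e fun r => null_symm e _ fun i j => by simp only [of_apply, add_comm],
    pull e h.ne' _ i0 (hc0.cv_one g x hs) (fun i hi => (hc i hi).cv_one g x hs) _
      (fun r => (hφ r).mulVec_one g x hs) (fun r => (hφ r).one_vecMul g x hs), Fs]
  ring

theorem sA_lt (a : Fin (k + 2)) (i : Fin (k + 1)) (n : ℕ) :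
    (a.succAbove i : ℕ) < n ↔ (i : ℕ) < fN a n := by
  unfold fN Fin.succAbove
  split_ifs with h1 h2 h2 <;> simp [Fin.lt_def] at * <;> omega

theorem sum_ins (a : Fin (k + 2)) (τ : Fin (k + 1) → ℝ) :
    ∑ i, (a.insertNth (0 : ℝ) τ : Fin (k + 2) → ℝ) i = ∑ i, τ i := by
  rw [Fin.sum_univ_succAbove _ a]; simp

theorem ps_ins (a : Fin (k + 2)) (τ : Fin (k + 1) → ℝ) (n : ℕ) :
    ps (a.insertNth (0 : ℝ) τ) n = ps τ (fN a n) := by
  rw [ps, Fin.sum_univ_succAbove _ a, ps]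
  simp [sA_lt]

theorem hat_face {φ : Fam G} (hφ : Natural φ) (g : G) (x : Fin (k + 2) → G) (a : Fin (k + 2))
    {τ : Fin (k + 1) → ℝ} (h : ∑ l, τ l ≠ 0) (b : Fin (k + 1)) :
    hat (φ (k + 1) g x) (a.insertNth 0 τ) (a.succAbove b)
      = hat (φ k g fun i => x (a.succAbove i)) τ b := by
  have e1 : Sm (a.insertNth (0 : ℝ) τ) = faceS a (Sm τ) := by
    funext l; rw [Sm, ps_ins, sum_ins, faceS, extN_Sm h]
  rw [hat, hat, ← hφ.face, ← e1]
  congr 1
  funext l
  simp only [Dm, of_apply, Sm, ps_ins, sum_ins, sA_lt, fidx]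
  by_cases hl : fN a l < k + 1
  · simp only [hl, dif_pos]
  · have := b.2
    rw [dif_neg hl, ps_ge _ (by omega), if_pos (by omega), div_self h]
    simp [ps_zero]

theorem ins_mem (a : Fin (k + 2)) {τ : Fin (k + 1) → ℝ} (h0 : ∀ i, 0 ≤ τ i) (i : Fin (k + 2)) :
    0 ≤ (a.insertNth (0 : ℝ) τ : Fin (k + 2) → ℝ) i := by
  refine a.succAboveCases ?_ (fun j => ?_) i <;> simp [h0]

theorem jac_face {φ : Fam G} {d : ℝ} (hφ : Good φ d) (g : G) (x : Fin (k + 2) → G)
    (a : Fin (k + 2)) {τ : Fin (k + 1) → ℝ} (h0 : ∀ i, 0 ≤ τ i) (h : 0 < ∑ l, τ l) :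
    (Jac (hat (φ (k + 1) g x)) (a.insertNth 0 τ)).submatrix a.succAbove a.succAbove
      = Jac (hat (φ k g fun i => x (a.succAbove i))) τ := by
  ext i j
  have h' : 0 < ∑ l, (a.insertNth (0 : ℝ) τ : Fin (k + 2) → ℝ) l := by rwa [sum_ins]
  have h1 := line_deriv ((hat_contDiffAt h'.ne' (hφ.smooth _ g x _ (Sm_mem (ins_mem a h0) h'))
    (a.succAbove j)).differentiableAt (by norm_num)) (Pi.single (a.succAbove i) 1)
  have h2 := line_deriv ((hat_contDiffAt h.ne' (hφ.smooth _ g (fun i => x (a.succAbove i)) _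
    (Sm_mem h0 h)) j).differentiableAt (by norm_num)) (Pi.single i 1)
  refine h1.unique (h2.congr_of_eventuallyEq ?_)
  have hc : Continuous fun t : Fin (k + 1) → ℝ => ∑ i, t i := by fun_prop
  filter_upwards [(line_tendsto τ (Pi.single i 1)).eventually
    (hc.continuousAt.eventually (lt_mem_nhds h))] with t ht
  rw [← hat_face hφ.nat g x a ht.ne']
  congr 1
  funext l
  refine a.succAboveCases ?_ (fun m => ?_) l
  · simp [(Fin.succAbove_ne a i).symm]
  · simp [Pi.single_apply]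

theorem IF_stokes {χ : ℝ → ℝ} (hχ : ContDiff ℝ 1 χ) (hχ1 : ∀ x ≤ (1 : ℝ), χ x = 0)
    (hχ2 : ∀ x ≥ (2 : ℝ), χ x = 0) (e : Bool ⊕ (ι₂ × Bool) ≃ Fin (k + 1)) {θ : Fam G}
    (hθ : Good θ 1) {φ : Option ι₂ → Fam G} {d : Option ι₂ → ℝ} (hφ : ∀ r, Good (φ r) (d r))
    (hd : d none = 0) (g : G) (x : Fin (k + 2) → G) :
    IF χ (topPat e) (fun _ => θ) φ g x
      = ∑ a : Fin (k + 2), (-(-1) ^ (a : ℕ) * det (Bm k) / det (Bm (k + 1))) *
        IF χ e (fun b => bif b then φ none else θ) (fun r => φ (some r)) g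
          fun i => x (a.succAbove i) := by
  have key := stokes (e := e) (η := fun r => hat (φ r (k + 1) g x)) hχ hχ1 hχ2
    fun τ hτ h r b => hat_contDiffAt h.ne' ((hφ r).smooth _ g x _ (Sm_mem hτ.1 h)) b
  have e1 : ∫ τ in box (k + 1 + 1), χ (∑ i, τ i) *
      W (topPat e) (fun _ _ => 1) (fun r => Jac (hat (φ r (k + 1) g x)) τ)
      = det (Bm (k + 1)) * IF χ (topPat e) (fun _ => θ) φ g x := by
    rw [IF, ← integral_const_mul]
    refine setIntegral_congr_fun measurableSet_Icc fun τ hτ => ?_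
    by_cases h : 0 < ∑ i, τ i
    · have := W_hat (topPat e) (c := fun _ => θ) (i0 := ()) hθ (fun i hi => absurd rfl hi) hφ g x
        hτ.1 h
      rw [show Function.update (fun _ : Unit => hat (θ (k + 1) g x) τ) () 1 = fun _ _ => 1 from by
        funext i j; simp] at this
      simp only [this]; ring
    · simp only [hχ1 _ (show ∑ i, τ i ≤ 1 by linarith), zero_mul, mul_zero]
  have e2 : ∀ a : Fin (k + 2), ∫ τ in box (k + 1), χ (∑ i, τ i) *
      W e (fun b i => bif b then hat (φ none (k + 1) g x) (a.insertNth 0 τ) (a.succAbove i) else 1)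
        (fun r => (Jac (hat (φ (some r) (k + 1) g x)) (a.insertNth 0 τ)).submatrix
          a.succAbove a.succAbove)
      = det (Bm k) * IF χ e (fun b => bif b then φ none else θ) (fun r => φ (some r)) g
          fun i => x (a.succAbove i) := by
    intro a
    rw [IF, ← integral_const_mul]
    refine setIntegral_congr_fun measurableSet_Icc fun τ hτ => ?_
    by_cases h : 0 < ∑ i, τ i
    · have := W_hat e (c := fun b => bif b then φ none else θ) (i0 := false) hθ
        (fun i hi => by cases i; exacts [absurd rfl hi, hd ▸ hφ none]) (fun r => hφ (some r)) g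
        (fun i => x (a.succAbove i)) hτ.1 h
      simp only [fun r => jac_face (hφ r) g x a hτ.1 h, hat_face (hφ none).nat g x a h.ne']
      rw [mul_left_comm, ← this]
      congr 2
      funext b i
      cases b <;> simp
    · simp only [hχ1 _ (show ∑ i, τ i ≤ 1 by linarith), zero_mul, mul_zero]
  rw [e1] at key
  simp only [e2] at key
  have hne := det_Bm_ne (k := k + 1)
  refine mul_left_cancel₀ hne (key.trans ?_)
  rw [← Finset.sum_neg_distrib, Finset.mul_sum]
  refine Finset.sum_congr rfl fun a _ => ?_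
  field_simp

theorem ra_eq {α : Type*} (v : Fin (k + 1) → α) : ra v = fun i => v ((finRotate (k + 1)).symm i) := by
  funext i
  refine Fin.cases ?_ (fun j => ?_) i
  · rw [ra_zero, ← finRotate_last, Equiv.symm_apply_apply]
  · rw [ra_succ]
    congr 1
    exact (Equiv.symm_apply_eq _).2 (finRotate_of_lt j.2).symm |>.symm

theorem sum_ra (τ : Fin (k + 1) → ℝ) : ∑ i, ra τ i = ∑ i, τ i := by
  rw [ra_eq]; exact Equiv.sum_comp _ τ

theorem Sm_ra {τ : Fin (k + 1) → ℝ} (h : ∑ l, τ l ≠ 0) :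
    Sm (ra τ) = fun i => rotS (Sm τ) i + τ (Fin.last k) / ∑ l, τ l := by
  funext i
  refine Fin.cases ?_ (fun j => ?_) i
  · have := ps_succ τ (Fin.last k)
    rw [ps_ge τ (by simp)] at this
    rw [Sm_zero, rotS_zero, Sm]
    field_simp
    linarith
  · rw [rotS_succ, Sm, Sm, sum_ra, ← add_div]
    congr 1
    have := j.2
    rw [ps, ps, Fin.sum_univ_succ, Fin.sum_univ_castSucc]
    simp [add_comm, show ¬k < j by omega]

theorem rotS_mem {s : Fin (k + 1) → ℝ} (hs : s ∈ Dl k) (c : ℝ) : (fun i => rotS s i + c) ∈ Dl k := by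
  intro i
  rw [dur_shift, dur_rotS, ra_eq]
  exact hs _

theorem ra_single (b : Fin (k + 1)) :
    ra (Pi.single ((finRotate (k + 1)).symm b) (1 : ℝ) : Fin (k + 1) → ℝ) = Pi.single b 1 := by
  rw [ra_eq]
  funext i
  simp only [Pi.single_apply, EmbeddingLike.apply_eq_iff_eq]

theorem Fs_rot (e : ι₁ ⊕ (ι₂ × Bool) ≃ Fin (k + 1)) {c : ι₁ → Fam G} (hc : ∀ i, Natural (c i))
    {φ : ι₂ → Fam G} {d : ι₂ → ℝ} (hφ : ∀ r, Good (φ r) (d r)) (g : G) (x : Fin (k + 1) → G)
    {s : Fin (k + 1) → ℝ} (hs : s ∈ Dl k) (t : ℝ) :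
    Fs e c φ g (rot g x) (fun i => rotS s i + t) = (-1) ^ k * Fs e c φ g x s := by
  have hsg : sg (finRotate (k + 1)).symm = (-1) ^ k := by
    simp [sg, sign_finRotate]
  rw [← hsg, Fs, Fs, ← W_coord]
  congr 1
  · funext i j
    rw [(hc i).shift, cv, ← ra_single, (hc i).rot]; rfl
  · funext r
    ext a b
    have h1 := fd_line ((hφ r).diff g (rot g x) (rotS_mem hs t)) (Pi.single a 1) (Pi.single b 1)
    have h2 := fd_line ((hφ r).diff g x hs) (Pi.single ((finRotate (k + 1)).symm a) 1)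
      (Pi.single ((finRotate (k + 1)).symm b) 1)
    refine h1.unique (h2.congr_of_eventuallyEq (Eventually.of_forall fun u => ?_))
    beta_reduce
    rw [← (hφ r).nat.rot k g x, ra_single, rotS_add, ← (hφ r).nat.shift k g _ (rotS s + _) t]
    congr 2
    funext i
    rw [← ra_single a, ra_eq, ra_eq]
    simp only [Pi.add_apply, Pi.smul_apply]
    ring

theorem IF_rot {χ : ℝ → ℝ} (hχ1 : ∀ x ≤ (1 : ℝ), χ x = 0) (e : ι₁ ⊕ (ι₂ × Bool) ≃ Fin (k + 1))
    {c : ι₁ → Fam G} (hc : ∀ i, Natural (c i)) {φ : ι₂ → Fam G} {d : ι₂ → ℝ}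
    (hφ : ∀ r, Good (φ r) (d r)) (g : G) (x : Fin (k + 1) → G) :
    IF χ e c φ g (rot g x) = (-1) ^ k * IF χ e c φ g x := by
  have hm := volume_preserving_arrowCongr' (finRotate (k + 1)) (MeasurableEquiv.refl ℝ)
    (MeasurePreserving.id _)
  have hr : ⇑(MeasurableEquiv.arrowCongr' (finRotate (k + 1)) (MeasurableEquiv.refl ℝ)) = ra := by
    funext v; rw [ra_eq]; rfl
  have hb : ra ⁻¹' box (k + 1) = box (k + 1) := by
    ext v
    simp only [Set.mem_preimage, ra_eq, box, Set.mem_Icc, Pi.le_def, Pi.zero_apply]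
    rw [(finRotate (k + 1)).symm.forall_congr_right (q := fun i => 0 ≤ v i),
      (finRotate (k + 1)).symm.forall_congr_right (q := fun i => v i ≤ 3)]
  rw [IF, ← hm.setIntegral_preimage_emb (MeasurableEquiv.measurableEmbedding _), hr, hb, IF,
    ← integral_const_mul]
  refine setIntegral_congr_fun measurableSet_Icc fun τ hτ => ?_
  simp only [sum_ra]
  by_cases h : 0 < ∑ i, τ i
  · rw [Sm_ra h.ne', Fs_rot e hc hφ g x (Sm_mem hτ.1 h)]; ring
  · simp only [hχ1 _ (show ∑ i, τ i ≤ 1 by linarith), zero_mul, mul_zero]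

theorem IF_inv (χ : ℝ → ℝ) (e : ι₁ ⊕ (ι₂ × Bool) ≃ Fin (k + 1)) {c : ι₁ → Fam G}
    (hc : ∀ i, Natural (c i)) {φ : ι₂ → Fam G} (hφ : ∀ r, Natural (φ r)) : Inv (IF χ e c φ) := by
  intro h g x
  simp only [IF, Fs, fun i => (hc i).transl k h g x, fun r => (hφ r).transl k h g x]

omit [Group G] in
theorem IF_slot (χ : ℝ → ℝ) (e : ι₁ ⊕ (ι₂ × Bool) ≃ Fin (k + 1)) (c : ι₁ → Fam G)
    (φ : ι₂ → Fam G) (π : Perm ι₂) : IF χ e c (fun r => φ (π r)) = IF χ e c φ := by
  funext g x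
  simp only [IF, Fs]
  simp only [fun s => W_slot e (fun i => cv (c i k g x s)) (fun r => toM (fderiv ℝ (φ r k g x) s)) π]

theorem W_continuousAt {X : Type*} [TopologicalSpace X] {K : ℕ} (e : ι₁ ⊕ (ι₂ × Bool) ≃ Fin K)
    {c : X → ι₁ → Fin K → ℝ} {J : X → ι₂ → Matrix (Fin K) (Fin K) ℝ} {t : X}
    (hc : ∀ i j, ContinuousAt (fun t => c t i j) t)
    (hJ : ∀ r a b, ContinuousAt (fun t => J t r a b) t) :
    ContinuousAt (fun t => W e (c t) (J t)) t := by
  unfold W term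
  exact tendsto_finsetSum _ fun σ _ => tendsto_const_nhds.mul
    ((tendsto_finsetProd _ fun i _ => hc _ _).mul (tendsto_finsetProd _ fun r _ => hJ _ _ _))

theorem IF_integrable {χ : ℝ → ℝ} (hχ : Continuous χ) (hχ1 : ∀ x ≤ (1 : ℝ), χ x = 0)
    (e : ι₁ ⊕ (ι₂ × Bool) ≃ Fin (k + 1)) {c : ι₁ → Fam G} {d' : ι₁ → ℝ}
    (hc : ∀ i, Good (c i) (d' i)) {φ : ι₂ → Fam G} {d : ι₂ → ℝ} (hφ : ∀ r, Good (φ r) (d r))
    (g : G) (x : Fin (k + 1) → G) :
    IntegrableOn (fun τ => χ (∑ i, τ i) * ((∑ i, τ i)⁻¹ ^ k * Fs e c φ g x (Sm τ)))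
      (box (k + 1)) := by
  refine ContinuousOn.integrableOn_compact isCompact_Icc fun τ hτ =>
    ContinuousAt.continuousWithinAt ?_
  have hT : Continuous fun t : Fin (k + 1) → ℝ => ∑ i, t i := by fun_prop
  by_cases h : 0 < ∑ i, τ i
  · have hs := Sm_mem hτ.1 h
    have hS := (Sm_contDiffAt h.ne').continuousAt
    refine (hχ.comp hT).continuousAt.mul (((hT.continuousAt.inv₀ h.ne').pow k).mul ?_)
    refine W_continuousAt e (fun i j => ?_) fun r a b => ?_
    · exact (((hc i).smooth k g x _ hs).continuousAt.comp hS).clm_apply continuousAt_const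
    · exact (((((hφ r).smooth k g x _ hs).continuousAt_fderiv (by norm_num)).comp hS).clm_apply
        continuousAt_const).clm_apply continuousAt_const
  · refine continuousAt_const.congr (f := fun _ => 0) ?_
    filter_upwards [hT.continuousAt.eventually (gt_mem_nhds (show ∑ i, τ i < 1 by linarith))]
      with t ht
    rw [hχ1 _ ht.le, zero_mul]

theorem IF_expand [DecidableEq ι₂] {χ : ℝ → ℝ} (hχ : Continuous χ)
    (hχ1 : ∀ x ≤ (1 : ℝ), χ x = 0) (e : ι₁ ⊕ (ι₂ × Bool) ≃ Fin (k + 1)) {c : ι₁ → Fam G}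
    {d' : ι₁ → ℝ} (hc : ∀ i, Good (c i) (d' i)) {α β : Fam G} {a b : ℝ} (hα : Good α a)
    (hβ : Good β b) (g : G) (x : Fin (k + 1) → G) :
    IF χ e c (fun _ => α + β) g x
      = ∑ A : Finset ι₂, IF χ e c (A.piecewise (fun _ => α) fun _ => β) g x := by
  unfold IF
  rw [← integral_finsetSum _ fun A _ => IF_integrable hχ hχ1 e hc
    (d := A.piecewise (fun _ => a) fun _ => b)
    (fun r => by by_cases hr : r ∈ A <;> simp [hr, hα, hβ]) g x]
  refine setIntegral_congr_fun measurableSet_Icc fun τ hτ => ?_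
  by_cases h : 0 < ∑ i, τ i
  · have hs := Sm_mem hτ.1 h
    simp only [← Finset.mul_sum]
    congr 2
    have := (WM e fun i => cv (c i k g x (Sm τ))).map_add_univ
      (fun _ => toM (fderiv ℝ (α k g x) (Sm τ))) fun _ => toM (fderiv ℝ (β k g x) (Sm τ))
    simp only [WM_apply] at this
    unfold Fs
    refine Eq.trans ?_ (this.trans (Finset.sum_congr rfl fun A _ => ?_))
    · congr 1
      funext r
      change toM (fderiv ℝ (α k g x + β k g x) _) = _
      rw [fderiv_add (hα.diff g x hs) (hβ.diff g x hs)]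
      rfl
    · congr 1
      funext r
      by_cases hr : r ∈ A <;> simp [hr]
  · simp only [hχ1 _ (show ∑ i, τ i ≤ 1 by linarith), zero_mul, Finset.sum_const_zero]

end Vale.Agent.P184
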