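import Vale.Agent.P184.Cyc

namespace Vale.Agent.P184

open Finset

variable {G : Type*} [Group G] {k : ℕ}

/-- Jump times extended by one more entry. -/
def extN (s : Fin (k + 1) → ℝ) (n : ℕ) : ℝ := if h : n < k + 1 then s ⟨n, h⟩ else s 0 + 1

/-- The next jump time. -/
def nxt (s : Fin (k + 1) → ℝ) (i : Fin (k + 1)) : ℝ := extN s (i + 1)

/-- Duration of the stay at vertex `i`. -/
def dur (s : Fin (k + 1) → ℝ) (i : Fin (k + 1)) : ℝ := nxt s i - s i

/-- Admissible jump times. -/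
def Dl (k : ℕ) : Set (Fin (k + 1) → ℝ) := {s | ∀ i, 0 ≤ dur s i}

/-- Index map of a face. -/
def fN (j l : ℕ) : ℕ := if l ≤ j then l else l - 1

/-- Affine face map on jump times. -/
def faceS (j : Fin (k + 2)) (s : Fin (k + 1) → ℝ) : Fin (k + 2) → ℝ := fun l => extN s (fN j l)

/-- Index map of the linear part of the face map. -/
def fidx (j : Fin (k + 2)) (l : Fin (k + 2)) : Fin (k + 1) :=
  if h : fN j l < k + 1 then ⟨fN j l, h⟩ else 0

/-- Affine rotation map on jump times. -/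
def rotS (s : Fin (k + 1) → ℝ) : Fin (k + 1) → ℝ := Fin.cons (s (Fin.last k) - 1) (Fin.init s)

/-- The weights `ρ`. -/
noncomputable def rho (l : Len G) (M : ℝ) (g : G) (x : Fin (k + 1) → G) (s : Fin (k + 1) → ℝ)
    (i : Fin (k + 1)) : ℝ := √(min 1 (M * dur s i)) / (1 + l.n (step g x i))

/-- Families of one-forms on the spaces of jump times. -/
abbrev Fam (G : Type*) := ∀ k : ℕ, G → (Fin (k + 1) → G) → (Fin (k + 1) → ℝ) →
  (Fin (k + 1) → ℝ) →L[ℝ] ℝ

/-- Naturality of a family of one-forms. -/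
structure Natural (Λ : Fam G) : Prop where
  shift : ∀ k g x s (c : ℝ), Λ k g x (fun i => s i + c) = Λ k g x s
  transl : ∀ k h g x, Λ k (h * g * h⁻¹) (fun i => h * x i) = Λ k g x
  face : ∀ k g (x : Fin (k + 2) → G) (j : Fin (k + 2)) s v,
    Λ (k + 1) g x (faceS j s) (fun l => v (fidx j l)) = Λ k g (fun i => x (j.succAbove i)) s v
  rot : ∀ k g x s v, Λ k g (rot g x) (rotS s) (ra v) = Λ k g x s v

/-- The norm `sqrt (∑ v_i^2 / ρ_i^2 + B v v)`. -/
noncomputable def nrm {K : ℕ} (ρ : Fin K → ℝ) (B : (Fin K → ℝ) →L[ℝ] (Fin K → ℝ) →L[ℝ] ℝ)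
    (v : Fin K → ℝ) : ℝ := √(∑ i, v i ^ 2 / ρ i ^ 2 + B v v)

/-- The covector `a` has dual norm at most `α`. -/
def CBd {K : ℕ} (N : (Fin K → ℝ) → ℝ) (a : (Fin K → ℝ) →L[ℝ] ℝ) (α : ℝ) : Prop :=
  0 ≤ α ∧ ∀ v, |a v| ≤ α * N v

/-- The antisymmetric part of `J` has nuclear norm at most `c`. -/
def AMass {K : ℕ} (N : (Fin K → ℝ) → ℝ) (J : (Fin K → ℝ) →L[ℝ] (Fin K → ℝ) →L[ℝ] ℝ) (c : ℝ) :
    Prop :=
  0 ≤ c ∧ ∀ (Lf : ((Fin K → ℝ) →L[ℝ] (Fin K → ℝ) →L[ℝ] ℝ) →ₗ[ℝ] ℝ) (C : ℝ), 0 ≤ C →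
    (∀ S, (∀ v w, S v w = S w v) → Lf S = 0) →
    (∀ a b α β, CBd N a α → CBd N b β → |Lf (a.smulRight b)| ≤ C * (α * β)) → |Lf J| ≤ C * c

/-- The output of the analytic construction. -/
structure AnFam (l : Len G) (L η ρ M : ℝ) (Λ : Fam G) : Prop where
  nat : Natural Λ
  smooth : ∀ k g x, ContDiff ℝ 2 (Λ k g x)
  pos : ∀ k g x, ∀ s ∈ Dl k, 0 ≤ Λ k g x s 1
  est : ∀ k : ℕ, (k : ℝ) + 1 ≤ M → ∀ g, l.Disp ρ ⌈l.C * Real.exp ρ⌉₊ g →
    ∀ (x : Fin (k + 1) → G) (s : Fin (k + 1) → ℝ), (∀ i, 0 < dur s i) →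
    (∑ i, l.n (step g x i) ≤ L * M → 1 ≤ Λ k g x s 1) ∧
    ∃ B : (Fin (k + 1) → ℝ) →L[ℝ] (Fin (k + 1) → ℝ) →L[ℝ] ℝ, (∀ v w, B v w = B w v) ∧
      (∀ v, 0 ≤ B v v) ∧
      ∑ i, rho l M g x s i ^ 2 * B (Pi.single i 1) (Pi.single i 1) ≤ 4 * M ∧
      CBd (nrm (rho l M g x s) B) (Λ k g x s) (η * M) ∧
      AMass (nrm (rho l M g x s) B) (fderiv ℝ (Λ k g x) s) (η * M)

/-- Statement of the analytic core. -/
def AnCore (l : Len G) : Prop :=
  ∀ L η : ℝ, 0 < L → 0 < η → ∃ (ρ : ℝ) (M₀ : ℕ), ∀ M : ℕ, M₀ ≤ M → ∃ Λ : Fam G, AnFam l L η ρ M Λ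

theorem extN_val (s : Fin (k + 1) → ℝ) (i : Fin (k + 1)) : extN s i = s i := by
  simp [extN, i.2]

theorem extN_of_lt (s : Fin (k + 1) → ℝ) {n : ℕ} (h : n < k + 1) : extN s n = s ⟨n, h⟩ := by
  simp [extN, h]

theorem extN_of_ge (s : Fin (k + 1) → ℝ) {n : ℕ} (h : k + 1 ≤ n) : extN s n = s 0 + 1 := by
  simp [extN, not_lt.2 h]

theorem nxt_castSucc (s : Fin (k + 1) → ℝ) (i : Fin k) : nxt s i.castSucc = s i.succ := by
  rw [nxt, extN_of_lt s (by simp)]; rfl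

theorem nxt_last (s : Fin (k + 1) → ℝ) : nxt s (Fin.last k) = s 0 + 1 := by
  rw [nxt, extN_of_ge s (by simp)]

theorem sum_dur (s : Fin (k + 1) → ℝ) : ∑ i, dur s i = 1 := by
  simp only [dur, Finset.sum_sub_distrib]
  rw [Fin.sum_univ_castSucc, Fin.sum_univ_succ s]
  simp only [nxt_castSucc, nxt_last]
  ring

theorem extN_faceS (j : Fin (k + 2)) (s : Fin (k + 1) → ℝ) {n : ℕ} (hn : n ≤ k + 2) :
    extN (faceS j s) n = extN s (fN j n) := by
  by_cases h : n < k + 2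
  · rw [extN_of_lt _ h]; rfl
  · have hj := j.2
    rw [extN_of_ge _ (by omega), extN_of_ge _ (by unfold fN; split_ifs <;> omega)]
    simp [faceS, fN, extN]

theorem faceS_succAbove (j : Fin (k + 2)) (s : Fin (k + 1) → ℝ) (i : Fin (k + 1)) :
    faceS j s (j.succAbove i) = s i := by
  rw [← extN_val s i, faceS]
  congr 1
  unfold fN Fin.succAbove
  split_ifs with h1 h2 h2 <;> simp [Fin.lt_def] at * <;> omega

theorem nxt_faceS_succAbove (j : Fin (k + 2)) (s : Fin (k + 1) → ℝ) (i : Fin (k + 1)) :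
    nxt (faceS j s) (j.succAbove i) = nxt s i := by
  rw [nxt, nxt, extN_faceS j s (by have := (j.succAbove i).2; omega)]
  congr 1
  unfold fN Fin.succAbove
  split_ifs with h1 h2 h2 <;> simp [Fin.lt_def] at * <;> omega

theorem nxt_faceS_self (j : Fin (k + 2)) (s : Fin (k + 1) → ℝ) :
    nxt (faceS j s) j = faceS j s j := by
  rw [nxt, extN_faceS j s (by have := j.2; omega), faceS]
  congr 1
  unfold fN
  simp

theorem fidx_succAbove (j : Fin (k + 2)) (i : Fin (k + 1)) : fidx j (j.succAbove i) = i := by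
  have : fN j (j.succAbove i) = i := by
    unfold fN Fin.succAbove
    split_ifs with h1 h2 h2 <;> simp [Fin.lt_def] at * <;> omega
  simp [fidx, this, i.2]

theorem faceS_add (j : Fin (k + 2)) (s v : Fin (k + 1) → ℝ) :
    faceS j (s + v) = faceS j s + fun l => v (fidx j l) := by
  funext l
  simp only [faceS, extN, fidx, Pi.add_apply]
  split_ifs <;> ring

theorem rotS_add (s v : Fin (k + 1) → ℝ) : rotS (s + v) = rotS s + ra v := by
  funext i
  refine Fin.cases ?_ (fun j => ?_) i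
  · simp [rotS]; ring
  · simp [rotS, Fin.init]

@[simp] theorem rotS_zero (s : Fin (k + 1) → ℝ) : rotS s 0 = s (Fin.last k) - 1 := rfl

@[simp] theorem rotS_succ (s : Fin (k + 1) → ℝ) (i : Fin k) : rotS s i.succ = s i.castSucc := rfl

theorem nxt_rotS_zero (s : Fin (k + 1) → ℝ) : nxt (rotS s) 0 = nxt s (Fin.last k) - 1 := by
  rw [nxt_last]
  cases k with
  | zero => rw [show (0 : Fin (0 + 1)) = Fin.last 0 from rfl, nxt_last]; simp [rotS]
  | succ k =>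
    rw [show (0 : Fin (k + 1 + 1)) = (0 : Fin (k + 1)).castSucc from rfl, nxt_castSucc, rotS_succ]
    simp

theorem nxt_rotS_succ (s : Fin (k + 1) → ℝ) (i : Fin k) :
    nxt (rotS s) i.succ = nxt s i.castSucc := by
  rw [nxt_castSucc]
  cases k with
  | zero => exact i.elim0
  | succ k =>
    refine Fin.lastCases ?_ (fun j => ?_) i
    · rw [Fin.succ_last, nxt_last]; simp
    · rw [Fin.succ_castSucc, nxt_castSucc, rotS_succ]

theorem dur_rotS (s : Fin (k + 1) → ℝ) : dur (rotS s) = ra (dur s) := by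
  funext i
  refine Fin.cases ?_ (fun j => ?_) i
  · simp [dur, nxt_rotS_zero]
  · simp [dur, nxt_rotS_succ]

theorem nxt_shift (s : Fin (k + 1) → ℝ) (c : ℝ) (i : Fin (k + 1)) :
    nxt (fun i => s i + c) i = nxt s i + c := by
  simp only [nxt, extN]
  split_ifs <;> ring

theorem dur_shift (s : Fin (k + 1) → ℝ) (c : ℝ) : dur (fun i => s i + c) = dur s := by
  funext i
  simp [dur, nxt_shift]

theorem rho_pos (l : Len G) {M : ℝ} (hM : 0 < M) (g : G) (x : Fin (k + 1) → G)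
    {s : Fin (k + 1) → ℝ} (hs : ∀ i, 0 < dur s i) (i : Fin (k + 1)) : 0 < rho l M g x s i := by
  have := l.nonneg (step g x i)
  have := hs i
  unfold rho
  positivity

theorem rho_le_one (l : Len G) (M : ℝ) (g : G) (x : Fin (k + 1) → G)
    (s : Fin (k + 1) → ℝ) (i : Fin (k + 1)) : rho l M g x s i ≤ 1 := by
  have := l.nonneg (step g x i)
  unfold rho
  rw [div_le_one (by linarith)]
  have : √(min 1 (M * dur s i)) ≤ 1 := Real.sqrt_le_one.2 (min_le_left _ _)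
  linarith

end Vale.Agent.P184
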