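import Mathlib

namespace Vale.Agent.P184

/-- A length function whose exponential is summable. -/
structure Len (G : Type*) [Group G] where
  n : G → ℝ
  n_one : n 1 = 0
  nonneg : ∀ g, 0 ≤ n g
  inv : ∀ g, n g⁻¹ = n g
  mul : ∀ g h, n (g * h) ≤ n g + n h
  summ : Summable fun g => Real.exp (-n g)

variable {G : Type*} [Group G]

/-- Total mass of `exp (-n)`. -/
noncomputable def Len.C (l : Len G) : ℝ := ∑' g, Real.exp (-l.n g)

/-- Left invariant distance. -/
def Len.d (l : Len G) (x y : G) : ℝ := l.n (x⁻¹ * y)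

/-- Some power `g^k`, `1 ≤ k ≤ p`, moves any given point by at least `ρ`. -/
def Len.Disp (l : Len G) (ρ : ℝ) (p : ℕ) (g : G) : Prop :=
  ∀ b : G, ∃ k : ℕ, 1 ≤ k ∧ k ≤ p ∧ ρ ≤ l.d b (g ^ k * b)

namespace Len
variable (l : Len G)

theorem d_nonneg (x y : G) : 0 ≤ l.d x y := l.nonneg _

theorem d_self (x : G) : l.d x x = 0 := by simp [d, l.n_one]

theorem d_comm (x y : G) : l.d x y = l.d y x := by
  rw [d, d, ← l.inv]; simp

theorem d_tri (x y z : G) : l.d x z ≤ l.d x y + l.d y z := by
  have := l.mul (x⁻¹ * y) (y⁻¹ * z)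
  simpa [d, mul_assoc] using this

theorem d_mul (h x y : G) : l.d (h * x) (h * y) = l.d x y := by
  simp [d, mul_assoc]

theorem abs_d_sub (x y b : G) : |l.d x b - l.d y b| ≤ l.d y x := by
  have h1 := l.d_tri x y b
  have h2 := l.d_tri y x b
  have h3 := l.d_comm x y
  rw [abs_le]; constructor <;> linarith

theorem one_le_C : 1 ≤ l.C := by
  have := l.summ.le_tsum 1 (fun _ _ => (Real.exp_pos _).le)
  simpa [l.n_one, C] using this

theorem hasSum_d (x : G) : HasSum (fun b => Real.exp (-l.d x b)) l.C := by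
  have := (Equiv.mulLeft x⁻¹).hasSum_iff.2 l.summ.hasSum
  simpa [d, Function.comp_def, C] using this

end Len

end Vale.Agent.P184
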