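import Vale.Agent.P184.Alt

namespace Vale.Agent.P184

open Finset Matrix Equiv MeasureTheory Filter Topology

variable {K : ℕ} {ι : Type*}

/-- The top dimensional pattern attached to a face pattern. -/
def topPat (e : Bool ⊕ (ι × Bool) ≃ Fin K) : Unit ⊕ (Option ι × Bool) ≃ Fin (K + 1) where
  toFun x := match x with
    | .inl _ => (e (.inl false)).succ
    | .inr (none, false) => 0
    | .inr (none, true) => (e (.inl true)).succ
    | .inr (some r, b) => (e (.inr (r, b))).succ
  invFun := Fin.cases (.inr (none, false)) fun i => match e.symm i with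
    | .inl false => .inl ()
    | .inl true => .inr (none, true)
    | .inr (r, b) => .inr (some r, b)
  left_inv x := by
    rcases x with _ | ⟨_ | r, _ | _⟩ <;> simp
  right_inv i := by
    refine Fin.cases rfl (fun j => ?_) i
    obtain ⟨x, rfl⟩ := e.surjective j
    rcases x with (_ | _) | ⟨r, b⟩ <;> simp

/-- Jacobian matrix of a one-form given by its components. -/
noncomputable def Jac (η : (Fin K → ℝ) → Fin K → ℝ) (τ : Fin K → ℝ) : Matrix (Fin K) (Fin K) ℝ :=
  Matrix.of fun a b => fderiv ℝ (fun t => η t b) τ (Pi.single a 1)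

variable [Fintype ι] (e : Bool ⊕ (ι × Bool) ≃ Fin K)
  (η : Option ι → (Fin (K + 1) → ℝ) → Fin (K + 1) → ℝ) (χ : ℝ → ℝ)

/-- The function whose derivative is integrated. -/
noncomputable def gfun (κ : Fin (K + 1) → Fin (K + 1)) (τ : Fin (K + 1) → ℝ) : ℝ :=
  χ (∑ i, τ i) * (η none τ (κ (e (.inl true)).succ) *
    ∏ r, Jac (η (some r)) τ (κ (e (.inr (r, false))).succ) (κ (e (.inr (r, true))).succ))

variable {e η χ}

theorem gfun_zero (hχ : ∀ x ≤ (1 : ℝ), χ x = 0) {τ : Fin (K + 1) → ℝ} (h : ∑ i, τ i < 1)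
    (κ : Fin (K + 1) → Fin (K + 1)) : gfun e η χ κ =ᶠ[𝓝 τ] fun _ => 0 := by
  have hc : Continuous fun t : Fin (K + 1) → ℝ => ∑ i, t i := by fun_prop
  filter_upwards [hc.continuousAt.eventually (gt_mem_nhds h)] with t ht
  rw [gfun, hχ _ ht.le, zero_mul]

theorem jac_contDiffAt {f : (Fin K → ℝ) → Fin K → ℝ} {τ : Fin K → ℝ} {b : Fin K}
    (h : ContDiffAt ℝ 2 (fun t => f t b) τ) (a : Fin K) :
    ContDiffAt ℝ 1 (fun t => Jac f t a b) τ :=
  (h.fderiv_right (m := 1) (by norm_num)).clm_apply contDiffAt_const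

theorem gfun_contDiffAt (hχ : ContDiff ℝ 1 χ) {τ : Fin (K + 1) → ℝ}
    (h : ∀ r b, ContDiffAt ℝ 2 (fun t => η r t b) τ) (κ : Fin (K + 1) → Fin (K + 1)) :
    ContDiffAt ℝ 1 (gfun e η χ κ) τ := by
  unfold gfun
  refine ContDiffAt.mul (hχ.contDiffAt.comp τ (by fun_prop)) (ContDiffAt.mul ?_ ?_)
  · exact (h _ _).of_le (by norm_num)
  · exact contDiffAt_prod fun r _ => jac_contDiffAt (h _ _) _

theorem gfun_div (hχ : ContDiff ℝ 1 χ) {τ : Fin (K + 1) → ℝ}
    (h : ∀ r b, ContDiffAt ℝ 2 (fun t => η r t b) τ) :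
    ∑ σ : Perm (Fin (K + 1)), sg σ * fderiv ℝ (gfun e η χ σ) τ (Pi.single (σ 0) 1)
      = χ (∑ i, τ i) * W (topPat e) (fun _ _ => 1) (fun r => Jac (η r) τ) := by
  classical
  set D2 : ι → Fin (K + 1) → Fin (K + 1) → Fin (K + 1) → ℝ := fun r b v w =>
    fderiv ℝ (fderiv ℝ fun t => η (some r) t b) τ (Pi.single v 1) (Pi.single w 1) with hD2
  have hsym : ∀ r b v w, D2 r b v w = D2 r b w v := fun r b v w =>
    ((h (some r) b).isSymmSndFDerivAt (by simp)).eq _ _
  have hj : ∀ r a b, HasFDerivAt (fun t => Jac (η (some r)) t a b)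
      ((fderiv ℝ (fderiv ℝ fun t => η (some r) t b) τ).flip (Pi.single a 1)) τ := by
    intro r a b
    have h1 : DifferentiableAt ℝ (fderiv ℝ fun t => η (some r) t b) τ :=
      ((h (some r) b).fderiv_right (m := 1) (by norm_num)).differentiableAt (by norm_num)
    have := h1.hasFDerivAt.clm_apply (hasFDerivAt_const (Pi.single a 1 : Fin (K + 1) → ℝ) τ)
    simpa [Jac] using this
  have hT : HasFDerivAt (fun t : Fin (K + 1) → ℝ => ∑ i, t i)
      (∑ i, ContinuousLinearMap.proj (R := ℝ) (φ := fun _ : Fin (K + 1) => ℝ) i) τ :=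
    HasFDerivAt.fun_sum fun i _ => hasFDerivAt_apply i τ
  have hc : HasFDerivAt (fun t : Fin (K + 1) → ℝ => χ (∑ i, t i))
      (deriv χ (∑ i, τ i) •
        ∑ i, ContinuousLinearMap.proj (R := ℝ) (φ := fun _ : Fin (K + 1) => ℝ) i) τ :=
    (hχ.differentiable (by norm_num) _).hasDerivAt.comp_hasFDerivAt τ hT
  set P : (Fin (K + 1) → Fin (K + 1)) → ι → ℝ := fun κ r =>
    Jac (η (some r)) τ (κ (e (.inr (r, false))).succ) (κ (e (.inr (r, true))).succ) with hP
  have key : ∀ (κ : Fin (K + 1) → Fin (K + 1)) (a : Fin (K + 1)),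
      fderiv ℝ (gfun e η χ κ) τ (Pi.single a 1) =
      deriv χ (∑ i, τ i) * (η none τ (κ (e (.inl true)).succ) * ∏ r, P κ r)
      + χ (∑ i, τ i) * (Jac (η none) τ a (κ (e (.inl true)).succ) * ∏ r, P κ r)
      + ∑ r, χ (∑ i, τ i) * (η none τ (κ (e (.inl true)).succ) * ((∏ r' ∈ univ.erase r, P κ r') *
          D2 r (κ (e (.inr (r, true))).succ) a (κ (e (.inr (r, false))).succ))) := by
    intro κ a
    have h0 := ((h none (κ (e (.inl true)).succ)).differentiableAt (by norm_num)).hasFDerivAt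
    have h1 := HasFDerivAt.finsetProd (u := univ) fun r _ =>
      hj r (κ (e (.inr (r, false))).succ) (κ (e (.inr (r, true))).succ)
    have h2 := (hc.fun_mul (h0.fun_mul h1)).fderiv
    unfold gfun
    rw [h2]
    simp only [_root_.add_apply, _root_.smul_apply,
      _root_.sum_apply, ContinuousLinearMap.proj_apply, smul_eq_mul,
      ContinuousLinearMap.flip_apply, Finset.sum_pi_single', mem_univ, if_true, hP, hD2,
      Finset.mul_sum, mul_add, Jac, of_apply]
    ring
  have hne : ∀ x, (e x).succ ≠ 0 := fun x => Fin.succ_ne_zero _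
  have hsw : ∀ x y, y ≠ x → swap 0 (e x).succ (e y).succ = (e y).succ := fun x y hxy =>
    swap_apply_of_ne_of_ne (hne y) fun h => hxy (e.injective (Fin.succ_injective _ h))
  simp only [key, mul_add, Finset.sum_add_distrib]
  rw [alt_swap (fun σ => deriv χ (∑ i, τ i) *
    (η none τ (σ (e (.inl true)).succ) * ∏ r, P σ r)) (hne (.inl false)).symm, zero_add]
  · have z : ∑ σ : Perm (Fin (K + 1)), sg σ * ∑ r, χ (∑ i, τ i) *
        (η none τ (σ (e (.inl true)).succ) * ((∏ r' ∈ univ.erase r, P σ r') *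
          D2 r (σ (e (.inr (r, true))).succ) (σ 0) (σ (e (.inr (r, false))).succ))) = 0 := by
      simp only [Finset.mul_sum]
      rw [Finset.sum_comm]
      refine Finset.sum_eq_zero fun r _ => ?_
      refine alt_swap _ (hne (.inr (r, false))).symm fun σ => ?_
      simp only [Perm.mul_apply, swap_apply_left, swap_apply_right]
      rw [hsw _ _ (by simp), hsw _ _ (by simp), hsym]
      congr 3
      refine Finset.prod_congr rfl fun r' hr => ?_
      have := Finset.ne_of_mem_erase hr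
      simp only [hP, Perm.coe_mul, Function.comp]
      rw [hsw _ _ (by simp [this]), hsw _ _ (by simp)]
    rw [z, add_zero, W, Finset.mul_sum]
    refine Finset.sum_congr rfl fun σ _ => ?_
    simp only [term, Finset.prod_const_one, one_mul, Fintype.prod_option]
    simp only [topPat, Equiv.coe_fn_mk, hP]
    ring
  · intro σ
    simp only [hP, Perm.coe_mul, Function.comp]
    rw [hsw _ _ (by simp)]
    congr 2
    refine Finset.prod_congr rfl fun r' _ => ?_
    rw [hsw _ _ (by simp), hsw _ _ (by simp)]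

/-- The box of durations. -/
def box (K : ℕ) : Set (Fin K → ℝ) := Set.Icc 0 fun _ => 3

theorem stokes (hχ : ContDiff ℝ 1 χ) (hχ1 : ∀ x ≤ (1 : ℝ), χ x = 0)
    (hχ2 : ∀ x ≥ (2 : ℝ), χ x = 0)
    (h : ∀ τ ∈ box (K + 1), 0 < ∑ i, τ i → ∀ r b, ContDiffAt ℝ 2 (fun t => η r t b) τ) :
    ∫ τ in box (K + 1), χ (∑ i, τ i) * W (topPat e) (fun _ _ => 1) (fun r => Jac (η r) τ)
      = -∑ a : Fin (K + 1), (-1) ^ (a : ℕ) * ∫ τ in box K, χ (∑ i, τ i) *
        W e (fun b i => bif b then η none (a.insertNth 0 τ) (a.succAbove i) else 1)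
          (fun r => (Jac (η (some r)) (a.insertNth 0 τ)).submatrix a.succAbove a.succAbove) := by
  classical
  have hg : ∀ κ, ∀ τ ∈ box (K + 1), ContDiffAt ℝ 1 (gfun e η χ κ) τ := by
    intro κ τ hτ
    by_cases h0 : 0 < ∑ i, τ i
    · exact gfun_contDiffAt hχ (h τ hτ h0) κ
    · exact contDiffAt_const.congr_of_eventuallyEq (gfun_zero hχ1 (by linarith) κ)
  have hdiv : ∀ τ ∈ box (K + 1), ∑ σ : Perm (Fin (K + 1)),
      sg σ * fderiv ℝ (gfun e η χ σ) τ (Pi.single (σ 0) 1)
      = χ (∑ i, τ i) * W (topPat e) (fun _ _ => 1) (fun r => Jac (η r) τ) := by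
    intro τ hτ
    by_cases h0 : 0 < ∑ i, τ i
    · exact gfun_div hχ (h τ hτ h0)
    · rw [hχ1 _ (by linarith), zero_mul]
      refine Finset.sum_eq_zero fun σ _ => ?_
      rw [(gfun_zero hχ1 (by linarith) σ).fderiv_eq]; simp
  have hsum : ∀ τ, ∑ a : Fin (K + 1), (∑ σ : Perm (Fin (K + 1)),
      (if σ 0 = a then sg σ else 0) • fderiv ℝ (gfun e η χ σ) τ) (Pi.single a 1)
      = ∑ σ : Perm (Fin (K + 1)), sg σ * fderiv ℝ (gfun e η χ σ) τ (Pi.single (σ 0) 1) := by
    intro τ
    simp only [_root_.sum_apply, _root_.smul_apply, smul_eq_mul]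
    rw [Finset.sum_comm]
    refine Finset.sum_congr rfl fun σ _ => ?_
    simp
  have main := integral_divergence_of_hasFDerivAt_off_countable' (0 : Fin (K + 1) → ℝ)
    (fun _ => 3) (fun _ => by norm_num)
    (fun a τ => ∑ σ : Perm (Fin (K + 1)), (if σ 0 = a then sg σ else 0) * gfun e η χ σ τ)
    (fun a τ => ∑ σ : Perm (Fin (K + 1)),
      (if σ 0 = a then sg σ else 0) • fderiv ℝ (gfun e η χ σ) τ) ∅ Set.countable_empty
    (fun a => continuousOn_finsetSum _ fun σ _ => continuousOn_const.mul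
      fun τ hτ => (hg σ τ hτ).continuousAt.continuousWithinAt)
    (fun τ hτ a => HasFDerivAt.fun_sum fun σ _ =>
      ((hg σ τ ⟨fun i => (hτ.1 i trivial).1.le, fun i => (hτ.1 i trivial).2.le⟩).differentiableAt
        (by norm_num)).hasFDerivAt.const_mul _)
    (by
      simp only [hsum]
      refine ContinuousOn.integrableOn_compact isCompact_Icc ?_
      refine continuousOn_finsetSum _ fun σ _ => continuousOn_const.mul fun τ hτ => ?_
      exact (((hg σ τ hτ).continuousAt_fderiv (by norm_num)).clm_apply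
        continuousAt_const).continuousWithinAt)
  simp only [hsum] at main
  refine (setIntegral_congr_fun measurableSet_Icc hdiv).symm.trans (main.trans ?_)
  rw [← Finset.sum_neg_distrib]
  refine Finset.sum_congr rfl fun a _ => ?_
  have hb : Set.Icc ((0 : Fin (K + 1) → ℝ) ∘ a.succAbove) ((fun _ => 3) ∘ a.succAbove) = box K :=
    rfl
  rw [hb]
  have hfront : ∫ τ in box K, ∑ σ : Perm (Fin (K + 1)),
      (if σ 0 = a then sg σ else 0) * gfun e η χ σ (a.insertNth 3 τ) = 0 := by
    refine setIntegral_eq_zero_of_forall_eq_zero fun τ hτ => Finset.sum_eq_zero fun σ _ => ?_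
    rw [gfun, hχ2, zero_mul, mul_zero]
    rw [Fin.sum_univ_succAbove _ a]
    simp only [Fin.insertNth_apply_same, Fin.insertNth_apply_succAbove]
    have : 0 ≤ ∑ i, τ i := Finset.sum_nonneg fun i _ => hτ.1 i
    linarith
  rw [hfront, zero_sub, ← integral_const_mul]
  congr 1
  refine setIntegral_congr_fun measurableSet_Icc fun τ _ => ?_
  have h1 := sum_perm_succ (fun κ => if κ 0 = a then gfun e η χ κ (a.insertNth 0 τ) else 0)
  simp only [Fin.cons_zero, mul_ite, mul_zero] at h1
  simp only [Pi.zero_apply, ite_mul, zero_mul]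
  rw [h1, Finset.sum_eq_single a]
  · simp only [if_true, W, Finset.mul_sum]
    refine Finset.sum_congr rfl fun σ _ => ?_
    have hs : ∑ i, (a.insertNth (0 : ℝ) τ : Fin (K + 1) → ℝ) i = ∑ i, τ i := by
      rw [Fin.sum_univ_succAbove _ a]; simp
    simp only [gfun, hs, term, Fin.cons_succ, Fintype.prod_bool, cond_true, cond_false,
      submatrix_apply]
    ring
  · intro b _ hb
    simp [hb]
  · simp

end Vale.Agent.P184
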