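import Vale.Agent.P184.Iface
import Vale.Agent.P184.Stokes

namespace Vale.Agent.P184

open Finset Matrix Filter Topology

section Gen
variable {K : ℕ}

/-- Components of a covector. -/
def cv (a : (Fin K → ℝ) →L[ℝ] ℝ) : Fin K → ℝ := fun b => a (Pi.single b 1)

/-- Matrix of a bilinear form. -/
noncomputable def toM (B : (Fin K → ℝ) →L[ℝ] (Fin K → ℝ) →L[ℝ] ℝ) : Matrix (Fin K) (Fin K) ℝ :=
  Matrix.of fun a b => B (Pi.single a 1) (Pi.single b 1)

theorem vec_eq_sum (v : Fin K → ℝ) : v = ∑ i, v i • (Pi.single i 1 : Fin K → ℝ) := by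
  funext j; simp [Finset.sum_apply, Pi.single_apply]

theorem cv_apply (a : (Fin K → ℝ) →L[ℝ] ℝ) (v : Fin K → ℝ) : a v = cv a ⬝ᵥ v := by
  conv_lhs => rw [vec_eq_sum v]
  simp [cv, dotProduct, mul_comm]

theorem toM_apply (B : (Fin K → ℝ) →L[ℝ] (Fin K → ℝ) →L[ℝ] ℝ) (v w : Fin K → ℝ) :
    B v w = v ⬝ᵥ toM B *ᵥ w := by
  conv_lhs => rw [vec_eq_sum v]
  simp only [map_sum, map_smul, _root_.sum_apply, _root_.smul_apply,
    smul_eq_mul]
  refine Finset.sum_congr rfl fun i _ => ?_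
  rw [cv_apply]; rfl

theorem line_deriv {E : Type*} [NormedAddCommGroup E] [NormedSpace ℝ E] {f : (Fin K → ℝ) → E}
    {s : Fin K → ℝ} (h : DifferentiableAt ℝ f s) (v : Fin K → ℝ) :
    HasDerivAt (fun t : ℝ => f (s + t • v)) (fderiv ℝ f s v) 0 :=
  h.hasFDerivAt.hasLineDerivAt v

theorem fd_line {φ : (Fin K → ℝ) → (Fin K → ℝ) →L[ℝ] ℝ} {s : Fin K → ℝ}
    (h : DifferentiableAt ℝ φ s) (v w : Fin K → ℝ) :
    HasDerivAt (fun t : ℝ => φ (s + t • v) w) (fderiv ℝ φ s v w) 0 := by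
  simpa using (line_deriv h v).clm_apply (hasDerivAt_const (0 : ℝ) w)

theorem line_tendsto (s v : Fin K → ℝ) : Tendsto (fun t : ℝ => s + t • v) (𝓝 0) (𝓝 s) := by
  have : Continuous fun t : ℝ => s + t • v := by fun_prop
  simpa using this.tendsto 0

end Gen

variable {k : ℕ}

/-- Initial sums. -/
def ps (τ : Fin (k + 1) → ℝ) (n : ℕ) : ℝ := ∑ l : Fin (k + 1), (if (l : ℕ) < n then 1 else 0) * τ l

/-- Jump times attached to durations. -/
noncomputable def Sm (τ : Fin (k + 1) → ℝ) : Fin (k + 1) → ℝ := fun i => ps τ i / ∑ l, τ l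

/-- Derivative of `Sm`. -/
noncomputable def Dm (τ : Fin (k + 1) → ℝ) : Matrix (Fin (k + 1)) (Fin (k + 1)) ℝ :=
  Matrix.of fun i j => ((if (j : ℕ) < i then 1 else 0) - Sm τ i) / ∑ l, τ l

/-- The constant comparison matrix. -/
def Bm (k : ℕ) : Matrix (Fin (k + 1)) (Fin (k + 1)) ℝ :=
  Matrix.of fun i j => if i = 0 then 1 else if (j : ℕ) < i then 1 else 0

theorem ps_zero (τ : Fin (k + 1) → ℝ) : ps τ 0 = 0 := by simp [ps]

theorem ps_succ (τ : Fin (k + 1) → ℝ) (i : Fin (k + 1)) : ps τ (i + 1) = ps τ i + τ i := by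
  have : τ i = ∑ l : Fin (k + 1), (if l = i then 1 else 0) * τ l := by simp
  rw [this, ps, ps, ← Finset.sum_add_distrib]
  refine Finset.sum_congr rfl fun l _ => ?_
  rw [← add_mul]
  congr 1
  simp only [Fin.ext_iff]
  split_ifs <;> first | omega | simp

theorem ps_ge (τ : Fin (k + 1) → ℝ) {n : ℕ} (h : k + 1 ≤ n) : ps τ n = ∑ l, τ l :=
  Finset.sum_congr rfl fun l _ => by rw [if_pos (by omega), one_mul]

theorem Sm_zero (τ : Fin (k + 1) → ℝ) : Sm τ 0 = 0 := by simp [Sm, ps_zero]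

theorem extN_Sm {τ : Fin (k + 1) → ℝ} (h : ∑ l, τ l ≠ 0) (n : ℕ) :
    extN (Sm τ) n = ps τ n / ∑ l, τ l := by
  by_cases hn : n < k + 1
  · rw [extN_of_lt _ hn]; rfl
  · rw [extN_of_ge _ (by omega), Sm_zero, ps_ge _ (by omega), div_self h, zero_add]

theorem dur_Sm {τ : Fin (k + 1) → ℝ} (h : ∑ l, τ l ≠ 0) (i : Fin (k + 1)) :
    dur (Sm τ) i = τ i / ∑ l, τ l := by
  rw [dur, nxt, extN_Sm h, ps_succ, Sm]; ring

theorem Sm_mem {τ : Fin (k + 1) → ℝ} (h0 : ∀ i, 0 ≤ τ i) (h : 0 < ∑ l, τ l) : Sm τ ∈ Dl k :=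
  fun i => by rw [dur_Sm h.ne']; exact div_nonneg (h0 i) h.le

theorem det_Bm_ne : det (Bm k) ≠ 0 := by
  intro h
  obtain ⟨v, hv, h0⟩ := exists_mulVec_eq_zero_iff.2 h
  have h1 : ∀ n, ps v n = 0 := by
    intro n
    have a0 := congrFun h0 0
    by_cases hn : n < k + 1
    · by_cases hn0 : n = 0
      · rw [hn0, ps_zero]
      · have := congrFun h0 ⟨n, hn⟩
        have h2 : (⟨n, hn⟩ : Fin (k + 1)) ≠ 0 := fun h => hn0 (congrArg Fin.val h)
        simpa only [Bm, mulVec, dotProduct, of_apply, h2, if_false, ps, Pi.zero_apply] using this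
    · rw [ps_ge _ (by omega)]
      simpa [Bm, mulVec, dotProduct] using a0
  refine hv (funext fun i => ?_)
  have := ps_succ v i
  rw [h1, h1] at this
  simpa using this.symm

theorem det_Xi (τ : Fin (k + 1) → ℝ) :
    det (Dm τ + Matrix.of fun _ _ => 1) = (∑ l, τ l)⁻¹ ^ k * det (Bm k) := by
  have h1 := det_mul_column (fun i : Fin (k + 1) => if i = 0 then 1 else (∑ l, τ l)⁻¹) (Bm k)
  rw [Fin.prod_univ_succ] at h1
  simp only [if_true, Fin.succ_ne_zero, if_false, Finset.prod_const, card_univ, Fintype.card_fin,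
    one_mul] at h1
  rw [← h1]
  refine det_eq_of_forall_row_eq_smul_add_const
    (fun i => if i = 0 then 0 else 1 - Sm τ i / ∑ l, τ l) 0 (by simp) fun i j => ?_
  by_cases hi : i = 0
  · simp [hi, Dm, Bm, Sm_zero]
  · simp only [Dm, Bm, Matrix.add_apply, of_apply, hi, if_false, if_true]; ring

theorem Dm_mulVec {τ : Fin (k + 1) → ℝ} (h : ∑ l, τ l ≠ 0) : Dm τ *ᵥ τ = 0 := by
  funext i
  simp only [mulVec, dotProduct, Dm, of_apply, div_mul_eq_mul_div, sub_mul, ← Finset.sum_div,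
    Finset.sum_sub_distrib, ← Finset.mul_sum, Pi.zero_apply]
  rw [Sm, div_mul_cancel₀ _ h, ps, sub_self, zero_div]

theorem Sm_contDiffAt {τ : Fin (k + 1) → ℝ} (h : ∑ l, τ l ≠ 0) : ContDiffAt ℝ 2 Sm τ := by
  refine contDiffAt_pi.2 fun i => ?_
  unfold Sm ps
  exact ContDiffAt.div (by fun_prop) (by fun_prop) h

theorem col_contDiffAt {τ : Fin (k + 1) → ℝ} (h : ∑ l, τ l ≠ 0) (b : Fin (k + 1)) :
    ContDiffAt ℝ 2 (fun t i => Dm t i b) τ := by
  refine contDiffAt_pi.2 fun i => ?_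
  simp only [Dm, of_apply]
  exact ContDiffAt.div (contDiffAt_const.sub (contDiffAt_pi.1 (Sm_contDiffAt h) i)) (by fun_prop) h

theorem sum_line (τ : Fin (k + 1) → ℝ) (a : Fin (k + 1)) :
    HasDerivAt (fun t : ℝ => ∑ l, (τ + t • (Pi.single a 1 : Fin (k + 1) → ℝ)) l) 1 0 := by
  have : (fun t : ℝ => ∑ l, (τ + t • (Pi.single a 1 : Fin (k + 1) → ℝ)) l)
      = fun t => ∑ l, τ l + t := by
    funext t; simp [Finset.sum_add_distrib, ← Finset.mul_sum]
  rw [this]; exact (hasDerivAt_id (0 : ℝ)).const_add _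

theorem Sm_line {τ : Fin (k + 1) → ℝ} (h : ∑ l, τ l ≠ 0) (a i : Fin (k + 1)) :
    HasDerivAt (fun t : ℝ => Sm (τ + t • (Pi.single a 1 : Fin (k + 1) → ℝ)) i) (Dm τ i a) 0 := by
  have e : (fun t : ℝ => ps (τ + t • (Pi.single a 1 : Fin (k + 1) → ℝ)) i)
      = fun t => ps τ i + t * (if (a : ℕ) < i then 1 else 0) := by
    funext t
    simp only [ps, Pi.add_apply, mul_add, Finset.sum_add_distrib, Pi.smul_apply, smul_eq_mul]
    congr 1
    rw [Finset.sum_eq_single a (fun b _ hb => by simp [hb]) (by simp)]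
    simp
  have h1 : HasDerivAt (fun t : ℝ => ps (τ + t • (Pi.single a 1 : Fin (k + 1) → ℝ)) i)
      (if (a : ℕ) < i then 1 else 0) 0 := by
    rw [e]; exact (hasDerivAt_mul_const _).const_add (ps τ i)
  refine (h1.fun_div (sum_line τ a) (by simpa using h)).congr_deriv ?_
  simp only [zero_smul, add_zero, Dm, of_apply, Sm]
  field_simp

theorem Dm_line {τ : Fin (k + 1) → ℝ} (h : ∑ l, τ l ≠ 0) (a i b : Fin (k + 1)) :
    HasDerivAt (fun t : ℝ => Dm (τ + t • (Pi.single a 1 : Fin (k + 1) → ℝ)) i b)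
      (-(Dm τ i a + Dm τ i b) / ∑ l, τ l) 0 := by
  refine (((Sm_line h a i).const_sub (if (b : ℕ) < i then 1 else 0)).fun_div (sum_line τ a)
    (by simpa using h)).congr_deriv ?_
  simp only [zero_smul, add_zero]
  have : (if (b : ℕ) < i then 1 else 0) - Sm τ i = Dm τ i b * ∑ l, τ l := by
    simp only [Dm, of_apply]; field_simp
  rw [this]
  field_simp
  ring

/-- Pull back of a one-form to the space of durations. -/
noncomputable def hat (φ : (Fin (k + 1) → ℝ) → (Fin (k + 1) → ℝ) →L[ℝ] ℝ) (τ : Fin (k + 1) → ℝ) :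
    Fin (k + 1) → ℝ := fun b => φ (Sm τ) fun i => Dm τ i b

variable {φ : (Fin (k + 1) → ℝ) → (Fin (k + 1) → ℝ) →L[ℝ] ℝ} {τ : Fin (k + 1) → ℝ}

theorem hat_contDiffAt (h : ∑ l, τ l ≠ 0) (hφ : ContDiffAt ℝ 2 φ (Sm τ)) (b : Fin (k + 1)) :
    ContDiffAt ℝ 2 (fun t => hat φ t b) τ :=
  (hφ.comp τ (Sm_contDiffAt h)).clm_apply (col_contDiffAt h b)

theorem hat_eq : hat φ τ = cv (φ (Sm τ)) ᵥ* Dm τ := by
  funext b
  rw [hat, cv_apply]; rfl

theorem jac_hat (h : ∑ l, τ l ≠ 0) (hφ : ContDiffAt ℝ 2 φ (Sm τ)) :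
    Jac (hat φ) τ = (Matrix.of fun a b => φ (Sm τ) fun i => -(Dm τ i a + Dm τ i b) / ∑ l, τ l)
      + (Dm τ)ᵀ * toM (fderiv ℝ φ (Sm τ)) * Dm τ := by
  ext a b
  have h1 := line_deriv ((hat_contDiffAt h hφ b).differentiableAt (by norm_num)) (Pi.single a 1)
  have h2 : HasDerivAt (fun t : ℝ => Sm (τ + t • (Pi.single a 1 : Fin (k + 1) → ℝ)))
      (fun i => Dm τ i a) 0 := hasDerivAt_pi.2 fun i => Sm_line h a i
  have h3 : HasDerivAt (fun (t : ℝ) i => Dm (τ + t • (Pi.single a 1 : Fin (k + 1) → ℝ)) i b)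
      (fun i => -(Dm τ i a + Dm τ i b) / ∑ l, τ l) 0 := hasDerivAt_pi.2 fun i => Dm_line h a i b
  have h4 := ((hφ.differentiableAt (by norm_num)).hasFDerivAt.comp_hasDerivAt_of_eq (0 : ℝ) h2
    (by simp)).clm_apply h3
  have h5 := h1.unique h4
  simp only [Function.comp, zero_smul, add_zero] at h5
  rw [Jac, of_apply, h5, Matrix.add_apply, of_apply, add_comm, toM_apply, Matrix.mul_assoc,
    mul_apply]
  rfl

variable {ι₁ ι₂ : Type*} [Fintype ι₁] [Fintype ι₂] [DecidableEq ι₁]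

theorem pull (e : ι₁ ⊕ (ι₂ × Bool) ≃ Fin (k + 1)) (h : ∑ l, τ l ≠ 0) (c : ι₁ → Fin (k + 1) → ℝ)
    (i0 : ι₁) (hc0 : c i0 ⬝ᵥ 1 = 1) (hc : ∀ i ≠ i0, c i ⬝ᵥ 1 = 0)
    (J : ι₂ → Matrix (Fin (k + 1)) (Fin (k + 1)) ℝ) (h1 : ∀ r, J r *ᵥ 1 = 0)
    (h2 : ∀ r, 1 ᵥ* J r = 0) :
    W e (Function.update (fun i => c i ᵥ* Dm τ) i0 1) (fun r => (Dm τ)ᵀ * J r * Dm τ)
      = (∑ l, τ l)⁻¹ ^ k * det (Bm k) * W e c J := by
  rw [← det_Xi, ← W_pull]
  have hO : (Matrix.of fun _ _ => 1 : Matrix (Fin (k + 1)) (Fin (k + 1)) ℝ) = vecMulVec 1 1 := by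
    ext i j; simp [vecMulVec_apply]
  have e1 : (fun i => c i ᵥ* (Dm τ + Matrix.of fun _ _ => 1))
      = Function.update (fun i => c i ᵥ* Dm τ) i0 (c i0 ᵥ* Dm τ + 1) := by
    funext i
    rw [hO, vecMul_add, vecMul_vecMulVec]
    by_cases hi : i = i0
    · subst hi; simp [hc0]
    · simp [hi, hc i hi]
  have e2 : ∀ r, (Dm τ + Matrix.of fun _ _ => 1)ᵀ * J r * (Dm τ + Matrix.of fun _ _ => 1)
      = (Dm τ)ᵀ * J r * Dm τ := by
    intro r
    rw [hO, transpose_add, transpose_vecMulVec, add_mul, vecMulVec_mul, h2, mul_add]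
    simp only [vecMulVec_zero, add_zero]
    rw [Matrix.mul_assoc _ (J r) (vecMulVec _ _), mul_vecMulVec, h1]
    simp
  have hτ : τ ≠ 0 := fun h0 => h (by simp [h0])
  simp only [e2]
  rw [e1, W_update_single, Function.update_eq_self,
    W_kill e (fun i => c i ᵥ* Dm τ) _ hτ, zero_add]
  · intro i; rw [← dotProduct_mulVec, Dm_mulVec h, dotProduct_zero]
  · intro r; rw [← mulVec_mulVec, Dm_mulVec h, mulVec_zero]
  · intro r; rw [Matrix.mul_assoc, ← vecMul_vecMul, vecMul_transpose, Dm_mulVec h, zero_vecMul]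

end Vale.Agent.P184
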