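import Vale.Agent.P184.Len

namespace Vale.Agent.P184

open Finset Filter Topology

section Abstract
variable {R : Type*} [NormedRing R]

theorem trace_close (τ : R →+ ℂ) {c : ℝ} (hb : ∀ a, ‖τ a‖ ≤ c * ‖a‖)
    (hc : ∀ a b, τ (a * b) = τ (b * a)) {e f : R} (he : e * e = e) (hf : f * f = f)
    (h : ‖e - f‖ < 1) : τ e = τ f := by
  have he' : ∀ z, e * (e * z) = e * z := fun z => by rw [← mul_assoc, he]
  have hf' : ∀ z, f * (f * z) = f * z := fun z => by rw [← mul_assoc, hf]
  have c1 : Commute ((e - f) ^ 2) e := by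
    simp only [Commute, SemiconjBy, pow_two, mul_sub, sub_mul, mul_assoc, he, hf, he']; abel
  have c2 : Commute ((e - f) ^ 2) f := by
    simp only [Commute, SemiconjBy, pow_two, mul_sub, sub_mul, mul_assoc, he, hf, hf']; abel
  have e3 : (e - f) ^ 2 * (e - f) = (e - f) + (f * (e * f) - e * (f * e)) := by
    simp only [pow_two, mul_sub, sub_mul, mul_assoc, he, hf]; abel
  have key : ∀ n : ℕ, τ (((e - f) ^ 2) ^ n * (e - f)) = τ (e - f) := by
    intro n
    induction n with
    | zero => simp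
    | succ n ih =>
      set Z := ((e - f) ^ 2) ^ n with hZ
      have a1 : τ (Z * (f * (e * f))) = τ (Z * (e * f)) := by
        rw [← mul_assoc, (c2.pow_left n).eq, mul_assoc, hc, mul_assoc, mul_assoc, hf]
      have a2 : τ (Z * (e * (f * e))) = τ (Z * (e * f)) := by
        rw [← mul_assoc e, ← mul_assoc, hc, ← mul_assoc, ← (c1.pow_left n).eq, mul_assoc, he']
      rw [pow_succ, mul_assoc, e3, mul_add, map_add, ih, mul_sub, map_sub τ (Z * _), a1, a2,
        sub_self, add_zero]
  have hlim : Tendsto (fun n : ℕ => ((e - f) ^ 2) ^ n * (e - f)) atTop (𝓝 0) := by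
    have h2 : ‖(e - f) ^ 2‖ < 1 :=
      (norm_pow_le' _ two_pos).trans_lt (pow_lt_one₀ (norm_nonneg _) h two_ne_zero)
    simpa using (tendsto_pow_atTop_nhds_zero_of_norm_lt_one h2).mul_const (e - f)
  have h3 := ((AddMonoidHomClass.continuous_of_bound τ c hb).tendsto 0).comp hlim
  simp only [Function.comp_def, key, map_zero, tendsto_const_nhds_iff, map_sub] at h3
  exact sub_eq_zero.1 h3

theorem lift_idem [CompleteSpace R] (P : R → ℝ → Prop) (hcl : ∀ c, IsClosed {a | P a c})
    (hn : ∀ a c, P a c → ‖a‖ ≤ c) (hsub : ∀ a b c d, P a c → P b d → P (a - b) (c + d))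
    (hmul : ∀ a b c d, P a c → P b d → P (a * b) (c * d))
    (hmono : ∀ a c d, P a c → c ≤ d → P a d) (h0 : P 0 0) {x : R} {δ : ℝ} (hδ0 : 0 ≤ δ)
    (hδ : δ ≤ 1 / 8) (hr : P (x - x * x) (δ / 4)) :
    ∃ y, P y δ ∧ (x - (x * y - (y - x * y))) * (x - (x * y - (y - x * y)))
      = x - (x * y - (y - x * y)) := by
  set r := x - x * x with hr'
  let Φ : R → R := fun y => y * y - r - r * (y * y - y) - r * (y * y - y) - r * (y * y - y)
    - r * (y * y - y)
  let K : Set R := {y | x * y = y * x} ∩ {y | P y δ}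
  have hK : IsClosed K := (isClosed_eq (by fun_prop) (by fun_prop)).inter (hcl δ)
  have hm : Set.MapsTo Φ K K := by
    intro y hy
    have c1 : Commute x y := hy.1
    have c2 : Commute x r := (Commute.refl x).sub_right ((Commute.refl x).mul_right (.refl x))
    have c3 : Commute x (r * (y * y - y)) := c2.mul_right ((c1.mul_right c1).sub_right c1)
    have p1 := hmul _ _ _ _ hy.2 hy.2
    have p2 := hmul _ _ _ _ hr (hsub _ _ _ _ p1 hy.2)
    refine ⟨(((((c1.mul_right c1).sub_right c2).sub_right c3).sub_right c3).sub_right c3).sub_right c3,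
      hmono _ _ _ (hsub _ _ _ _ (hsub _ _ _ _ (hsub _ _ _ _ (hsub _ _ _ _ (hsub _ _ _ _ p1 hr) p2) p2)
        p2) p2) ?_⟩
    nlinarith [mul_nonneg hδ0 hδ0, mul_le_mul_of_nonneg_left hδ (mul_nonneg hδ0 hδ0)]
  have hc : ContractingWith (1 / 2) (hm.restrict Φ K K) := by
    refine ⟨by norm_num, LipschitzWith.of_dist_le_mul fun y z => ?_⟩
    have hy := hn _ _ y.2.2
    have hz := hn _ _ z.2.2
    have hr2 := hn _ _ hr
    rw [Subtype.dist_eq, Subtype.dist_eq, dist_eq_norm, dist_eq_norm]
    change ‖Φ y - Φ z‖ ≤ _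
    set t := ‖(y : R) - z‖
    have ht : 0 ≤ t := norm_nonneg _
    set u : R := y * (y - z) + (y - z) * z with hu
    have h1 : ‖u‖ ≤ t / 4 := by
      refine (norm_add_le _ _).trans ?_
      have := norm_mul_le (y : R) (y - z)
      have := norm_mul_le ((y : R) - z) z
      nlinarith
    have h2 : ‖r * (u - (y - z))‖ ≤ t / 16 := by
      refine (norm_mul_le _ _).trans ?_
      have := norm_sub_le u (y - z)
      nlinarith [norm_nonneg r, norm_nonneg (u - (y - z))]
    have e : Φ y - Φ z = u - r * (u - (y - z)) - r * (u - (y - z)) - r * (u - (y - z))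
        - r * (u - (y - z)) := by
      simp only [Φ, hu, mul_sub, sub_mul, mul_add]; abel
    rw [e]
    have := norm_sub_le (u - r * (u - (y - z)) - r * (u - (y - z)) - r * (u - (y - z)))
      (r * (u - (y - z)))
    have := norm_sub_le (u - r * (u - (y - z)) - r * (u - (y - z))) (r * (u - (y - z)))
    have := norm_sub_le (u - r * (u - (y - z))) (r * (u - (y - z)))
    have := norm_sub_le u (r * (u - (y - z)))
    push_cast
    linarith
  obtain ⟨y, hy, hfix, -⟩ := hc.exists_fixedPoint' hK.isComplete hm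
    (x := 0) ⟨by simp, hmono _ _ _ h0 hδ0⟩ (edist_ne_top _ _)
  refine ⟨y, hy.2, ?_⟩
  have h1 : y * x = x * y := hy.1.symm
  have h2 : ∀ z, y * (x * z) = x * (y * z) := fun z => by rw [← mul_assoc, h1, mul_assoc]
  have h3 : Φ y - y = 0 := sub_eq_zero.2 hfix
  rw [← sub_eq_zero, ← h3]
  simp only [Φ, hr', mul_sub, sub_mul, mul_assoc, h1, h2]
  abel

end Abstract

variable {G : Type*} [Group G]

/-- Change of variables for convolution. -/
def shear (G : Type*) [Group G] : G × G ≃ G × G where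
  toFun p := (p.2, p.2⁻¹ * p.1)
  invFun p := (p.1 * p.2, p.1)
  left_inv p := by simp
  right_inv p := by simp

theorem hasSum_shear {E : Type*} [NormedAddCommGroup E] [CompleteSpace E] {F : G × G → E}
    (h : Summable F) : (∀ g, Summable fun x => F (x, x⁻¹ * g)) ∧
      HasSum (fun g => ∑' x, F (x, x⁻¹ * g)) (∑' p, F p) := by
  have h1 := (shear G).hasSum_iff.2 h.hasSum
  exact ⟨fun g => h1.summable.prod_factor g,
    h1.prod_fiberwise fun g => (h1.summable.prod_factor g).hasSum⟩

theorem hasSum_conv {α β : G → ℝ} (hα : Summable α) (hβ : Summable β) (h0 : ∀ g, 0 ≤ α g)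
    (h1 : ∀ g, 0 ≤ β g) : (∀ g, Summable fun x => α x * β (x⁻¹ * g)) ∧
      HasSum (fun g => ∑' x, α x * β (x⁻¹ * g)) ((∑' g, α g) * ∑' g, β g) := by
  have h := Summable.mul_of_nonneg hα hβ h0 h1
  rw [hα.tsum_mul_tsum hβ h]
  exact hasSum_shear h

variable {A : Type*} [NormedRing A]

/-- Weighted bound. -/
def Wle (w : G → ℝ) (a : G → A) (c : ℝ) : Prop := ∀ s : Finset G, ∑ g ∈ s, ‖a g‖ * w g ≤ c

omit [Group G] in
theorem Wle.summable {w : G → ℝ} (hw : ∀ g, 0 < w g) {a : G → A} {c : ℝ} (h : Wle w a c) :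
    Summable fun g => ‖a g‖ * w g :=
  summable_of_sum_le (fun g => mul_nonneg (norm_nonneg _) (hw g).le) h

theorem Wle.conv {w : G → ℝ} (hw : ∀ g, 0 < w g) (hm : ∀ g h, w (g * h) ≤ w g * w h)
    {a b : G → A} {c d : ℝ} (ha : Wle w a c) (hb : Wle w b d) :
    Wle w (fun g => ∑' h, a h * b (h⁻¹ * g)) (c * d) := by
  have p1 : ∀ g, 0 ≤ ‖a g‖ * w g := fun g => mul_nonneg (norm_nonneg _) (hw g).le
  have p2 : ∀ g, 0 ≤ ‖b g‖ * w g := fun g => mul_nonneg (norm_nonneg _) (hw g).le
  obtain ⟨h1, h2⟩ := hasSum_conv (ha.summable hw) (hb.summable hw) p1 p2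
  intro s
  refine le_trans (Finset.sum_le_sum fun g _ => ?_) ((sum_le_hasSum s
    (fun g _ => tsum_nonneg fun x => mul_nonneg (p1 _) (p2 _)) h2).trans ?_)
  · rw [← le_div_iff₀ (hw g)]
    refine tsum_of_norm_bounded ((h1 g).hasSum.div_const _) fun x => ?_
    rw [le_div_iff₀ (hw g)]
    have := hm x (x⁻¹ * g)
    rw [mul_inv_cancel_left] at this
    calc _ ≤ ‖a x‖ * ‖b (x⁻¹ * g)‖ * (w x * w (x⁻¹ * g)) :=
          mul_le_mul (norm_mul_le _ _) this (hw g).le (by positivity)
      _ = _ := by ring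
  · exact mul_le_mul (Real.tsum_le_of_sum_le p1 ha) (Real.tsum_le_of_sum_le p2 hb)
      (tsum_nonneg p2) (by simpa using ha ∅)

/-- The Banach algebra of summable functions. -/
def L1 (G A : Type*) [NormedRing A] : Type _ := lp (fun _ : G => A) 1

namespace L1

noncomputable instance {G : Type*} : NormedAddCommGroup (L1 G A) :=
  inferInstanceAs (NormedAddCommGroup (lp (fun _ : G => A) 1))

instance {G : Type*} [CompleteSpace A] : CompleteSpace (L1 G A) :=
  inferInstanceAs (CompleteSpace (lp (fun _ : G => A) 1))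

/-- Coefficients. -/
def co {G : Type*} (a : L1 G A) : G → A := a.1

/-- Element with given coefficients. -/
def mk {G : Type*} (f : G → A) (h : Summable fun g => ‖f g‖) : L1 G A :=
  ⟨f, memℓp_gen (by simpa using h)⟩

omit [Group G] in
theorem hasSum_norm (a : L1 G A) : HasSum (fun g => ‖a.co g‖) ‖a‖ := by
  have := lp.hasSum_norm (p := 1) (by simp) a
  simp only [ENNReal.toReal_one, Real.rpow_one] at this
  exact this

omit [Group G] in
theorem wle (a : L1 G A) : Wle (fun _ => 1) a.co ‖a‖ := fun s => by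
  simpa using sum_le_hasSum s (fun _ _ => norm_nonneg _) a.hasSum_norm

omit [Group G] in
theorem norm_le {w : G → ℝ} (hw : ∀ g, 1 ≤ w g) {a : L1 G A} {c : ℝ} (h : Wle w a.co c) :
    ‖a‖ ≤ c := hasSum_le_of_sum_le a.hasSum_norm fun s =>
  (Finset.sum_le_sum fun g _ => le_mul_of_one_le_right (norm_nonneg _) (hw g)).trans (h s)

omit [Group G] in
theorem norm_co (a : L1 G A) (g : G) : ‖a.co g‖ ≤ ‖a‖ :=
  le_hasSum a.hasSum_norm g fun _ _ => norm_nonneg _

omit [Group G] in
theorem ext' {a b : L1 G A} (h : ∀ g, a.co g = b.co g) : a = b := lp.ext (funext h)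

theorem wle_conv (a b : L1 G A) :
    Wle (fun _ => 1) (fun g => ∑' h, a.co h * b.co (h⁻¹ * g)) (‖a‖ * ‖b‖) :=
  Wle.conv (fun _ => one_pos) (fun _ _ => by simp) a.wle b.wle

noncomputable instance : Mul (L1 G A) :=
  ⟨fun a b => mk (fun g => ∑' h, a.co h * b.co (h⁻¹ * g))
    (by simpa using (wle_conv a b).summable fun _ => one_pos)⟩

open Classical in
noncomputable instance : One (L1 G A) :=
  ⟨mk (Pi.single 1 1) (summable_of_ne_finset_zero (s := {1}) fun g hg => by
    rw [Pi.single_eq_of_ne (by simpa using hg), norm_zero])⟩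

theorem co_mul (a b : L1 G A) (g : G) : (a * b).co g = ∑' h, a.co h * b.co (h⁻¹ * g) := rfl

open Classical in
theorem co_one : (1 : L1 G A).co = Pi.single 1 1 := rfl

omit [Group G] in
theorem summable_prod (a b : L1 G A) : Summable fun p : G × G => ‖a.co p.1‖ * ‖b.co p.2‖ :=
  Summable.mul_of_nonneg a.hasSum_norm.summable b.hasSum_norm.summable (fun _ => norm_nonneg _)
    fun _ => norm_nonneg _

variable [CompleteSpace A]

theorem summable_conv (a b : L1 G A) (g : G) : Summable fun h => a.co h * b.co (h⁻¹ * g) :=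
  Summable.of_norm_bounded ((hasSum_shear (summable_prod a b)).1 g) fun _ => norm_mul_le _ _

noncomputable instance : NormedRing (L1 G A) where
  __ := (inferInstance : NormedAddCommGroup (L1 G A))
  left_distrib a b c := ext' fun g => by
    change _ = (a * b).co g + (a * c).co g
    rw [co_mul, co_mul, co_mul, ← (summable_conv a b g).tsum_add (summable_conv a c g)]
    exact tsum_congr fun h => mul_add _ _ _
  right_distrib a b c := ext' fun g => by
    change _ = (a * c).co g + (b * c).co g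
    rw [co_mul, co_mul, co_mul, ← (summable_conv a c g).tsum_add (summable_conv b c g)]
    exact tsum_congr fun h => add_mul _ _ _
  zero_mul a := ext' fun g => (tsum_congr fun h => zero_mul _).trans tsum_zero
  mul_zero a := ext' fun g => (tsum_congr fun h => mul_zero _).trans tsum_zero
  mul_assoc a b c := ext' fun g => by
    have h : Summable fun p : G × G => a.co p.1 * b.co p.2 * c.co ((p.1 * p.2)⁻¹ * g) :=
      Summable.of_norm_bounded ((summable_prod a b).mul_right ‖c‖) fun p =>
        (norm_mul_le _ _).trans (mul_le_mul (norm_mul_le _ _) (c.norm_co _) (norm_nonneg _)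
          (by positivity))
    have h1 := (hasSum_shear h).2.tsum_eq
    rw [h.tsum_prod] at h1
    simp only [co_mul]
    refine Eq.trans (tsum_congr fun x => ?_) (h1.trans (tsum_congr fun x => ?_))
    · simp only [mul_inv_cancel_left]
      exact ((summable_conv a b x).tsum_mul_right _).symm
    · simp only [mul_inv_rev, mul_assoc]
      exact (summable_conv b c _).tsum_mul_left _
  one_mul a := ext' fun g => by
    classical
    rw [co_mul, co_one, tsum_eq_single 1 fun h hh => by rw [Pi.single_eq_of_ne hh, zero_mul]]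
    simp
  mul_one a := ext' fun g => by
    classical
    rw [co_mul, co_one, tsum_eq_single g fun h hh => by
      rw [Pi.single_eq_of_ne (by rwa [Ne, inv_mul_eq_one]), mul_zero]]
    simp
  norm_mul_le a b := norm_le (fun _ => le_rfl) (wle_conv a b)

theorem isClosed_wle (w : G → ℝ) (c : ℝ) : IsClosed {a : L1 G A | Wle w a.co c} := by
  simp only [Wle, Set.ofPred_forall]
  refine isClosed_iInter fun s => isClosed_le (continuous_finsetSum _ fun g _ => ?_)
    continuous_const
  exact (lp.lipschitzWith_one_eval 1 g).continuous.norm.mul continuous_const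

omit [Group G] [CompleteSpace A] in
theorem summable_tau (tr : A →+ ℂ) {c : ℝ} (hb : ∀ a, ‖tr a‖ ≤ c * ‖a‖) {φ : G → ℝ}
    (h1 : ∀ g, |φ g| ≤ 1) (a : L1 G A) (g : G) : ‖tr (a.co g) * (φ g : ℂ)‖ ≤ c * ‖a.co g‖ := by
  rw [norm_mul, Complex.norm_real, Real.norm_eq_abs]
  exact (mul_le_of_le_one_right (norm_nonneg _) (h1 g)).trans (hb _)

theorem tau_close (tr : A →+ ℂ) {c : ℝ} (hb : ∀ a, ‖tr a‖ ≤ c * ‖a‖)
    (hc : ∀ a b, tr (a * b) = tr (b * a)) {φ : G → ℝ} (hφ : ∀ h g, φ (h * g * h⁻¹) = φ g)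
    (h1 : ∀ g, |φ g| ≤ 1) {e f : L1 G A} (he : e * e = e) (hf : f * f = f) (h : ‖e - f‖ < 1) :
    ∑' g, tr (e.co g) * (φ g : ℂ) = ∑' g, tr (f.co g) * (φ g : ℂ) := by
  have hs : ∀ a : L1 G A, Summable fun g => tr (a.co g) * (φ g : ℂ) := fun a =>
    Summable.of_norm_bounded (a.hasSum_norm.summable.mul_left c) (summable_tau tr hb h1 a)
  let τ : L1 G A →+ ℂ := AddMonoidHom.mk' (fun a => ∑' g, tr (a.co g) * (φ g : ℂ)) fun a b => by
    rw [← (hs a).tsum_add (hs b)]
    refine tsum_congr fun g => ?_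
    rw [← add_mul, ← map_add]; rfl
  have hm : ∀ a b : L1 G A,
      τ (a * b) = ∑' p : G × G, tr (a.co p.1 * b.co p.2) * (φ (p.1 * p.2) : ℂ) := by
    intro a b
    have h : Summable fun p : G × G => tr (a.co p.1 * b.co p.2) * (φ (p.1 * p.2) : ℂ) := by
      refine Summable.of_norm_bounded ((summable_prod a b).mul_left |c|) fun p => ?_
      rw [norm_mul, Complex.norm_real, Real.norm_eq_abs]
      exact (mul_le_of_le_one_right (norm_nonneg _) (h1 _)).trans ((hb _).trans
        (mul_le_mul (le_abs_self c) (norm_mul_le _ _) (norm_nonneg _) (abs_nonneg _)))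
    rw [← (hasSum_shear h).2.tsum_eq]
    refine tsum_congr fun g => ?_
    simp only [mul_inv_cancel_left]
    rw [tsum_mul_right, co_mul, (((summable_conv a b g).hasSum.map tr
      (AddMonoidHomClass.continuous_of_bound tr c hb)).tsum_eq).symm]
    rfl
  refine trace_close τ (c := c) (fun a => tsum_of_norm_bounded (a.hasSum_norm.mul_left c)
    (summable_tau tr hb h1 a)) (fun a b => ?_) he hf h
  rw [hm, hm, ← (Equiv.prodComm G G).tsum_eq]
  refine tsum_congr fun p => ?_
  rw [hc, ← hφ p.1]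
  simp [mul_assoc]

end L1

end Vale.Agent.P184
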