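import Vale.Agent.P184.Core
import Vale.Agent.P184.Ring

namespace Vale.Agent.P184

open Finset Filter Topology

universe u

theorem exists_len (G : Type*) [Group G] [Countable G] : Nonempty (Len G) := by
  obtain ⟨u, hu⟩ := Countable.exists_injective_nat G
  let c : G → ℕ := fun s => u s + u s⁻¹ + 1
  let T : G → Set ℕ := fun g => {m | ∃ L : List G, L.prod = g ∧ (L.map c).sum = m}
  have hne : ∀ g, (T g).Nonempty := fun g => ⟨_, [g], by simp, rfl⟩
  choose L hL1 hL2 using fun g => Nat.sInf_mem (hne g)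
  have hinv : ∀ g, sInf (T g⁻¹) ≤ sInf (T g) := fun g =>
    Nat.sInf_le ⟨((L g).map fun x => x⁻¹).reverse, by rw [← List.prod_inv_reverse, hL1], by
      rw [← hL2, List.map_reverse, List.sum_reverse, List.map_map]
      congr 2
      funext s
      simp only [c, Function.comp, inv_inv]; ring⟩
  refine ⟨⟨fun g => (sInf (T g) : ℕ), ?_, fun g => Nat.cast_nonneg _, fun g => ?_, fun g h => ?_, ?_⟩⟩
  · exact Nat.cast_eq_zero.2 (Nat.le_zero.1 (Nat.sInf_le ⟨[], rfl, rfl⟩))
  · exact congrArg _ (le_antisymm (hinv g) (by simpa using hinv g⁻¹))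
  · have : sInf (T (g * h)) ≤ sInf (T g) + sInf (T h) :=
      Nat.sInf_le ⟨L g ++ L h, by rw [List.prod_append, hL1, hL1], by
        rw [List.map_append, List.sum_append, hL2, hL2]⟩
    exact_mod_cast this
  · let r : G → ℝ := fun s => Real.exp (-1) ^ c s
    have h0 := Real.exp_pos (-1)
    have h1 := Real.exp_neg_one_lt_half
    have r0 : ∀ s, 0 ≤ r s := fun s => by positivity
    have hg := (hasSum_geometric_of_lt_one h0.le (by linarith)).mul_right (Real.exp (-1))
    have hle : ∀ s, r s ≤ Real.exp (-1) ^ u s * Real.exp (-1) := fun s => by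
      rw [← pow_succ]
      exact pow_le_pow_of_le_one h0.le (by linarith) (by simp only [c]; omega)
    have hs : Summable r := Summable.of_nonneg_of_le r0 hle (hg.summable.comp_injective hu)
    have hlt : ∑' s, r s < 1 := by
      refine (hs.tsum_le_tsum_of_inj u hu (fun _ _ => by positivity) hle hg.summable).trans_lt ?_
      rw [hg.tsum_eq, inv_mul_lt_iff₀ (by linarith)]
      linarith
    have h2 : Summable fun M : List G => (M.map r).prod := by
      rw [← List.equivSigmaTuple.symm.summable_iff]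
      have e : ((fun M : List G => (M.map r).prod) ∘ List.equivSigmaTuple.symm)
          = fun p => ∏ i, r (p.2 i) := by
        funext p
        simp [List.equivSigmaTuple, List.map_ofFn, List.prod_ofFn]
      rw [e, summable_sigma_of_nonneg fun p => Finset.prod_nonneg fun i _ => r0 _]
      refine ⟨fun k => (hasSum_prod_pow r0 hs k).summable, ?_⟩
      simp only [fun k => (hasSum_prod_pow r0 hs k).tsum_eq]
      exact summable_geometric_of_lt_one (tsum_nonneg r0) hlt
    refine (h2.comp_injective (i := L) fun g h e => by rw [← hL1 g, e, hL1]).congr fun g => ?_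
    rw [← hL2, ← mul_neg_one, Real.exp_nat_mul, Function.comp]
    induction L g with
    | nil => simp
    | cons a M ih => simp only [List.map_cons, List.prod_cons, List.sum_cons, pow_add, ih, r]

variable {G : Type u} [Group G] {A : Type*} [NormedRing A]

theorem Len.disp (l : Len G) (ρ : ℝ) {g : G}
    (h : ∀ b, IsOfFinOrder (b⁻¹ * g * b) → ρ ≤ l.n (b⁻¹ * g * b)) :
    l.Disp ρ ⌈l.C * Real.exp ρ⌉₊ g := by
  classical
  intro b
  have hC := l.one_le_C
  have e : ∀ k : ℕ, l.d b (g ^ k * b) = l.n ((b⁻¹ * g * b) ^ k) := fun k => by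
    have := conj_pow (a := b⁻¹) (b := g) (i := k)
    rw [inv_inv] at this
    rw [this, Len.d, mul_assoc]
  simp only [e]
  by_cases hf : IsOfFinOrder (b⁻¹ * g * b)
  · exact ⟨1, le_rfl, Nat.ceil_pos.2 (by positivity), by simpa using h b hf⟩
  by_contra hn
  push Not at hn
  set p := ⌈l.C * Real.exp ρ⌉₊
  have hp : 1 ≤ p := Nat.ceil_pos.2 (by positivity)
  have hinj := injective_pow_iff_not_isOfFinOrder.2 hf
  have h1 := l.summ.sum_le_tsum ((range (p + 1)).image fun k => (b⁻¹ * g * b) ^ k)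
    fun _ _ => (Real.exp_pos _).le
  rw [Finset.sum_image fun _ _ _ _ h => hinj h] at h1
  have h2 : ∑ _k ∈ range (p + 1), Real.exp (-ρ)
      ≤ ∑ k ∈ range (p + 1), Real.exp (-l.n ((b⁻¹ * g * b) ^ k)) := by
    refine Finset.sum_le_sum fun k hk => Real.exp_le_exp.2 (neg_le_neg ?_)
    rcases Nat.eq_zero_or_pos k with rfl | h0
    · rw [pow_zero, l.n_one]; exact (l.nonneg _).trans (hn 1 le_rfl hp).le
    · exact (hn k h0 (by simpa [Nat.lt_succ_iff] using hk)).le
  have h3 := h2.trans h1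
  rw [Finset.sum_const, card_range, nsmul_eq_mul, Real.exp_neg, ← div_eq_mul_inv,
    div_le_iff₀ (Real.exp_pos _)] at h3
  have h4 : l.C * Real.exp ρ ≤ p := Nat.le_ceil _
  push_cast at h3
  unfold Len.C at h4
  linarith

omit [Group G] in
theorem Wle.sub {w : G → ℝ} (hw : ∀ g, 0 < w g) {a b : G → A} {c d : ℝ} (ha : Wle w a c)
    (hb : Wle w b d) : Wle w (a - b) (c + d) := fun s => by
  refine le_trans ?_ (add_le_add (ha s) (hb s))
  rw [← Finset.sum_add_distrib]
  refine Finset.sum_le_sum fun g _ => ?_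
  rw [← add_mul]
  exact mul_le_mul_of_nonneg_right (norm_sub_le _ _) (hw g).le

theorem smooth_idem [CompleteSpace A] (l : Len G) {e : L1 G A} (he : e * e = e) :
    ∃ (f : L1 G A) (κ : ℝ), 0 < κ ∧ f * f = f ∧ ‖e - f‖ < 1 ∧
      Summable fun g => ‖f.co g‖ * ((1 + l.n g) * Real.exp (κ * l.n g)) := by
  classical
  have hw0 : ∀ (κ : ℝ) g, 0 < Real.exp (κ * l.n g) := fun _ _ => Real.exp_pos _
  have hwm : ∀ κ : ℝ, 0 ≤ κ → ∀ g h,
      Real.exp (κ * l.n (g * h)) ≤ Real.exp (κ * l.n g) * Real.exp (κ * l.n h) := fun κ hκ g h => by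
    rw [← Real.exp_add, ← mul_add]
    exact Real.exp_le_exp.2 (mul_le_mul_of_nonneg_left (l.mul g h) hκ)
  set δ := (8 * (‖e‖ + 2))⁻¹ with hδ
  have hn := norm_nonneg e
  have hδ0 : 0 < δ := by positivity
  have hδ1 : δ * (8 * (‖e‖ + 2)) = 1 := inv_mul_cancel₀ (by positivity)
  have hlim : Tendsto (fun s : Finset G => (∑ i ∈ s, lp.single 1 i (e.co i) : L1 G A)) atTop (𝓝 e) :=
    lp.hasSum_single (p := 1) (by simp) e
  have ev1 := hlim.eventually (Metric.ball_mem_nhds e (show (0 : ℝ) < 1 / 4 by norm_num))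
  have ev2 := (hlim.sub (hlim.mul hlim)).norm.eventually (gt_mem_nhds
    (show ‖e - e * e‖ < δ / 8 by rw [he, sub_self, norm_zero]; positivity))
  obtain ⟨s, h1, h2⟩ := (ev1.and ev2).exists
  set x : L1 G A := ∑ i ∈ s, lp.single 1 i (e.co i) with hx
  rw [dist_comm, dist_eq_norm] at h1
  have hx0 : ∀ g ∉ s, x.co g = 0 := fun g hg => by
    have : x.co g = (∑ i ∈ s, lp.single (E := fun _ : G => A) 1 i (e.co i) : lp _ 1) g := rfl
    rw [this, lp.coeFn_sum, Finset.sum_apply]
    exact Finset.sum_eq_zero fun i hi => lp.single_apply_ne _ _ _ fun h => hg (h ▸ hi)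
  have hxw : ∀ κ : ℝ, Wle (fun g => Real.exp (κ * l.n g)) x.co
      (∑ g ∈ s, ‖x.co g‖ * Real.exp (κ * l.n g)) := fun κ t =>
    sum_le_hasSum t (fun g _ => by positivity) (hasSum_sum_of_ne_finset_zero
      (L := .unconditional G) fun g h => by rw [hx0 g h, norm_zero, zero_mul])
  obtain ⟨c, hc⟩ : ∃ c, Wle (fun g => Real.exp (1 * l.n g)) (x - x * x).co c :=
    ⟨_, (hxw 1).sub (hw0 1) (Wle.conv (hw0 1) (hwm 1 zero_le_one) (hxw 1) (hxw 1))⟩
  have hc0 : 0 ≤ c := by simpa using hc ∅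
  set κ := min 1 (δ / 8 / (c + 1)) with hκ
  have hκ0 : 0 < κ := lt_min one_pos (by positivity)
  have hκ1 : κ * (c + 1) ≤ δ / 8 := (le_div_iff₀ (by positivity)).1 (min_le_right _ _)
  have hr : Wle (fun g => Real.exp (κ * l.n g)) (x - x * x).co (δ / 4) := fun t => by
    have a1 := (x - x * x).wle t
    have a2 := mul_le_mul_of_nonneg_left (hc t) hκ0.le
    refine le_trans ?_ ((add_le_add a1 a2).trans (by linarith))
    rw [Finset.mul_sum, ← Finset.sum_add_distrib]
    refine Finset.sum_le_sum fun g _ => ?_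
    have := convexOn_exp.2 (Set.mem_univ (l.n g)) (Set.mem_univ 0) hκ0.le
      (sub_nonneg.2 (min_le_left _ _ : κ ≤ 1)) (by ring)
    simp only [smul_eq_mul, mul_zero, add_zero, Real.exp_zero, mul_one, one_mul] at this ⊢
    nlinarith [norm_nonneg ((x - x * x).co g), mul_nonneg (norm_nonneg ((x - x * x).co g)) hκ0.le,
      mul_le_mul_of_nonneg_left this (norm_nonneg ((x - x * x).co g))]
  have hw1 : ∀ g, 1 ≤ Real.exp (κ * l.n g) := fun g =>
    Real.one_le_exp (mul_nonneg hκ0.le (l.nonneg g))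
  have hs : ∀ (a b : L1 G A) c d, Wle (fun g => Real.exp (κ * l.n g)) a.co c →
      Wle (fun g => Real.exp (κ * l.n g)) b.co d →
      Wle (fun g => Real.exp (κ * l.n g)) (a - b).co (c + d) := fun a b c d ha hb =>
    ha.sub (hw0 κ) hb
  have hm : ∀ (a b : L1 G A) c d, Wle (fun g => Real.exp (κ * l.n g)) a.co c →
      Wle (fun g => Real.exp (κ * l.n g)) b.co d →
      Wle (fun g => Real.exp (κ * l.n g)) (a * b).co (c * d) := fun a b c d ha hb =>
    Wle.conv (hw0 κ) (hwm κ hκ0.le) ha hb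
  obtain ⟨y, hy, hf⟩ := lift_idem (fun (a : L1 G A) c => Wle (fun g => Real.exp (κ * l.n g)) a.co c)
    (L1.isClosed_wle _) (fun a c h => L1.norm_le hw1 h) hs hm (fun a c d h hcd t => (h t).trans hcd)
    (fun t => (Finset.sum_eq_zero fun g _ => by
      rw [show (0 : L1 G A).co g = 0 from rfl, norm_zero, zero_mul]).le) hδ0.le (by nlinarith) hr
  refine ⟨_, κ / 2, by positivity, hf, ?_, ?_⟩
  · have a1 := L1.norm_le hw1 hy
    have a2 : ‖x‖ ≤ ‖e‖ + 1 / 4 := by linarith [norm_sub_norm_le x e, norm_sub_rev x e]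
    have a3 : ‖x * y‖ ≤ (‖e‖ + 1 / 4) * δ :=
      (norm_mul_le _ _).trans (mul_le_mul a2 a1 (norm_nonneg _) (by positivity))
    have a4 := norm_sub_le y (x * y)
    have a5 := norm_sub_le (x * y) (y - x * y)
    rw [← sub_add]
    refine (norm_add_le _ _).trans_lt ?_
    nlinarith
  · have p := hm _ _ _ _ (hxw κ) hy
    have := (hs _ _ _ _ (hxw κ) (hs _ _ _ _ p (hs _ _ _ _ hy p))).summable (hw0 κ)
    refine Summable.of_nonneg_of_le (fun g => by have := l.nonneg g; positivity) (fun g => ?_)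
      (this.mul_left (1 + 2 / κ))
    rw [mul_left_comm (1 + 2 / κ)]
    refine mul_le_mul_of_nonneg_left ?_ (norm_nonneg _)
    have b1 : κ * l.n g = κ / 2 * l.n g + κ / 2 * l.n g := by ring
    rw [b1, Real.exp_add, ← mul_assoc]
    refine mul_le_mul_of_nonneg_right ?_ (Real.exp_pos _).le
    have b2 := Real.add_one_le_exp (κ / 2 * l.n g)
    have b3 := mul_le_mul_of_nonneg_left b2 (show 0 ≤ 2 / κ by positivity)
    have b4 : 2 / κ * (κ / 2 * l.n g + 1) = l.n g + 2 / κ := by field_simp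
    have b5 : 0 ≤ κ / 2 * l.n g := mul_nonneg (by positivity) (l.nonneg g)
    have b6 : 0 ≤ 2 / κ := by positivity
    linarith

variable [CompleteSpace A] (tr : A →+ ℂ) {c : ℝ} (hb : ∀ a, ‖tr a‖ ≤ c * ‖a‖)
  (hc : ∀ a b, tr (a * b) = tr (b * a))
include hb hc

theorem bass_len (l : Len G) (hA : AnCore l) {e : G → A} (hs : Summable fun g => ‖e g‖)
    (he : ∀ g, ∑' h, e h * e (h⁻¹ * g) = e g) :
    ∃ S : Set G, S.Finite ∧ (∀ g ∈ S, IsOfFinOrder g) ∧ ∀ φ : G → ℝ,
      (∀ h g, φ (h * g * h⁻¹) = φ g) → (∀ g, |φ g| ≤ 1) → (∀ g ∈ S, φ g = 0) →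
      ∑' g, tr (e g) * (φ g : ℂ) = 0 := by
  have h0 : L1.mk e hs * L1.mk e hs = L1.mk e hs := L1.ext' he
  obtain ⟨f, κ, hκ, hf, h1, h2⟩ := smooth_idem l h0
  have H : Idem l tr f.co c := ⟨hc, hb, Summable.of_nonneg_of_le
    (fun g => by have := l.nonneg g; positivity) (fun g => mul_le_mul_of_nonneg_left
      (le_mul_of_one_le_right (by have := l.nonneg g; positivity)
        (Real.one_le_exp (mul_nonneg hκ.le (l.nonneg g)))) (norm_nonneg _)) h2, fun g => by
    have := (L1.summable_conv f f g).hasSum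
    rwa [← L1.co_mul, hf] at this⟩
  obtain ⟨ρ, hρ⟩ := core hA H hκ h2
  refine ⟨{g | l.n g < ρ ∧ IsOfFinOrder g}, ?_, fun g hg => hg.2, fun φ hφ a1 a2 => ?_⟩
  · refine (l.summ.tendsto_cofinite_zero.eventually
      (gt_mem_nhds (Real.exp_pos (-ρ)))).subset fun g hg => ?_
    exact not_lt.2 (Real.exp_le_exp.2 (neg_le_neg hg.1.le))
  · refine (L1.tau_close tr hb hc hφ a1 h0 hf h1).trans (hρ φ hφ a1 fun g hg =>
      l.disp ρ fun b hb => not_lt.1 fun h => hg ?_)
    rw [← hφ b⁻¹, inv_inv]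
    exact a2 _ ⟨h, hb⟩

theorem bass_all (hA : ∀ (H : Type u) [Group H] (l : Len H), AnCore l) {e : G → A}
    (hs : Summable fun g => ‖e g‖) (he : ∀ g, ∑' h, e h * e (h⁻¹ * g) = e g) :
    ∃ S : Set G, S.Finite ∧ (∀ g ∈ S, IsOfFinOrder g) ∧ ∀ φ : G → ℝ,
      (∀ h g, φ (h * g * h⁻¹) = φ g) → (∀ g, |φ g| ≤ 1) → (∀ g ∈ S, φ g = 0) →
      ∑' g, tr (e g) * (φ g : ℂ) = 0 := by
  have := hs.countable_support.to_subtype
  let H := (FreeGroup.lift (Subtype.val : Function.support (fun g => ‖e g‖) → G)).range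
  have : Countable H := (MonoidHom.rangeRestrict_surjective _).countable
  have hH : ∀ g, e g ≠ 0 → g ∈ H := fun g hg => ⟨FreeGroup.of ⟨g, norm_ne_zero_iff.2 hg⟩, by simp⟩
  obtain ⟨l⟩ := exists_len H
  obtain ⟨S, h1, h2, h3⟩ := bass_len tr hb hc l (hA H l) (e := fun h => e h) (hs.subtype _)
    fun g => (tsum_subtype_eq_of_support_subset (f := fun h => e h * e (h⁻¹ * g)) (s := H)
      fun h hh => hH h (left_ne_zero_of_mul hh)).trans (he g)
  refine ⟨Subtype.val '' S, h1.image _, ?_, fun φ a1 a2 a3 => ?_⟩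
  · rintro _ ⟨g, hg, rfl⟩
    exact H.subtype.isOfFinOrder (h2 g hg)
  · rw [← tsum_subtype_eq_of_support_subset (s := H) fun g hg => hH g fun h => hg (by simp [h])]
    exact h3 (fun g => φ g) (fun h g => a1 h g) (fun g => a2 g) fun g hg => a3 _ ⟨g, hg, rfl⟩

omit hb hc [CompleteSpace A] in
open scoped Matrix.Norms.Operator in
theorem bass (hA : ∀ (H : Type u) [Group H] (l : Len H), AnCore l) {q : ℕ}
    (e : Matrix (Fin q) (Fin q) (G → ℂ)) (hs : ∀ i j, Summable fun g => ‖e i j g‖)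
    (he : ∀ i j g, ∑ k, ∑' h, e i k h * e k j (h⁻¹ * g) = e i j g) :
    ∃ F : Finset (ConjClasses G), (∀ C ∈ F, ∀ g ∈ C.carrier, IsOfFinOrder g) ∧
      ∀ C ∉ F, HasSum (fun g : C.carrier => ∑ i, e i i g) 0 := by
  classical
  have := FiniteDimensional.complete ℂ (Matrix (Fin q) (Fin q) ℂ)
  let T := LinearMap.toContinuousLinearMap (Matrix.traceLinearMap (Fin q) ℂ ℂ)
  obtain ⟨S, h1, h2, h3⟩ := bass_all (G := G) (Matrix.traceAddMonoidHom (Fin q) ℂ) T.le_opNorm
    Matrix.trace_mul_comm hA (e := fun g => Matrix.of fun i j => e i j g)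
    (Summable.of_nonneg_of_le (fun _ => norm_nonneg _) (fun g => by
      rw [Matrix.linfty_opNorm_def]
      have : (univ.sup fun i => ∑ j, ‖e i j g‖₊) ≤ ∑ i, ∑ j, ‖e i j g‖₊ :=
        Finset.sup_le fun i _ => Finset.single_le_sum
          (f := fun i => ∑ j, ‖e i j g‖₊) (fun _ _ => zero_le) (mem_univ i)
      simpa using NNReal.coe_le_coe.2 this)
      (summable_sum (s := univ) fun i _ => summable_sum (s := univ) fun j _ => hs i j))
    fun g => HasSum.tsum_eq (Pi.hasSum.2 fun i => Pi.hasSum.2 fun j => by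
      have := hasSum_sum (s := univ) fun k _ => (Summable.of_norm_bounded
        (f := fun h => e i k h * e k j (h⁻¹ * g)) ((hasSum_conv (hs i k)
        (hs k j) (fun _ => norm_nonneg _) fun _ => norm_nonneg _).1 g)
        fun _ => norm_mul_le _ _).hasSum
      rwa [he] at this)
  refine ⟨h1.toFinset.image ConjClasses.mk, ?_, fun C hC => ?_⟩
  · simp only [mem_image, Set.Finite.mem_toFinset]
    rintro _ ⟨h, hh, rfl⟩ g hg
    exact (ConjClasses.mk_eq_mk_iff_isConj.1
      (ConjClasses.mem_carrier_iff_mk_eq.1 hg)).symm.isOfFinOrder (h2 h hh)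
  · refine ((summable_sum (s := univ) fun i _ => (hs i i).of_norm).subtype _).hasSum_iff.2 ?_
    simp only [Function.comp_def]
    rw [tsum_subtype C.carrier fun g => ∑ i, e i i g, ← h3 (C.carrier.indicator 1)]
    · refine tsum_congr fun g => ?_
      by_cases hg : g ∈ C.carrier <;> simp [hg, Matrix.trace]
    · intro h g
      have : ConjClasses.mk (h * g * h⁻¹) = ConjClasses.mk g :=
        (ConjClasses.mk_eq_mk_iff_isConj.2 (isConj_iff.2 ⟨h, rfl⟩)).symm
      simp only [Set.indicator, ConjClasses.mem_carrier_iff_mk_eq, this, Pi.one_apply]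
    · intro g
      by_cases hg : g ∈ C.carrier <;> simp [hg]
    · intro g hg
      exact Set.indicator_of_notMem (fun h => hC (mem_image.2
        ⟨g, h1.mem_toFinset.2 hg, ConjClasses.mem_carrier_iff_mk_eq.1 h⟩)) _

end Vale.Agent.P184
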