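import Vale.Agent.P184.Bound
import Vale.Agent.P184.Fact

namespace Vale.Agent.P184

open Finset Matrix Filter Topology MeasureTheory

variable {G : Type*} [Group G] {k : ℕ}

/-- The standard connection form. -/
noncomputable def th0 : Fam G := fun _ _ _ s => ∑ i, dur s i • ContinuousLinearMap.proj i

omit [Group G] in
theorem th0_apply (g : G) (x : Fin (k + 1) → G) (s v : Fin (k + 1) → ℝ) :
    th0 k g x s v = ∑ i, dur s i * v i := by
  simp [th0]

theorem nxt_eq (s : Fin (k + 1) → ℝ) (i : Fin (k + 1)) :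
    nxt s i = s (finRotate (k + 1) i) + if i = Fin.last k then 1 else 0 := by
  refine Fin.lastCases ?_ (fun j => ?_) i
  · rw [nxt_last, finRotate_last, if_pos rfl]
  · rw [nxt_castSucc, if_neg (Fin.castSucc_ne_last j), add_zero]
    exact congrArg s (finRotate_of_lt j.2).symm

theorem th0_good : Good (th0 : Fam G) 1 := by
  refine ⟨⟨fun k g x s c => by simp only [th0, dur_shift], fun k h g x => rfl, ?_, ?_⟩, ?_, ?_⟩
  · intro k g x j s v
    rw [th0_apply, th0_apply, Fin.sum_univ_succAbove _ j]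
    simp only [dur, nxt_faceS_self, nxt_faceS_succAbove, faceS_succAbove, fidx_succAbove]
    ring
  · intro k g x s v
    rw [th0_apply, th0_apply, dur_rotS, ← sum_ra (fun i => dur s i * v i)]
    simp only [ra_eq]
  · intro k g x s _
    refine ContDiff.contDiffAt (ContDiff.sum fun i _ => ContDiff.fun_smul ?_ contDiff_const)
    simp only [dur, nxt_eq]
    fun_prop
  · intro k g x s _
    refine Eventually.of_forall fun t => ?_
    simp [th0_apply, sum_dur]

omit [Group G] in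
theorem cv_th0 (g : G) (x : Fin (k + 1) → G) (s : Fin (k + 1) → ℝ) : cv (th0 k g x s) = dur s := by
  funext b
  simp [cv, th0_apply, Pi.single_apply]

theorem toM_th0 (g : G) (x : Fin (k + 1) → G) {s : Fin (k + 1) → ℝ} (hs : s ∈ Dl k) :
    toM (fderiv ℝ (th0 k g x) s) = -1 + J1 k := by
  ext a b
  have h1 := fd_line (th0_good.diff g x hs) (Pi.single a 1) (Pi.single b 1)
  have e : (fun t : ℝ => th0 k g x (s + t • (Pi.single a 1 : Fin (k + 1) → ℝ)) (Pi.single b 1))
      = fun t => dur s b + t * (-1 + J1 k : Matrix _ _ ℝ) a b := by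
    funext t
    change cv _ b = _
    rw [cv_th0]
    simp only [dur, nxt_eq, Pi.add_apply, Pi.smul_apply, smul_eq_mul, Matrix.add_apply,
      Matrix.neg_apply, J1, of_apply, one_apply, Pi.single_apply, eq_comm (a := a)]
    ring
  rw [e] at h1
  exact h1.unique ((hasDerivAt_mul_const _).const_add _)

theorem Fs_th0 {ι : Type*} [Fintype ι] (e : Unit ⊕ (ι × Bool) ≃ Fin (k + 1)) {θ : Fam G}
    (hθ : Good θ 1) (g : G) (x : Fin (k + 1) → G) {s : Fin (k + 1) → ℝ} (hs : s ∈ Dl k) :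
    Fs e (fun _ => θ) (fun _ => th0) g x s = W e (fun _ => Pi.single 0 1) fun _ => J1 k := by
  have h := W_update_single e (fun _ => cv (θ k g x s)) (fun _ => toM (fderiv ℝ (th0 k g x) s)) ()
    (cv (θ k g x s) - Pi.single 0 1) (Pi.single 0 1)
  rw [sub_add_cancel, Function.update_eq_self, W_kill e (Function.update _ _ _) _ (u := 1)
    one_ne_zero _ (fun _ => th0_good.mulVec_one g x hs) (fun _ => th0_good.one_vecMul g x hs),
    zero_add, toM_th0 g x hs] at h
  · rw [Fs, toM_th0 g x hs, h, W_congr_null e fun r => null_symm e _ fun i j => by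
      simp [one_apply, eq_comm]]
    congr 1
  · intro i
    simp [hθ.cv_one g x hs]

theorem IF_th0 {ι : Type*} [Fintype ι] {χ : ℝ → ℝ} (hχ1 : ∀ x ≤ (1 : ℝ), χ x = 0)
    (e : Unit ⊕ (ι × Bool) ≃ Fin (k + 1)) {θ : Fam G} (hθ : Good θ 1) (g : G)
    (x : Fin (k + 1) → G) : IF χ e (fun _ => θ) (fun _ => th0) g x
      = (∫ τ in box (k + 1), χ (∑ i, τ i) * (∑ i, τ i)⁻¹ ^ k) *
        W e (fun _ => Pi.single 0 1) fun _ => J1 k := by
  rw [IF, ← integral_mul_const]
  refine setIntegral_congr_fun measurableSet_Icc fun τ hτ => ?_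
  by_cases h : 0 < ∑ i, τ i
  · simp only [Fs_th0 e hθ g x (Sm_mem hτ.1 h), mul_assoc]
  · simp only [hχ1 _ (show ∑ i, τ i ≤ 1 by linarith), zero_mul]

theorem Natural.comb {A B : Fam G} (hA : Natural A) (hB : Natural B) (F F' : ℝ → ℝ) :
    Natural fun k g x s => F (A k g x s 1) • A k g x s + F' (A k g x s 1) • B k g x s := by
  refine ⟨fun k g x s c => by simp only [hA.shift, hB.shift],
    fun k h g x => by simp only [hA.transl, hB.transl], fun k g x j s v => ?_, fun k g x s v => ?_⟩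
  · have : A (k + 1) g x (faceS j s) 1 = A k g (fun i => x (j.succAbove i)) s 1 :=
      hA.face k g x j s 1
    simp only [_root_.add_apply, _root_.smul_apply, hA.face, hB.face, this]
  · have : A k g (Vale.Agent.P184.rot g x) (rotS s) 1 = A k g x s 1 := by
      rw [← hA.rot k g x s 1, ra_eq]; rfl
    simp only [_root_.add_apply, _root_.smul_apply, hA.rot, hB.rot, this]

theorem Good.sub {A B : Fam G} {a b : ℝ} (hA : Good A a) (hB : Good B b) : Good (A - B) (a - b) := by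
  refine ⟨?_, fun k g x s hs => (hA.smooth k g x s hs).sub (hB.smooth k g x s hs),
    fun k g x s hs => ?_⟩
  · have := hA.nat.comb hB.nat (fun _ => 1) fun _ => -1
    have e : A - B = fun k g x s => (1 : ℝ) • A k g x s + (-1 : ℝ) • B k g x s := by
      funext k g x s
      ext v
      simp [sub_eq_add_neg]
    rw [e]; exact this
  · filter_upwards [hA.one k g x s hs, hB.one k g x s hs] with t h1 h2
    rw [← h1, ← h2]; rfl

/-- The modified form. -/
noncomputable def Lp (Λ : Fam G) (η : ℝ) : Fam G := fun k g x s => Λ k g x s + η • th0 k g x s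

/-- The normalized form. -/
noncomputable def th (Λ : Fam G) (η : ℝ) : Fam G :=
  fun k g x s => (Lp Λ η k g x s 1)⁻¹ • Lp Λ η k g x s

omit [Group G] in
theorem Lp_one (Λ : Fam G) (η : ℝ) (g : G) (x : Fin (k + 1) → G) (s : Fin (k + 1) → ℝ) :
    Lp Λ η k g x s 1 = Λ k g x s 1 + η := by
  simp [Lp, th0_apply, sum_dur]

variable {l : Len G} {L η ρ M : ℝ} {Λ : Fam G}

theorem AnFam.Lp_smooth (h : AnFam l L η ρ M Λ) (g : G) (x : Fin (k + 1) → G)
    {s : Fin (k + 1) → ℝ} (hs : s ∈ Dl k) : ContDiffAt ℝ 2 (Lp Λ η k g x) s :=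
  (h.smooth k g x).contDiffAt.add ((th0_good.smooth k g x s hs).const_smul η)

theorem AnFam.Lp_ge (h : AnFam l L η ρ M Λ) (g : G) (x : Fin (k + 1) → G)
    {s : Fin (k + 1) → ℝ} (hs : s ∈ Dl k) : η ≤ Lp Λ η k g x s 1 := by
  rw [Lp_one]; linarith [h.pos k g x s hs]

theorem AnFam.th_good (h : AnFam l L η ρ M Λ) (hη : 0 < η) : Good (th Λ η) 1 := by
  have hn : Natural (Lp Λ η) := by
    have := h.nat.comb th0_good.nat (fun _ => 1) fun _ => η
    simp only [one_smul] at this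
    exact this
  refine ⟨?_, fun k g x s hs => ?_, fun k g x s hs => ?_⟩
  · have := hn.comb hn (fun t => t⁻¹) fun _ => 0
    simp only [zero_smul, add_zero] at this
    exact this
  · exact (((h.Lp_smooth g x hs).clm_apply contDiffAt_const).inv
      (hη.trans_le (h.Lp_ge g x hs)).ne').smul (h.Lp_smooth g x hs)
  · filter_upwards [((h.Lp_smooth g x hs).continuousAt.clm_apply
      (continuousAt_const (y := (1 : Fin (k + 1) → ℝ)))).eventually
      (lt_mem_nhds (hη.trans_le (h.Lp_ge g x hs)))] with t ht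
    exact inv_mul_cancel₀ ht.ne'

theorem mass_symm {K : ℕ} {N S : Matrix (Fin K) (Fin K) ℝ} (hS : ∀ i j, S i j = S j i) :
    Mass N S 0 := ⟨le_rfl, fun Λ C _ h _ => by simp [h S hS]⟩

/-- The matrix of a bilinear form, as a linear map. -/
noncomputable def toML (K : ℕ) :
    ((Fin K → ℝ) →L[ℝ] (Fin K → ℝ) →L[ℝ] ℝ) →ₗ[ℝ] Matrix (Fin K) (Fin K) ℝ where
  toFun := toM
  map_add' _ _ := rfl
  map_smul' _ _ := rfl

theorem nrm_eq {K : ℕ} (ρ : Fin K → ℝ) (B : (Fin K → ℝ) →L[ℝ] (Fin K → ℝ) →L[ℝ] ℝ)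
    (v : Fin K → ℝ) : nrm ρ B v = √(v ⬝ᵥ formN ρ (toM B) *ᵥ v) := by
  rw [formN_apply, ← toM_apply, nrm]

theorem CBd.bd {K : ℕ} {ρ : Fin K → ℝ} {B : (Fin K → ℝ) →L[ℝ] (Fin K → ℝ) →L[ℝ] ℝ}
    {a : (Fin K → ℝ) →L[ℝ] ℝ} {α : ℝ} (h : CBd (nrm ρ B) a α) : Bd (formN ρ (toM B)) (cv a) α :=
  ⟨h.1, fun v => by rw [← cv_apply, ← nrm_eq]; exact h.2 v⟩

theorem AMass.mass {K : ℕ} {ρ : Fin K → ℝ} {B J : (Fin K → ℝ) →L[ℝ] (Fin K → ℝ) →L[ℝ] ℝ}
    {c : ℝ} (h : AMass (nrm ρ B) J c) : Mass (formN ρ (toM B)) (toM J) c :=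
  ⟨h.1, fun Λ C hC hS hΛ => h.2 (Λ ∘ₗ toML K) C hC (fun _ h => hS _ fun _ _ => h _ _)
    fun a b α β ha hb => hΛ (cv a) (cv b) α β ha.bd hb.bd⟩

theorem AnFam.ctl (h : AnFam l L η ρ M Λ) (hη : 0 < η) (hk : (k : ℝ) + 1 ≤ M) {g : G}
    (hg : l.Disp ρ ⌈l.C * Real.exp ρ⌉₊ g) (x : Fin (k + 1) → G) {s : Fin (k + 1) → ℝ}
    (hs : ∀ i, 0 < dur s i) : ∃ N : Matrix (Fin (k + 1)) (Fin (k + 1)) ℝ, N.PosDef ∧
      √(det N) ≤ Real.exp (2 * M) * ∏ i, (rho l M g x s i)⁻¹ ∧
      Ctl N (cv (th Λ η k g x s)) (th0 k g x) s (3 * M) ∧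
      Ctl N (cv (th Λ η k g x s)) ((th Λ η - th0 : Fam G) k g x) s (3 * M) ∧
      Ctl N (cv (th Λ η k g x s)) (th Λ η k g x) s (3 * M) ∧
      (∑ i, l.n (step g x i) ≤ L * M →
        Ctl N (cv (th Λ η k g x s)) (th Λ η k g x) s (2 * η * M)) := by
  obtain ⟨h1, B, hB1, hB2, hB3, hB4, hB5⟩ := h.est k hk g hg x s hs
  have hM1 : 1 ≤ M := by have : (0 : ℝ) ≤ k := by positivity
                         linarith
  have hρ := rho_pos l (by linarith : 0 < M) g x hs
  have hQ : (toM B).PosSemidef := PosSemidef.of_dotProduct_mulVec_nonneg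
    (by ext i j; exact hB1 _ _) fun v => by rw [star_trivial, ← toM_apply]; exact hB2 v
  have hsD : s ∈ Dl k := fun i => (hs i).le
  set N := formN (rho l M g x s) (toM B)
  have hb1 := bd_single hρ (rho_le_one l M g x s) hQ
  have b0 : Bd N (cv (th0 k g x s)) M := by
    rw [cv_th0, vec_eq_sum (dur s)]
    refine (Bd.sum _ fun i _ => (hb1 i).smul (dur s i)).mono ?_
    simp only [mul_one, fun i => abs_of_pos (hs i), sum_dur, hM1]
  have m0 : Mass N (toM (fderiv ℝ (th0 k g x) s)) M := by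
    have e : J1 k = ∑ b, vecMulVec (Pi.single (finRotate (k + 1) b) 1) (Pi.single b 1) := by
      ext i j
      simp [-finRotate_apply, J1, Matrix.sum_apply, vecMulVec_apply, Pi.single_apply]
    rw [toM_th0 g x hsD, e]
    refine ((mass_symm fun i j => by simp [one_apply, eq_comm]).add
      (Mass.sum _ fun b _ => Mass.rank_one (hb1 _) (hb1 b))).mono ?_
    simpa using hk
  have hT := h.Lp_ge g x hsD
  have hd := (h.Lp_smooth g x hsD).differentiableAt (by norm_num)
  set T := Lp Λ η k g x s 1 with hTe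
  have hT0 : 0 < T := hη.trans_le hT
  have key : Ctl N (cv (th Λ η k g x s)) (th Λ η k g x) s (T⁻¹ * (2 * η * M)) := by
    have hd1 : DifferentiableAt ℝ (fun s => (Lp Λ η k g x s 1)⁻¹) s :=
      (hd.clm_apply (differentiableAt_const _)).fun_inv hT0.ne'
    refine ⟨?_, T • cv (fderiv ℝ (fun s => (Lp Λ η k g x s 1)⁻¹) s),
      T⁻¹ • (toM (fderiv ℝ (Λ k g x) s) + η • toM (fderiv ℝ (th0 k g x) s)), ?_, ?_⟩
    · refine ((hB4.bd.add (b0.smul η)).smul T⁻¹).mono (le_of_eq ?_)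
      rw [abs_of_pos hη, abs_of_pos (inv_pos.2 hT0)]; ring
    · have e1 := fderiv_fun_smul hd1 hd
      have e2 : fderiv ℝ (Lp Λ η k g x) s
          = fderiv ℝ (Λ k g x) s + η • fderiv ℝ (th0 k g x) s :=
        (((h.smooth k g x).differentiable (by norm_num) s).hasFDerivAt.add
          ((th0_good.diff g x hsD).hasFDerivAt.const_smul η)).fderiv
      unfold th
      rw [e1, e2]
      ext i j
      simp only [toM, cv, of_apply, _root_.add_apply, _root_.smul_apply, smul_eq_mul,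
        ContinuousLinearMap.smulRight_apply, Matrix.add_apply, vecMulVec_apply, Pi.smul_apply,
        Matrix.smul_apply, ← hTe]
      field_simp
      ring
    · refine ((hB5.mass.add (m0.smul η)).smul T⁻¹).mono (le_of_eq ?_)
      rw [abs_of_pos hη, abs_of_pos (inv_pos.2 hT0)]; ring
  have k2 : Ctl N (cv (th Λ η k g x s)) (th Λ η k g x) s (2 * M) := key.mono (by
    rw [inv_mul_le_iff₀ hT0]; nlinarith)
  refine ⟨N, formN_posDef hρ hQ, sqrt_det_formN hρ hQ
    (hB3.trans (le_of_eq (by ring))), ⟨b0.mono (by linarith), 0, _, by simp,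
    m0.mono (by linarith)⟩, ?_, k2.mono (by linarith), fun hL => key.mono ?_⟩
  · obtain ⟨c1, a, J, c2, c3⟩ := k2
    refine ⟨(c1.sub b0).mono (by linarith), a, J + (-1 : ℝ) • toM (fderiv ℝ (th0 k g x) s), ?_,
      (c3.add (m0.smul (-1))).mono (by simp; linarith)⟩
    change toM (fderiv ℝ (th Λ η k g x - th0 k g x) s) = _
    rw [fderiv_sub ((h.th_good hη).diff g x hsD) (th0_good.diff g x hsD), ← add_assoc, ← c2,
      neg_smul, one_smul, ← sub_eq_add_neg]
    rfl
  · have : 1 ≤ T := by rw [hTe, Lp_one]; linarith [h1 hL]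
    exact mul_le_of_le_one_left (by positivity) (inv_le_one_of_one_le₀ this)

end Vale.Agent.P184
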